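import Crest.Statements.S0150

/-!
# R113, cut T: tail spaces of `ℓ²(ℤ)` and weighted shifts (weight independent part)
-/

set_option autoImplicit false
open Crest.AnalysisR.TwoAdic

namespace Crest.Agent.R113

theorem basisVec_apply (j i : ℤ) : (basisVec j : seqHilbert) i = if i = j then 1 else 0 := by
  unfold basisVec
  rw [lp.single_apply]
  by_cases h : i = j
  · subst h; simp
  · simp [h]

theorem basisVec_apply_self (j : ℤ) : (basisVec j : seqHilbert) j = 1 := by
  rw [basisVec_apply]; simp

theorem basisVec_apply_ne {j i : ℤ} (h : i ≠ j) : (basisVec j : seqHilbert) i = 0 := by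
  rw [basisVec_apply]; simp [h]

/-- The `i`-th coordinate as a continuous linear functional. -/
noncomputable def coordCLM (i : ℤ) : seqHilbert →L[ℂ] ℂ :=
  lp.evalCLM (𝕜 := ℂ) (E := fun _ : ℤ => ℂ) (p := 2) i

theorem coordCLM_apply (i : ℤ) (v : seqHilbert) : coordCLM i v = v i := rfl

theorem hasSum_basis (v : seqHilbert) : HasSum (fun j : ℤ => (v j) • basisVec j) v := by
  have h := lp.hasSum_single (E := fun _ : ℤ => ℂ) (p := 2) (by simp) v
  have e : (fun j : ℤ => (v j) • basisVec j) = fun j : ℤ => lp.single 2 j (v j) := by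
    funext j
    unfold basisVec
    rw [← lp.single_smul]
    simp
  rw [e]
  exact h

/-- Coordinates of the image of `v` under an operator that shifts the basis by `s` with weights `c`. -/
theorem shift_apply (A : seqHilbert →L[ℂ] seqHilbert) (c : ℤ → ℂ) (s : ℤ)
    (hA : ∀ j, A (basisVec j) = c j • basisVec (j + s)) (v : seqHilbert) (j : ℤ) :
    (A v) (j + s) = c j * v j := by
  have h1 : HasSum (fun k : ℤ => coordCLM (j + s) (A ((v k) • basisVec k))) (coordCLM (j + s) (A v)) :=
    ((hasSum_basis v).map A A.continuous).map (coordCLM (j + s)) (coordCLM (j + s)).continuous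
  have h2 : HasSum (fun k : ℤ => coordCLM (j + s) (A ((v k) • basisVec k))) (c j * v j) := by
    have e : ∀ k : ℤ, k ≠ j → coordCLM (j + s) (A ((v k) • basisVec k)) = 0 := by
      intro k hk
      rw [map_smul, hA, coordCLM_apply]
      have : (j + s) ≠ (k + s) := fun h => hk (by omega)
      simp [basisVec_apply_ne this]
    have e2 : coordCLM (j + s) (A ((v j) • basisVec j)) = c j * v j := by
      rw [map_smul, hA, coordCLM_apply]
      simp [basisVec_apply_self, mul_comm]
    rw [← e2]
    exact hasSum_single j e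
  have := h1.unique h2
  rw [coordCLM_apply] at this
  exact this

theorem isClosed_tailSpace (h : ℤ) : IsClosed (tailSpace h : Set seqHilbert) :=
  Submodule.isClosed_topologicalClosure _

theorem basisVec_mem_tailSpace {h j : ℤ} (hj : h ≤ j) : basisVec j ∈ tailSpace h :=
  Submodule.le_topologicalClosure _ (Submodule.subset_span ⟨⟨j, hj⟩, rfl⟩)

theorem mem_tailSpace_iff (h : ℤ) (v : seqHilbert) : v ∈ tailSpace h ↔ ∀ j < h, v j = 0 := by
  constructor
  · intro hv j hj
    -- the kernel of the coordinate functional is a closed submodule containing the generators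
    have hle : tailSpace h ≤ LinearMap.ker (coordCLM j).toLinearMap := by
      refine Submodule.topologicalClosure_minimal _ ?_ (coordCLM j).isClosed_ker
      rw [Submodule.span_le]
      rintro _ ⟨⟨k, hk⟩, rfl⟩
      have : j ≠ k := by omega
      simpa [coordCLM_apply] using basisVec_apply_ne this
    have := hle hv
    simpa [coordCLM_apply] using this
  · intro hv
    refine (isClosed_tailSpace h).mem_of_tendsto (hasSum_basis v) (Filter.Eventually.of_forall ?_)
    intro s
    refine Submodule.sum_mem _ ?_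
    intro j _
    by_cases hj : h ≤ j
    · exact Submodule.smul_mem _ _ (basisVec_mem_tailSpace hj)
    · rw [hv j (by omega), zero_smul]; exact Submodule.zero_mem _

theorem tailSpace_mono {h h' : ℤ} (hh : h ≤ h') : tailSpace h' ≤ tailSpace h := by
  intro v hv
  rw [mem_tailSpace_iff] at hv ⊢
  intro j hj
  exact hv j (by omega)

/-- A forward weighted shift maps `tailSpace h` into `tailSpace (h+1)`. -/
theorem forward_maps_tail (Sf : seqHilbert →L[ℂ] seqHilbert) (β : ℤ → ℝ)
    (hS : ∀ j, Sf (basisVec j) = (β j : ℂ) • basisVec (j + 1)) (h : ℤ)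
    (v : seqHilbert) (hv : v ∈ tailSpace h) : Sf v ∈ tailSpace (h + 1) := by
  rw [mem_tailSpace_iff] at hv ⊢
  intro i hi
  have := shift_apply Sf (fun j => (β j : ℂ)) 1 hS v (i - 1)
  rw [sub_add_cancel] at this
  rw [this, hv (i - 1) (by omega), mul_zero]

/-- Easy direction of the lattice clause: `⊥`, `⊤` and the tails are invariant. -/
theorem tail_invariant (Sf : seqHilbert →L[ℂ] seqHilbert) (β : ℤ → ℝ)
    (hS : ∀ j, Sf (basisVec j) = (β j : ℂ) • basisVec (j + 1))
    (W : Submodule ℂ seqHilbert) (hW : W = ⊥ ∨ W = ⊤ ∨ ∃ h : ℤ, W = tailSpace h) :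
    ∀ v ∈ W, Sf v ∈ W := by
  rcases hW with rfl | rfl | ⟨h, rfl⟩
  · intro v hv
    rw [Submodule.mem_bot] at hv
    rw [hv, map_zero]; exact Submodule.zero_mem _
  · intro v _; exact Submodule.mem_top
  · intro v hv
    exact tailSpace_mono (by omega : h ≤ h + 1) (forward_maps_tail Sf β hS h v hv)

/-- A backward weighted shift maps `tailSpace h` into `tailSpace (h-1)`. -/
theorem backward_maps_tail (Vf : seqHilbert →L[ℂ] seqHilbert) (b : ℤ → ℝ)
    (hV : ∀ j, Vf (basisVec j) = (b j : ℂ) • basisVec (j - 1)) (h : ℤ)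
    (v : seqHilbert) (hv : v ∈ tailSpace h) : Vf v ∈ tailSpace (h - 1) := by
  rw [mem_tailSpace_iff] at hv ⊢
  intro i hi
  have := shift_apply Vf (fun j => (b j : ℂ)) (-1) (by intro j; rw [hV j]; rfl) v (i + 1)
  rw [show i + 1 + -1 = i by ring] at this
  rw [this, hv (i + 1) (by omega), mul_zero]

theorem closure_image_tail (Vf : seqHilbert →L[ℂ] seqHilbert) (b : ℤ → ℝ)
    (hb : ∀ j, 0 < b j)
    (hV : ∀ j, Vf (basisVec j) = (b j : ℂ) • basisVec (j - 1)) (h : ℤ) :
    closure (Vf '' (tailSpace h : Set seqHilbert)) = (tailSpace (h - 1) : Set seqHilbert) := by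
  apply Set.Subset.antisymm
  · refine closure_minimal ?_ (isClosed_tailSpace (h - 1))
    rintro _ ⟨v, hv, rfl⟩
    exact backward_maps_tail Vf b hV h v hv
  · have hmap : ((tailSpace h).map Vf.toLinearMap : Set seqHilbert)
        = Vf '' (tailSpace h : Set seqHilbert) := by
      ext w; simp
    rw [← hmap, ← Submodule.topologicalClosure_coe]
    have hle : tailSpace (h - 1) ≤ ((tailSpace h).map Vf.toLinearMap).topologicalClosure := by
      unfold tailSpace
      refine Submodule.topologicalClosure_mono ?_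
      rw [Submodule.span_le]
      rintro _ ⟨⟨j, hj⟩, rfl⟩
      refine ⟨((b (j + 1) : ℂ))⁻¹ • basisVec (j + 1), ?_, ?_⟩
      · exact Submodule.smul_mem _ _ (basisVec_mem_tailSpace (by omega))
      · have hne : (b (j + 1) : ℂ) ≠ 0 := by exact_mod_cast (hb (j + 1)).ne'
        simp only [ContinuousLinearMap.coe_coe, map_smul, hV, add_sub_cancel_right, smul_smul]
        rw [inv_mul_cancel₀ hne, one_smul]
    exact hle

theorem closure_range_backward (Vf : seqHilbert →L[ℂ] seqHilbert) (b : ℤ → ℝ)
    (hb : ∀ j, 0 < b j)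
    (hV : ∀ j, Vf (basisVec j) = (b j : ℂ) • basisVec (j - 1)) :
    closure (Set.range Vf) = Set.univ := by
  rw [Set.eq_univ_iff_forall]
  intro v
  have hcl : IsClosed (closure (Set.range Vf)) := isClosed_closure
  refine hcl.mem_of_tendsto (hasSum_basis v) (Filter.Eventually.of_forall ?_)
  intro s
  apply subset_closure
  refine ⟨∑ j ∈ s, (v j * ((b (j + 1) : ℂ))⁻¹) • basisVec (j + 1), ?_⟩
  rw [map_sum]
  refine Finset.sum_congr rfl ?_
  intro j _
  have hne : (b (j + 1) : ℂ) ≠ 0 := by exact_mod_cast (hb (j + 1)).ne'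
  rw [map_smul, hV, add_sub_cancel_right, smul_smul, mul_assoc, inv_mul_cancel₀ hne, mul_one]

end Crest.Agent.R113
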