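import Mathlib
import Crest.Prelude.Def_TwoAdicShift

set_option autoImplicit false
open Crest.AnalysisR.TwoAdic MeasureTheory
attribute [local instance] Crest.AnalysisR.TwoAdic.borelTwoAdic Crest.AnalysisR.TwoAdic.borelSpace_twoAdic

namespace Crest.Agent.R113.Tr5

instance haar_isAddHaar : (haarTwoAdic).IsAddHaarMeasure := by
  unfold haarTwoAdic; infer_instance

instance haar_isProb : IsProbabilityMeasure haarTwoAdic := by
  constructor
  have := Measure.addHaarMeasure_self (K₀ := (⊤ : TopologicalSpace.PositiveCompacts ℤ_[2]))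
  simpa [haarTwoAdic] using this

theorem mp_add_one : MeasurePreserving (fun x : ℤ_[2] => x + 1) haarTwoAdic haarTwoAdic :=
  measurePreserving_add_right haarTwoAdic 1

theorem ergodic_add_one : Ergodic (fun x : ℤ_[2] => x + 1) haarTwoAdic := by
  have h : DenseRange (fun n : ℕ => n • (1 : ℤ_[2])) := by
    simpa using (PadicInt.denseRange_natCast (p := 2))
  have := ergodic_add_left_of_denseRange_nsmul h haarTwoAdic
  simpa [add_comm] using this

/-- invariance under bounded measurable multipliers, verbatim as in S0150 -/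
def MultInv (W : Submodule ℂ fibreSpace) : Prop :=
  ∀ g : ℤ_[2] → ℂ, Measurable g → (∃ C : ℝ, ∀ x, ‖g x‖ ≤ C) →
    ∀ f ∈ W, ∀ f' : fibreSpace,
      (∀ᵐ x ∂haarTwoAdic, (f' : ℤ_[2] → seqHilbert) x = g x • (f : ℤ_[2] → seqHilbert) x) → f' ∈ W

theorem inner_ae_zero {W : Submodule ℂ fibreSpace} (hW : MultInv W) {w u : fibreSpace}
    (hw : w ∈ W) (hu : u ∈ Wᗮ) :
    ∀ᵐ x ∂haarTwoAdic,
      inner ℂ ((w : ℤ_[2] → seqHilbert) x) ((u : ℤ_[2] → seqHilbert) x) = 0 := by
  set φ : ℤ_[2] → ℂ := fun x => inner ℂ ((w : ℤ_[2] → seqHilbert) x) ((u : ℤ_[2] → seqHilbert) x)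
    with hφ
  have hφm : Measurable φ :=
    ((Lp.stronglyMeasurable w).inner (Lp.stronglyMeasurable u)).measurable
  set g : ℤ_[2] → ℂ := fun x => φ x / (‖φ x‖ : ℂ) with hg
  have hgm : Measurable g := hφm.div (Complex.measurable_ofReal.comp hφm.norm)
  have hgb : ∀ x, ‖g x‖ ≤ 1 := by
    intro x
    simp only [hg, norm_div, Complex.norm_real, norm_norm]
    exact div_self_le_one _
  have hmem : MemLp (fun x => g x • (w : ℤ_[2] → seqHilbert) x) 2 haarTwoAdic := by
    refine (Lp.memLp w).mono (hgm.aestronglyMeasurable.smul (Lp.aestronglyMeasurable w)) ?_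
    refine Filter.Eventually.of_forall fun x => ?_
    rw [norm_smul]
    calc ‖g x‖ * ‖(w : ℤ_[2] → seqHilbert) x‖ ≤ 1 * ‖(w : ℤ_[2] → seqHilbert) x‖ :=
          mul_le_mul_of_nonneg_right (hgb x) (norm_nonneg _)
      _ = _ := one_mul _
  have hf' : hmem.toLp _ ∈ W := hW g hgm ⟨1, hgb⟩ w hw _ hmem.coeFn_toLp
  have h0 : inner ℂ (hmem.toLp _) u = 0 := (Submodule.mem_orthogonal _ _).1 hu _ hf'
  rw [L2.inner_def] at h0
  have h1 : ∫ x, ((‖φ x‖ : ℝ) : ℂ) ∂haarTwoAdic = 0 := by
    rw [← h0]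
    apply integral_congr_ae
    filter_upwards [hmem.coeFn_toLp] with x hx
    rw [hx, inner_smul_left]
    show ((‖φ x‖ : ℝ) : ℂ) = (starRingEnd ℂ) (g x) * φ x
    simp only [hg, map_div₀, Complex.conj_ofReal]
    by_cases h : φ x = 0
    · simp [h]
    · have hn : ((‖φ x‖ : ℝ) : ℂ) ≠ 0 := by simpa using h
      field_simp
      rw [mul_comm, Complex.mul_conj, Complex.normSq_eq_norm_sq]
      push_cast; ring
  rw [integral_complex_ofReal] at h1
  have h2 : ∫ x, ‖φ x‖ ∂haarTwoAdic = 0 := by exact_mod_cast h1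
  have hint : Integrable φ haarTwoAdic := L2.integrable_inner w u
  have h3 := (integral_eq_zero_iff_of_nonneg (fun x => norm_nonneg (φ x)) hint.norm).1 h2
  filter_upwards [h3] with x hx
  simpa using hx

theorem inner_basisVec_left (i : ℤ) (v : seqHilbert) : inner ℂ (basisVec i) v = v i := by
  unfold basisVec
  rw [lp.inner_single_left]
  simp

theorem basisVec_apply (i j : ℤ) : (basisVec i : seqHilbert) j = if j = i then 1 else 0 := by
  unfold basisVec
  by_cases h : j = i
  · subst h; simp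
  · simp [h]

/-- vectors whose coordinates below `m` vanish -/
def lowZero (m : ℤ) : Submodule ℂ seqHilbert where
  carrier := {v | ∀ i : ℤ, i < m → inner ℂ (basisVec i) v = 0}
  add_mem' := by
    intro a b ha hb i hi
    rw [inner_add_right, ha i hi, hb i hi, add_zero]
  zero_mem' := by
    intro i _; exact inner_zero_right _
  smul_mem' := by
    intro c a ha i hi
    rw [inner_smul_right, ha i hi, mul_zero]

theorem mem_lowZero {m : ℤ} {v : seqHilbert} :
    v ∈ lowZero m ↔ ∀ i : ℤ, i < m → inner ℂ (basisVec i) v = 0 := Iff.rfl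

theorem isClosed_lowZero (m : ℤ) : IsClosed (lowZero m : Set seqHilbert) := by
  have : (lowZero m : Set seqHilbert) =
      ⋂ i : ℤ, ⋂ _ : i < m, {v | inner ℂ (basisVec i) v = 0} := by
    ext v; simp [mem_lowZero]
  rw [this]
  refine isClosed_iInter fun i => isClosed_iInter fun _ => ?_
  exact isClosed_eq (by fun_prop) continuous_const

theorem lowZero_mono {m n : ℤ} (h : m ≤ n) : lowZero n ≤ lowZero m :=
  fun _ hv i hi => hv i (lt_of_lt_of_le hi h)

theorem basisVec_mem_tailSpace {h j : ℤ} (hj : h ≤ j) : basisVec j ∈ tailSpace h :=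
  Submodule.le_topologicalClosure _ (Submodule.subset_span ⟨⟨j, hj⟩, rfl⟩)

theorem tailSpace_le_lowZero {h m : ℤ} (hm : m ≤ h) : tailSpace h ≤ lowZero m := by
  refine Submodule.topologicalClosure_minimal _ ?_ (isClosed_lowZero m)
  rw [Submodule.span_le]
  rintro _ ⟨⟨j, hj⟩, rfl⟩ i hi
  rw [inner_basisVec_left, basisVec_apply, if_neg]
  intro h'
  simp only at h'
  omega

theorem basisVec_not_mem_lowZero {j m : ℤ} (h : j < m) : basisVec j ∉ lowZero m := by
  intro hv
  have := hv j h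
  rw [inner_basisVec_left, basisVec_apply, if_pos rfl] at this
  exact one_ne_zero this

theorem le_of_tailSpace_le_lowZero {h m : ℤ} (hle : tailSpace h ≤ lowZero m) : m ≤ h := by
  by_contra hlt
  exact basisVec_not_mem_lowZero (not_le.1 hlt) (hle (basisVec_mem_tailSpace le_rfl))

theorem eq_zero_of_inner_basisVec {v : seqHilbert} (h : ∀ i, inner ℂ (basisVec i) v = 0) :
    v = 0 := by
  ext i
  rw [← inner_basisVec_left, h i]
  rfl

theorem mem_closure_span_of_orth {p q : ℤ → seqHilbert} (hpq : ∀ j, p j + q j = basisVec j)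
    (horth : ∀ i j, inner ℂ (p i) (q j) = 0) {v : seqHilbert}
    (hv : ∀ j, inner ℂ v (q j) = 0) :
    v ∈ (Submodule.span ℂ (Set.range p)).topologicalClosure := by
  set A : Submodule ℂ seqHilbert := (Submodule.span ℂ (Set.range p)).topologicalClosure with hA
  have hAc : IsClosed (A : Set seqHilbert) := Submodule.isClosed_topologicalClosure _
  have : CompleteSpace A := hAc.completeSpace_coe
  have hpA : ∀ j, p j ∈ A := fun j =>
    Submodule.le_topologicalClosure _ (Submodule.subset_span ⟨j, rfl⟩)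
  have hqA : ∀ j, ∀ z ∈ A, inner ℂ z (q j) = 0 := by
    intro j
    have hle : A ≤ (Submodule.span ℂ {q j})ᗮ := by
      refine Submodule.topologicalClosure_minimal _ ?_ (Submodule.isClosed_orthogonal _)
      rw [Submodule.span_le]
      rintro _ ⟨i, rfl⟩
      exact Submodule.mem_orthogonal_singleton_iff_inner_left.2 (horth i j)
    intro z hz
    exact Submodule.mem_orthogonal_singleton_iff_inner_left.1 (hle hz)
  set a : seqHilbert := A.starProjection v with ha
  have haA : a ∈ A := Submodule.starProjection_apply_mem _ _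
  have hva : v - a ∈ Aᗮ := Submodule.sub_starProjection_mem_orthogonal _
  have hz : v - a = 0 := by
    apply eq_zero_of_inner_basisVec
    intro j
    rw [← hpq j, inner_add_left]
    have h1 : inner ℂ (p j) (v - a) = 0 := (Submodule.mem_orthogonal _ _).1 hva _ (hpA j)
    have h2 : inner ℂ (q j) (v - a) = 0 := by
      rw [← inner_conj_symm, inner_sub_left, hv j, hqA j a haA]
      simp
    rw [h1, h2, add_zero]
  have : v = a := sub_eq_zero.1 hz
  rw [this]; exact haA

section Main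

variable (W : Submodule ℂ fibreSpace)

/-- constant section `δ_j` -/
noncomputable def eC (j : ℤ) : fibreSpace := Lp.const 2 haarTwoAdic (basisVec j)

variable [W.HasOrthogonalProjection]

noncomputable def pW (j : ℤ) : fibreSpace := W.starProjection (eC j)

noncomputable def qW (j : ℤ) : fibreSpace := eC j - pW W j

theorem pW_mem (j : ℤ) : pW W j ∈ W := Submodule.starProjection_apply_mem _ _

theorem qW_mem (j : ℤ) : qW W j ∈ Wᗮ := Submodule.sub_starProjection_mem_orthogonal _

/-- the fibre of `W` at `x` -/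
noncomputable def fib (x : ℤ_[2]) : Submodule ℂ seqHilbert :=
  (Submodule.span ℂ (Set.range fun j : ℤ => (pW W j : ℤ_[2] → seqHilbert) x)).topologicalClosure

theorem isClosed_fib (x : ℤ_[2]) : IsClosed (fib W x : Set seqHilbert) :=
  Submodule.isClosed_topologicalClosure _

theorem pW_mem_fib (j : ℤ) (x : ℤ_[2]) : (pW W j : ℤ_[2] → seqHilbert) x ∈ fib W x :=
  Submodule.le_topologicalClosure _ (Submodule.subset_span ⟨j, rfl⟩)

theorem fib_le_iff {x : ℤ_[2]} {T : Submodule ℂ seqHilbert} (hT : IsClosed (T : Set seqHilbert)) :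
    fib W x ≤ T ↔ ∀ j, (pW W j : ℤ_[2] → seqHilbert) x ∈ T := by
  constructor
  · intro h j; exact h (pW_mem_fib W j x)
  · intro h
    refine Submodule.topologicalClosure_minimal _ ?_ hT
    rw [Submodule.span_le]
    rintro _ ⟨j, rfl⟩
    exact h j

variable {W}

theorem mem_fib_ae (hW : MultInv W) {f : fibreSpace} (hf : f ∈ W) :
    ∀ᵐ x ∂haarTwoAdic, (f : ℤ_[2] → seqHilbert) x ∈ fib W x := by
  have h1 : ∀ᵐ x ∂haarTwoAdic, ∀ j : ℤ,
      inner ℂ ((f : ℤ_[2] → seqHilbert) x) ((qW W j : ℤ_[2] → seqHilbert) x) = 0 :=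
    ae_all_iff.2 fun j => inner_ae_zero hW hf (qW_mem W j)
  have h2 : ∀ᵐ x ∂haarTwoAdic, ∀ i j : ℤ,
      inner ℂ ((pW W i : ℤ_[2] → seqHilbert) x) ((qW W j : ℤ_[2] → seqHilbert) x) = 0 :=
    ae_all_iff.2 fun i => ae_all_iff.2 fun j => inner_ae_zero hW (pW_mem W i) (qW_mem W j)
  have h3 : ∀ᵐ x ∂haarTwoAdic, ∀ j : ℤ,
      (pW W j : ℤ_[2] → seqHilbert) x + (qW W j : ℤ_[2] → seqHilbert) x = basisVec j := by
    refine ae_all_iff.2 fun j => ?_
    have hc : (eC j : ℤ_[2] → seqHilbert) =ᵐ[haarTwoAdic] Function.const _ (basisVec j) :=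
      Lp.coeFn_const 2 haarTwoAdic (basisVec j)
    filter_upwards [Lp.coeFn_sub (eC j) (pW W j), hc] with x hx hcx
    have : (qW W j : ℤ_[2] → seqHilbert) x
        = (eC j : ℤ_[2] → seqHilbert) x - (pW W j : ℤ_[2] → seqHilbert) x := hx
    rw [this, hcx]
    simp
  filter_upwards [h1, h2, h3] with x hx1 hx2 hx3
  exact mem_closure_span_of_orth hx3 hx2 hx1

end Main

theorem transitive_of_fibres
    (Sfib Vfib : ℤ_[2] → (seqHilbert →L[ℂ] seqHilbert)) (S V : fibreSpace →L[ℂ] fibreSpace)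
    (hS : ∀ f : fibreSpace, ∀ᵐ x ∂haarTwoAdic,
      (S f : ℤ_[2] → seqHilbert) x = Sfib x ((f : ℤ_[2] → seqHilbert) x))
    (huni : ∀ x, ∀ W : Submodule ℂ seqHilbert, IsClosed (W : Set seqHilbert) →
      ((∀ v ∈ W, Sfib x v ∈ W) → (W = ⊥ ∨ W = ⊤ ∨ ∃ h : ℤ, W = tailSpace h)))
    (hV : ∀ f : fibreSpace, ∀ᵐ x ∂haarTwoAdic,
      (V f : ℤ_[2] → seqHilbert) (x + 1) = Vfib x ((f : ℤ_[2] → seqHilbert) x))
    (hN : ∃ N : Set ℤ_[2], haarTwoAdic N = 0 ∧ ∀ x, x ∉ N →
      (∀ h : ℤ, closure (Vfib x '' (tailSpace h : Set seqHilbert))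
        = (tailSpace (h - 1) : Set seqHilbert)) ∧
      closure (Set.range (Vfib x)) = Set.univ) :
    ∀ W : Submodule ℂ fibreSpace, IsClosed (W : Set fibreSpace) →
      (∀ f ∈ W, S f ∈ W) → (∀ f ∈ W, V f ∈ W) →
      (∀ g : ℤ_[2] → ℂ, Measurable g → (∃ C : ℝ, ∀ x, ‖g x‖ ≤ C) →
        ∀ f ∈ W, ∀ f' : fibreSpace,
          (∀ᵐ x ∂haarTwoAdic,
            (f' : ℤ_[2] → seqHilbert) x = g x • (f : ℤ_[2] → seqHilbert) x) → f' ∈ W) →
      W = ⊥ ∨ W = ⊤ := by
  intro W hWc hSW hVW hM
  have hM' : MultInv W := hM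
  have : CompleteSpace W := hWc.completeSpace_coe
  obtain ⟨N, hN0, hNx⟩ := hN
  -- a.e. invariance of the fibres
  have hSx : ∀ᵐ x ∂haarTwoAdic, ∀ v ∈ fib W x, Sfib x v ∈ fib W x := by
    have h1 : ∀ᵐ x ∂haarTwoAdic, ∀ j : ℤ,
        Sfib x ((pW W j : ℤ_[2] → seqHilbert) x) ∈ fib W x := by
      refine ae_all_iff.2 fun j => ?_
      filter_upwards [mem_fib_ae hM' (hSW _ (pW_mem W j)), hS (pW W j)] with x h1 h2
      rw [← h2]; exact h1
    filter_upwards [h1] with x hx
    have hcl : IsClosed (((fib W x).comap (Sfib x : seqHilbert →ₗ[ℂ] seqHilbert) :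
        Submodule ℂ seqHilbert) : Set seqHilbert) :=
      (isClosed_fib W x).preimage (Sfib x).continuous
    have := (fib_le_iff W hcl).2 (fun j => hx j)
    intro v hv
    exact this hv
  have hVx : ∀ᵐ x ∂haarTwoAdic, ∀ v ∈ fib W x, Vfib x v ∈ fib W (x + 1) := by
    have h1 : ∀ᵐ x ∂haarTwoAdic, ∀ j : ℤ,
        Vfib x ((pW W j : ℤ_[2] → seqHilbert) x) ∈ fib W (x + 1) := by
      refine ae_all_iff.2 fun j => ?_
      have h0 := mp_add_one.quasiMeasurePreserving.ae (mem_fib_ae hM' (hVW _ (pW_mem W j)))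
      filter_upwards [h0, hV (pW W j)] with x h1 h2
      rw [← h2]; exact h1
    filter_upwards [h1] with x hx
    have hcl : IsClosed (((fib W (x + 1)).comap (Vfib x : seqHilbert →ₗ[ℂ] seqHilbert) :
        Submodule ℂ seqHilbert) : Set seqHilbert) :=
      (isClosed_fib W (x + 1)).preimage (Vfib x).continuous
    have := (fib_le_iff W hcl).2 (fun j => hx j)
    intro v hv
    exact this hv
  have htri : ∀ᵐ x ∂haarTwoAdic,
      fib W x = ⊥ ∨ fib W x = ⊤ ∨ ∃ h : ℤ, fib W x = tailSpace h := by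
    filter_upwards [hSx] with x hx
    exact huni x _ (isClosed_fib W x) hx
  have hNae : ∀ᵐ x ∂haarTwoAdic, x ∉ N := measure_eq_zero_iff_ae_notMem.1 hN0
  -- the sets `A m`
  set A : ℤ → Set ℤ_[2] := fun m => {x | fib W x ≤ lowZero m} with hA
  have hAmeas : ∀ m, MeasurableSet (A m) := by
    intro m
    have : A m = ⋂ j : ℤ, ⋂ i : ℤ, ⋂ _ : i < m,
        {x | inner ℂ (basisVec i) ((pW W j : ℤ_[2] → seqHilbert) x) = (0 : ℂ)} := by
      ext x
      simp only [hA, Set.mem_ofPred_eq, Set.mem_iInter]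
      rw [fib_le_iff W (isClosed_lowZero m)]
      rfl
    rw [this]
    refine MeasurableSet.iInter fun j => MeasurableSet.iInter fun i =>
      MeasurableSet.iInter fun _ => ?_
    exact measurableSet_eq_fun
      ((stronglyMeasurable_const.inner (Lp.stronglyMeasurable (pW W j))).measurable)
      measurable_const
  have hstep : ∀ m, ∀ᵐ x ∂haarTwoAdic, x + 1 ∈ A m → x ∈ A (m + 1) := by
    intro m
    filter_upwards [hVx, htri, hNae] with x hv ht hn hx1
    have hx1' : fib W (x + 1) ≤ lowZero m := hx1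
    obtain ⟨hcl1, hcl2⟩ := hNx x hn
    show fib W x ≤ lowZero (m + 1)
    rcases ht with h | h | ⟨h, hh⟩
    · rw [h]; exact bot_le
    · exfalso
      have hsub : Set.range (Vfib x) ⊆ (lowZero m : Set seqHilbert) := by
        rintro _ ⟨v, rfl⟩
        exact hx1' (hv v (by rw [h]; trivial))
      have hcl := closure_minimal hsub (isClosed_lowZero m)
      rw [hcl2] at hcl
      exact basisVec_not_mem_lowZero (j := m - 1) (by omega) (hcl (Set.mem_univ _))
    · rw [hh]
      have hsub : Vfib x '' (tailSpace h : Set seqHilbert) ⊆ (lowZero m : Set seqHilbert) := by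
        rintro _ ⟨v, hvv, rfl⟩
        exact hx1' (hv v (by rw [hh]; exact hvv))
      have hcl := closure_minimal hsub (isClosed_lowZero m)
      rw [hcl1 h] at hcl
      have : m ≤ h - 1 := le_of_tailSpace_le_lowZero hcl
      exact tailSpace_le_lowZero (by omega)
  have hsub : ∀ m, A (m + 1) ⊆ A m := fun m x hx =>
    le_trans (show fib W x ≤ lowZero (m + 1) from hx) (lowZero_mono (by omega))
  have hmeasure : ∀ m, haarTwoAdic (A m) ≤ haarTwoAdic (A (m + 1)) := by
    intro m
    rw [← mp_add_one.measure_preimage (hAmeas m).nullMeasurableSet]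
    exact measure_mono_ae (hstep m)
  have heq : ∀ m, A (m + 1) =ᵐ[haarTwoAdic] A m := fun m =>
    ae_eq_of_subset_of_measure_ge (hsub m) (hmeasure m) (hAmeas (m + 1)).nullMeasurableSet
      (measure_ne_top _ _)
  have hall : ∀ᵐ x ∂haarTwoAdic, ∀ m : ℤ, (x ∈ A (m + 1) ↔ x ∈ A m) :=
    ae_all_iff.2 fun m => (heq m).mem_iff
  have hall' : ∀ᵐ x ∂haarTwoAdic, ∀ m : ℤ, (x ∈ A m ↔ x ∈ A 0) := by
    filter_upwards [hall] with x hx m
    induction m using Int.induction_on with
    | zero => rfl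
    | succ n ih => rw [hx]; exact ih
    | pred n ih =>
      have := hx (-(n : ℤ) - 1)
      rw [sub_add_cancel] at this
      rw [← this]; exact ih
  have hle : (fun x : ℤ_[2] => x + 1) ⁻¹' (A 0) ≤ᵐ[haarTwoAdic] A 0 := by
    filter_upwards [hstep 0] with x hx hx1
    exact hsub 0 (hx hx1)
  rcases ergodic_add_one.ae_empty_or_univ_of_preimage_ae_le (hAmeas 0).nullMeasurableSet hle
    with h0 | h1
  · -- fibres are everything
    right
    have hnot : ∀ᵐ x ∂haarTwoAdic, x ∉ A 0 := by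
      filter_upwards [h0.mem_iff] with x hx
      simpa using hx
    have htop : ∀ᵐ x ∂haarTwoAdic, fib W x = ⊤ := by
      filter_upwards [hnot, hall', htri] with x hx ha ht
      rcases ht with h | h | ⟨h, hh⟩
      · exact absurd (show fib W x ≤ lowZero 0 by rw [h]; exact bot_le) hx
      · exact h
      · exact absurd ((ha h).1 (show fib W x ≤ lowZero h by
          rw [hh]; exact tailSpace_le_lowZero le_rfl)) hx
    rw [← Submodule.orthogonal_eq_bot_iff, Submodule.eq_bot_iff]
    intro u hu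
    have h1 : ∀ᵐ x ∂haarTwoAdic, ∀ j : ℤ,
        inner ℂ ((pW W j : ℤ_[2] → seqHilbert) x) ((u : ℤ_[2] → seqHilbert) x) = 0 :=
      ae_all_iff.2 fun j => inner_ae_zero hM' (pW_mem W j) hu
    have h2 : ∀ᵐ x ∂haarTwoAdic, (u : ℤ_[2] → seqHilbert) x = 0 := by
      filter_upwards [h1, htop] with x hx ht
      have hle : fib W x ≤ (Submodule.span ℂ {(u : ℤ_[2] → seqHilbert) x})ᗮ :=
        (fib_le_iff W (Submodule.isClosed_orthogonal _)).2 fun j =>
          Submodule.mem_orthogonal_singleton_iff_inner_left.2 (hx j)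
      have hmem : (u : ℤ_[2] → seqHilbert) x ∈ fib W x := by rw [ht]; trivial
      have := Submodule.mem_orthogonal_singleton_iff_inner_left.1 (hle hmem)
      exact inner_self_eq_zero.1 this
    exact (Lp.eq_zero_iff_ae_eq_zero).2 h2
  · -- fibres are zero
    left
    have hyes : ∀ᵐ x ∂haarTwoAdic, x ∈ A 0 := by
      filter_upwards [h1.mem_iff] with x hx
      simpa using hx
    have hbot : ∀ᵐ x ∂haarTwoAdic, fib W x = ⊥ := by
      filter_upwards [hyes, hall', htri] with x hx ha ht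
      rcases ht with h | h | ⟨h, hh⟩
      · exact h
      · exfalso
        have : fib W x ≤ lowZero 0 := hx
        rw [h] at this
        exact basisVec_not_mem_lowZero (j := -1) (by omega) (this trivial)
      · exfalso
        have : fib W x ≤ lowZero (h + 1) := (ha (h + 1)).2 hx
        rw [hh] at this
        have := le_of_tailSpace_le_lowZero this
        omega
    rw [Submodule.eq_bot_iff]
    intro f hf
    have : ∀ᵐ x ∂haarTwoAdic, (f : ℤ_[2] → seqHilbert) x = 0 := by
      filter_upwards [mem_fib_ae hM' hf, hbot] with x hx hb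
      rw [hb] at hx
      exact (Submodule.mem_bot ℂ).1 hx
    exact (Lp.eq_zero_iff_ae_eq_zero).2 this

end Crest.Agent.R113.Tr5
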