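import Crest.Agent.R113.FibreNorm
import Crest.Agent.R113.Tail
import Crest.Agent.R113.Transitive

/-!
R113, cut A (abstract part): the frozen statement S0150 from facts about the exponents `c` and the
backward weights `b` only (plus the unicellularity conclusion as a hypothesis).
-/

set_option autoImplicit false
open Crest.AnalysisR.TwoAdic MeasureTheory Filter Topology
attribute [local instance] Crest.AnalysisR.TwoAdic.borelTwoAdic Crest.AnalysisR.TwoAdic.borelSpace_twoAdic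

namespace Crest.Agent.R113

theorem s0150_of_weights (c b : ℤ → ℤ_[2] → ℝ)
    (hcm : ∀ j, Measurable (c j))
    (hc1 : ∀ j x, 1 ≤ c j x)
    (hwin : ∀ x (k : ℤ) (n : ℕ), 1 ≤ n →
      (((n + 1) ^ 2 / 4 : ℕ) : ℝ) ≤ ∑ i ∈ Finset.range n, c (k + i) x)
    (j₀ : ℤ) (E : Set ℤ_[2]) (hE : MeasurableSet E) (hEpos : haarTwoAdic E ≠ 0)
    (hE1 : ∀ x ∈ E, c j₀ x = 1)
    (hbm : ∀ j, Measurable (b j)) (hb01 : ∀ j x, 0 ≤ b j x ∧ b j x ≤ 1)
    (N : Set ℤ_[2]) (hN : haarTwoAdic N = 0) (hbpos : ∀ x, x ∉ N → ∀ j, 0 < b j x)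
    (hcomm : ∀ᵐ x ∂haarTwoAdic, ∀ j : ℤ,
      b (j + 1) x * Real.exp (-10 * c j x) = Real.exp (-10 * c (j - 1) (x + 1)) * b j x)
    (hU : ∀ (x : ℤ_[2]) (A : seqHilbert →L[ℂ] seqHilbert),
      (∀ j, A (basisVec j) = ((Real.exp (-10 * c j x) : ℝ) : ℂ) • basisVec (j + 1)) →
      ∀ W : Submodule ℂ seqHilbert, IsClosed (W : Set seqHilbert) → (∀ v ∈ W, A v ∈ W) →
        W = ⊥ ∨ W = ⊤ ∨ ∃ h : ℤ, W = tailSpace h) :
    ∃ (β b : ℤ → ℤ_[2] → ℝ) (Sfib Vfib : ℤ_[2] → (seqHilbert →L[ℂ] seqHilbert))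
      (S V : fibreSpace →L[ℂ] fibreSpace),
      (∀ j, Measurable (β j)) ∧ (∀ j x, 0 < β j x) ∧
      (∀ x j, Sfib x (basisVec j) = (β j x : ℂ) • basisVec (j + 1)) ∧
      (∀ f : fibreSpace, ∀ᵐ x ∂haarTwoAdic, (S f : ℤ_[2] → seqHilbert) x = Sfib x ((f : ℤ_[2] → seqHilbert) x)) ∧
      (∀ x, ∀ W : Submodule ℂ seqHilbert, IsClosed (W : Set seqHilbert) →
        ((∀ v ∈ W, Sfib x v ∈ W) ↔ (W = ⊥ ∨ W = ⊤ ∨ ∃ h : ℤ, W = tailSpace h))) ∧
      S ≠ 0 ∧ ‖S‖ = Real.exp (-10) ∧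
      (∀ n : ℕ, 1 ≤ n → ‖S ^ n‖ ≤ Real.exp (-10 * (((n + 1) ^ 2 / 4 : ℕ) : ℝ))) ∧
      ‖V‖ ≤ 1 ∧ V * S = S * V ∧
      (∀ j, Measurable (b j)) ∧ (∀ j x, 0 ≤ b j x ∧ b j x ≤ 1) ∧
      (∀ x j, Vfib x (basisVec j) = (b j x : ℂ) • basisVec (j - 1)) ∧
      (∀ f : fibreSpace, ∀ᵐ x ∂haarTwoAdic,
        (V f : ℤ_[2] → seqHilbert) (x + 1) = Vfib x ((f : ℤ_[2] → seqHilbert) x)) ∧
      (∃ N : Set ℤ_[2], haarTwoAdic N = 0 ∧ ∀ x, x ∉ N →
        (∀ j, 0 < b j x) ∧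
        (∀ h : ℤ, closure (Vfib x '' (tailSpace h : Set seqHilbert)) = (tailSpace (h - 1) : Set seqHilbert)) ∧
        closure (Set.range (Vfib x)) = Set.univ) ∧
      (∀ W : Submodule ℂ fibreSpace, IsClosed (W : Set fibreSpace) →
        (∀ f ∈ W, S f ∈ W) → (∀ f ∈ W, V f ∈ W) →
        (∀ g : ℤ_[2] → ℂ, Measurable g → (∃ C : ℝ, ∀ x, ‖g x‖ ≤ C) →
          ∀ f ∈ W, ∀ f' : fibreSpace,
            (∀ᵐ x ∂haarTwoAdic, (f' : ℤ_[2] → seqHilbert) x = g x • (f : ℤ_[2] → seqHilbert) x) → f' ∈ W) →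
        W = ⊥ ∨ W = ⊤) := by
  -- the forward weights
  set β : ℤ → ℤ_[2] → ℝ := fun j x => Real.exp (-10 * c j x) with hβdef
  have hβm : ∀ j, Measurable (β j) := fun j =>
    Real.measurable_exp.comp ((hcm j).const_mul (-10))
  have hβpos : ∀ j x, 0 < β j x := fun j x => Real.exp_pos _
  have hβle : ∀ j x, β j x ≤ Real.exp (-10) := by
    intro j x
    apply Real.exp_le_exp.mpr
    have := hc1 j x
    linarith
  have hwS : ∀ (x : ℤ_[2]) (j : ℤ), ‖((β j x : ℝ) : ℂ)‖ ≤ Real.exp (-10) := by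
    intro x j
    rw [Complex.norm_real, Real.norm_of_nonneg (hβpos j x).le]
    exact hβle j x
  have hwV : ∀ (x : ℤ_[2]) (j : ℤ), ‖((b j x : ℝ) : ℂ)‖ ≤ 1 := by
    intro x j
    rw [Complex.norm_real, Real.norm_of_nonneg (hb01 j x).1]
    exact (hb01 j x).2
  set Sfib : ℤ_[2] → (seqHilbert →L[ℂ] seqHilbert) :=
    wfield (fun x j => ((β j x : ℝ) : ℂ)) 1 (Real.exp (-10)) hwS with hSfib
  set Vfib : ℤ_[2] → (seqHilbert →L[ℂ] seqHilbert) :=
    wfield (fun x j => ((b j x : ℝ) : ℂ)) (-1) 1 hwV with hVfib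
  have hSmeas : ∀ v, StronglyMeasurable (fun x => Sfib x v) :=
    wfield_stronglyMeasurable _ _ _ _ (fun j => Complex.measurable_ofReal.comp (hβm j))
  have hVmeas : ∀ v, StronglyMeasurable (fun x => Vfib x v) :=
    wfield_stronglyMeasurable _ _ _ _ (fun j => Complex.measurable_ofReal.comp (hbm j))
  set S : fibreSpace →L[ℂ] fibreSpace :=
    fibreCLM Sfib hSmeas (Real.exp (-10)) (wfield_norm_le _ _ _ _) with hSdef
  set V : fibreSpace →L[ℂ] fibreSpace :=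
    skewCLM Vfib hVmeas 1 (wfield_norm_le _ _ _ _) with hVdef
  have h3 : ∀ x j, Sfib x (basisVec j) = (β j x : ℂ) • basisVec (j + 1) := fun x j =>
    wfield_basisVec _ _ _ _ x j
  have h13 : ∀ x j, Vfib x (basisVec j) = (b j x : ℂ) • basisVec (j - 1) := fun x j => by
    rw [sub_eq_add_neg]
    exact wfield_basisVec _ _ _ _ x j
  have h4 : ∀ f : fibreSpace, ∀ᵐ x ∂haarTwoAdic,
      (S f : ℤ_[2] → seqHilbert) x = Sfib x ((f : ℤ_[2] → seqHilbert) x) :=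
    fibreCLM_ae _ _ _ _
  have h14 : ∀ f : fibreSpace, ∀ᵐ x ∂haarTwoAdic,
      (V f : ℤ_[2] → seqHilbert) (x + 1) = Vfib x ((f : ℤ_[2] → seqHilbert) x) :=
    skewCLM_ae _ _ _ _
  have h5 : ∀ x, ∀ W : Submodule ℂ seqHilbert, IsClosed (W : Set seqHilbert) →
      ((∀ v ∈ W, Sfib x v ∈ W) ↔ (W = ⊥ ∨ W = ⊤ ∨ ∃ h : ℤ, W = tailSpace h)) := by
    intro x W hW
    constructor
    · exact hU x (Sfib x) (h3 x) W hW
    · exact tail_invariant (Sfib x) (fun j => β j x) (h3 x) W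
  have h7 : ‖S‖ = Real.exp (-10) := by
    refine norm_eq_of_weights S Sfib β (fun j x => (hβpos j x).le) h3 h4 (Real.exp (-10))
      (Real.exp_pos _) hβle j₀ E hE hEpos ?_
    intro x hx
    simp only [hβdef]
    rw [hE1 x hx, mul_one]
  have h6 : S ≠ 0 := by
    intro h0
    rw [h0, norm_zero] at h7
    exact absurd h7 (Real.exp_pos _).ne
  have h8 : ∀ n : ℕ, 1 ≤ n → ‖S ^ n‖ ≤ Real.exp (-10 * (((n + 1) ^ 2 / 4 : ℕ) : ℝ)) := by
    intro n hn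
    refine norm_pow_le_of_weights S Sfib β (fun j x => (hβpos j x).le) h3 h4 n _
      (Real.exp_pos _).le ?_
    intro x j
    simp only [hβdef]
    rw [← Real.exp_sum]
    apply Real.exp_le_exp.mpr
    rw [← Finset.mul_sum]
    have := hwin x j n hn
    linarith
  have h9 : ‖V‖ ≤ 1 := skewCLM_norm_le _ _ _ _
  have h10 : V * S = S * V := by
    refine skew_commute S V Sfib Vfib h4 h14 ?_
    filter_upwards [hcomm] with x hx
    apply ws_clm_ext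
    intro j
    change Vfib x (Sfib x (basisVec j)) = Sfib (x + 1) (Vfib x (basisVec j))
    rw [h3, h13, map_smul, map_smul, h13, h3, smul_smul, smul_smul]
    have e1 : j + 1 - 1 = j := by ring
    have e2 : j - 1 + 1 = j := by ring
    rw [e1, e2]
    congr 1
    have := hx j
    simp only [hβdef]
    rw [mul_comm, ← Complex.ofReal_mul, this, mul_comm, Complex.ofReal_mul]
  have h15 : ∃ N : Set ℤ_[2], haarTwoAdic N = 0 ∧ ∀ x, x ∉ N →
      (∀ j, 0 < b j x) ∧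
      (∀ h : ℤ, closure (Vfib x '' (tailSpace h : Set seqHilbert))
        = (tailSpace (h - 1) : Set seqHilbert)) ∧
      closure (Set.range (Vfib x)) = Set.univ := by
    refine ⟨N, hN, fun x hx => ⟨hbpos x hx, fun h => ?_, ?_⟩⟩
    · exact closure_image_tail (Vfib x) (fun j => b j x) (hbpos x hx) (h13 x) h
    · exact closure_range_backward (Vfib x) (fun j => b j x) (hbpos x hx) (h13 x)
  have h16 := Tr5.transitive_of_fibres Sfib Vfib S V h4 (fun x W hW h => (h5 x W hW).1 h) h14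
    (by
      obtain ⟨N', hN', hx'⟩ := h15
      exact ⟨N', hN', fun x hx => (hx' x hx).2⟩)
  exact ⟨β, b, Sfib, Vfib, S, V, hβm, hβpos, h3, h4, h5, h6, h7, h8, h9, h10, hbm, hb01, h13, h14,
    h15, h16⟩

end Crest.Agent.R113
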