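import Crest.Statements.S0150

/-!
R113, cut B: `S0148` from the conjuncts of `S0150`.
* two separable infinite-dimensional complex Hilbert spaces are unitarily equivalent;
* `fibreSpace` is separable and infinite-dimensional;
* decomposable operators / bounded multipliers on `fibreSpace`;
* quasinilpotence from the norm bound, transport along a unitary.
-/

set_option autoImplicit false
set_option linter.unusedSectionVars false
set_option linter.style.haveILetI false
open Crest.AnalysisR.TwoAdic MeasureTheory Filter Topology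
attribute [local instance] Crest.AnalysisR.TwoAdic.borelTwoAdic Crest.AnalysisR.TwoAdic.borelSpace_twoAdic

namespace Crest.Agent.R113

section HilbertIso

variable {H : Type*} [NormedAddCommGroup H] [InnerProductSpace ℂ H] [CompleteSpace H]

/-- An orthonormal family in a separable inner product space is countable. -/
theorem countable_of_orthonormal [TopologicalSpace.SeparableSpace H] {ι : Type*} {v : ι → H}
    (hv : Orthonormal ℂ v) : Countable ι := by
  refine Pairwise.countable_of_isOpen_disjoint (s := fun i => Metric.ball (v i) (1 / 2)) ?_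
    (fun i => Metric.isOpen_ball) (fun i => ⟨v i, Metric.mem_ball_self (by norm_num)⟩)
  intro i j hij
  refine Metric.ball_disjoint_ball ?_
  have h1 : ‖v i - v j‖ ^ 2 = 2 := by
    rw [@norm_sub_sq ℂ, hv.1 i, hv.1 j, hv.2 hij]
    norm_num
  rw [dist_eq_norm]
  nlinarith [norm_nonneg (v i - v j)]

/-- A separable infinite-dimensional complex Hilbert space has a Hilbert basis indexed by `ℕ`. -/
theorem exists_hilbertBasis_nat [TopologicalSpace.SeparableSpace H]
    (hH : ¬ FiniteDimensional ℂ H) : Nonempty (HilbertBasis ℕ ℂ H) := by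
  obtain ⟨w, b, -⟩ := exists_hilbertBasis ℂ H
  haveI hc : Countable w := countable_of_orthonormal b.orthonormal
  haveI hi : Infinite w := by
    by_contra hfin
    rw [not_infinite_iff_finite] at hfin
    apply hH
    have hd := b.dense_span
    haveI : FiniteDimensional ℂ (Submodule.span ℂ (Set.range b)) :=
      FiniteDimensional.span_of_finite ℂ (Set.finite_range b)
    have hcl : IsClosed ((Submodule.span ℂ (Set.range b) : Submodule ℂ H) : Set H) :=
      Submodule.closed_of_finiteDimensional _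
    rw [hcl.submodule_topologicalClosure_eq] at hd
    exact Module.finite_def.2 (hd ▸ Submodule.fg_span (Set.finite_range b))
  obtain ⟨hden⟩ := nonempty_denumerable w
  let e : ℕ ≃ w := (Denumerable.eqv w).symm
  refine ⟨HilbertBasis.mk (v := b ∘ e) (b.orthonormal.comp e e.injective) ?_⟩
  rw [e.surjective.range_comp, b.dense_span]

/-- Two separable infinite-dimensional complex Hilbert spaces are isometrically isomorphic. -/
theorem exists_unitary {F : Type*} [NormedAddCommGroup F] [InnerProductSpace ℂ F] [CompleteSpace F]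
    [TopologicalSpace.SeparableSpace H] [TopologicalSpace.SeparableSpace F]
    (hH : ¬ FiniteDimensional ℂ H) (hF : ¬ FiniteDimensional ℂ F) : Nonempty (H ≃ₗᵢ[ℂ] F) := by
  obtain ⟨b1⟩ := exists_hilbertBasis_nat hH
  obtain ⟨b2⟩ := exists_hilbertBasis_nat hF
  exact ⟨b1.repr.trans b2.repr.symm⟩

end HilbertIso

instance isProbabilityMeasure_haarTwoAdic : IsProbabilityMeasure haarTwoAdic := by
  constructor
  have h := Measure.addHaarMeasure_self (K₀ := (⊤ : TopologicalSpace.PositiveCompacts ℤ_[2]))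
  simpa [haarTwoAdic] using h

/-- The standard Hilbert basis of `ℓ²(ℤ)`. -/
noncomputable def stdBasis : HilbertBasis ℤ ℂ seqHilbert :=
  HilbertBasis.ofRepr (LinearIsometryEquiv.refl ℂ seqHilbert)

theorem stdBasis_apply (j : ℤ) : stdBasis j = basisVec j := by
  have := stdBasis.repr_symm_single j
  rw [← this]
  rfl

instance separableSpace_seqHilbert : TopologicalSpace.SeparableSpace seqHilbert := by
  rw [← TopologicalSpace.isSeparable_univ_iff]
  have h1 : TopologicalSpace.IsSeparable (Set.range stdBasis) :=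
    (Set.countable_range _).isSeparable
  have h2 := (h1.span (R := ℂ)).closure
  have h3 := stdBasis.dense_span
  have h4 : closure ((Submodule.span ℂ (Set.range stdBasis) : Submodule ℂ seqHilbert) : Set seqHilbert)
      = Set.univ := by
    rw [← Submodule.topologicalClosure_coe, h3]; rfl
  rwa [h4] at h2

theorem not_finiteDimensional_seqHilbert : ¬ FiniteDimensional ℂ seqHilbert := by
  intro h
  have := stdBasis.orthonormal.linearIndependent.finite
  exact not_finite ℤ

instance separableSpace_fibreSpace : TopologicalSpace.SeparableSpace fibreSpace := by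
  haveI : Fact ((2 : ENNReal) ≠ ⊤) := ⟨by norm_num⟩
  haveI : SecondCountableTopology fibreSpace := inferInstance
  infer_instance

theorem not_finiteDimensional_fibreSpace : ¬ FiniteDimensional ℂ fibreSpace := by
  intro h
  apply not_finiteDimensional_seqHilbert
  refine FiniteDimensional.of_injective (Lp.constₗ 2 haarTwoAdic ℂ : seqHilbert →ₗ[ℂ] fibreSpace) ?_
  rw [← LinearMap.ker_eq_bot, LinearMap.ker_eq_bot']
  intro c hc
  have h1 : ‖Lp.const 2 haarTwoAdic c‖ = 0 := by
    have : Lp.const 2 haarTwoAdic c = 0 := hc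
    rw [this, norm_zero]
  rw [Lp.norm_const' _ _ _ (by norm_num) (by norm_num)] at h1
  simpa using h1

/-- A uniformly bounded field of operators which maps measurable sections to measurable sections
defines a bounded decomposable operator on `fibreSpace`. -/
theorem exists_fibre_op (A : ℤ_[2] → (seqHilbert →L[ℂ] seqHilbert))
    (hmeas : ∀ f : ℤ_[2] → seqHilbert, AEStronglyMeasurable f haarTwoAdic →
      AEStronglyMeasurable (fun x => A x (f x)) haarTwoAdic)
    (C : ℝ) (hC : ∀ x, ‖A x‖ ≤ C) :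
    ∃ M : fibreSpace →L[ℂ] fibreSpace, ‖M‖ ≤ max C 0 ∧ ∀ f : fibreSpace, ∀ᵐ x ∂haarTwoAdic,
      (M f : ℤ_[2] → seqHilbert) x = A x ((f : ℤ_[2] → seqHilbert) x) := by
  have hbd : ∀ (x : ℤ_[2]) (v : seqHilbert), ‖A x v‖ ≤ max C 0 * ‖v‖ := fun x v =>
    ((A x).le_opNorm v).trans
      (mul_le_mul_of_nonneg_right ((hC x).trans (le_max_left _ _)) (norm_nonneg _))
  have hmem : ∀ f : fibreSpace,
      MemLp (fun x => A x ((f : ℤ_[2] → seqHilbert) x)) 2 haarTwoAdic := fun f =>
    (Lp.memLp f).of_le_mul (c := max C 0) (hmeas _ (Lp.aestronglyMeasurable f))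
      (ae_of_all _ fun x => hbd x _)
  let L : fibreSpace →ₗ[ℂ] fibreSpace :=
    { toFun := fun f => (hmem f).toLp _
      map_add' := by
        intro f f'
        apply Lp.ext
        filter_upwards [(hmem (f + f')).coeFn_toLp, (hmem f).coeFn_toLp, (hmem f').coeFn_toLp,
          Lp.coeFn_add f f', Lp.coeFn_add ((hmem f).toLp _) ((hmem f').toLp _)]
          with x h1 h2 h3 h4 h5
        rw [h1, h5, Pi.add_apply, h2, h3, h4, Pi.add_apply, map_add]
      map_smul' := by
        intro c f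
        apply Lp.ext
        filter_upwards [(hmem (c • f)).coeFn_toLp, (hmem f).coeFn_toLp,
          Lp.coeFn_smul c f, Lp.coeFn_smul c ((hmem f).toLp _)]
          with x h1 h2 h4 h5
        rw [h1, RingHom.id_apply, h5, Pi.smul_apply, h2, h4, Pi.smul_apply, map_smul] }
  have hL : ∀ f : fibreSpace, ‖L f‖ ≤ max C 0 * ‖f‖ := by
    intro f
    apply Lp.norm_le_mul_norm_of_ae_le_mul
    filter_upwards [(hmem f).coeFn_toLp] with x h1
    have : (L f : ℤ_[2] → seqHilbert) x = A x ((f : ℤ_[2] → seqHilbert) x) := h1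
    rw [this]
    exact hbd x _
  refine ⟨L.mkContinuous (max C 0) hL, LinearMap.mkContinuous_norm_le _ (le_max_right _ _) _, ?_⟩
  intro f
  exact (hmem f).coeFn_toLp

/-- Multiplication by a bounded measurable scalar function. -/
theorem exists_multiplier (g : ℤ_[2] → ℂ) (hg : Measurable g) (C : ℝ) (hC : ∀ x, ‖g x‖ ≤ C) :
    ∃ M : fibreSpace →L[ℂ] fibreSpace, ∀ f : fibreSpace, ∀ᵐ x ∂haarTwoAdic,
      (M f : ℤ_[2] → seqHilbert) x = g x • (f : ℤ_[2] → seqHilbert) x := by
  obtain ⟨M, -, hM⟩ := exists_fibre_op (fun x => g x • ContinuousLinearMap.id ℂ seqHilbert)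
    (fun f hf => by
      have h := hg.aestronglyMeasurable.smul hf
      exact h) C
    (fun x => by
      rw [norm_smul]
      refine (mul_le_mul_of_nonneg_left ContinuousLinearMap.norm_id_le (norm_nonneg _)).trans ?_
      simpa using hC x)
  exact ⟨M, fun f => by simpa using hM f⟩

/-- Quasinilpotence from the super-exponential norm bound. -/
theorem tendsto_root_of_bound (a : ℕ → ℝ) (h0 : ∀ n, 0 ≤ a n)
    (h : ∀ n : ℕ, 1 ≤ n → a n ≤ Real.exp (-10 * (((n + 1) ^ 2 / 4 : ℕ) : ℝ))) :
    Tendsto (fun n : ℕ => a n ^ (1 / (n : ℝ))) atTop (𝓝 0) := by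
  have hlim : Tendsto (fun n : ℕ => Real.exp (-(n : ℝ))) atTop (𝓝 0) :=
    Real.tendsto_exp_neg_atTop_nhds_zero.comp tendsto_natCast_atTop_atTop
  refine squeeze_zero' (Eventually.of_forall fun n => Real.rpow_nonneg (h0 n) _) ?_ hlim
  filter_upwards [eventually_ge_atTop 1] with n hn
  have hn0 : (0 : ℝ) < n := by exact_mod_cast hn
  have hdiv : n * n ≤ 4 * ((n + 1) ^ 2 / 4) := by
    have h1 := Nat.div_add_mod ((n + 1) ^ 2) 4
    have h2 := Nat.mod_lt ((n + 1) ^ 2) (by norm_num : 4 > 0)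
    nlinarith
  have hdiv' : (n : ℝ) * n ≤ 4 * (((n + 1) ^ 2 / 4 : ℕ) : ℝ) := by exact_mod_cast hdiv
  have h1 : a n ≤ Real.exp (-(n : ℝ) * n) := by
    refine (h n hn).trans (Real.exp_le_exp.2 ?_)
    nlinarith
  calc a n ^ (1 / (n : ℝ)) ≤ (Real.exp (-(n : ℝ) * n)) ^ (1 / (n : ℝ)) :=
        Real.rpow_le_rpow (h0 n) h1 (by positivity)
    _ = Real.exp (-(n : ℝ)) := by
        rw [← Real.exp_mul]
        congr 1
        field_simp

section Transport

variable {H F : Type*} [NormedAddCommGroup H] [InnerProductSpace ℂ H]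
  [NormedAddCommGroup F] [InnerProductSpace ℂ F]

/-- Conjugation of an operator on `F` by a unitary `U : H ≃ F`. -/
noncomputable def conj (U : H ≃ₗᵢ[ℂ] F) (A : F →L[ℂ] F) : H →L[ℂ] H :=
  (U.symm.toContinuousLinearEquiv : F →L[ℂ] H) ∘L A ∘L (U.toContinuousLinearEquiv : H →L[ℂ] F)

theorem conj_apply (U : H ≃ₗᵢ[ℂ] F) (A : F →L[ℂ] F) (v : H) : conj U A v = U.symm (A (U v)) := rfl

theorem conj_mul (U : H ≃ₗᵢ[ℂ] F) (A B : F →L[ℂ] F) : conj U (A * B) = conj U A * conj U B := by
  ext v
  simp [conj_apply]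

theorem conj_one (U : H ≃ₗᵢ[ℂ] F) : conj U (1 : F →L[ℂ] F) = 1 := by
  ext v
  simp [conj_apply]

theorem conj_pow (U : H ≃ₗᵢ[ℂ] F) (A : F →L[ℂ] F) (n : ℕ) : conj U (A ^ n) = conj U A ^ n := by
  induction n with
  | zero => simp [conj_one]
  | succ n ih => rw [pow_succ, pow_succ, conj_mul, ih]

theorem norm_conj_le (U : H ≃ₗᵢ[ℂ] F) (A : F →L[ℂ] F) : ‖conj U A‖ ≤ ‖A‖ := by
  refine ContinuousLinearMap.opNorm_le_bound _ (norm_nonneg _) fun v => ?_
  rw [conj_apply, U.symm.norm_map]
  simpa using A.le_opNorm (U v)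

/-- Transport of "quasinilpotent without hyperinvariant subspace" along a unitary. -/
theorem transport (U : H ≃ₗᵢ[ℂ] F) (S : F →L[ℂ] F) (hS0 : S ≠ 0)
    (hSn : ∀ n : ℕ, 1 ≤ n → ‖S ^ n‖ ≤ Real.exp (-10 * (((n + 1) ^ 2 / 4 : ℕ) : ℝ)))
    (htr : ∀ W : Submodule ℂ F, IsClosed (W : Set F) →
      (∀ A : F →L[ℂ] F, A * S = S * A → ∀ v ∈ W, A v ∈ W) → W = ⊥ ∨ W = ⊤) :
    ∃ T : H →L[ℂ] H, T ≠ 0 ∧
      Tendsto (fun n : ℕ => ‖T ^ n‖ ^ (1 / (n : ℝ))) atTop (𝓝 0) ∧
      ∀ V : Submodule ℂ H, IsClosed (V : Set H) →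
        (∀ A : H →L[ℂ] H, A * T = T * A → ∀ v ∈ V, A v ∈ V) → V = ⊥ ∨ V = ⊤ := by
  refine ⟨conj U S, ?_, ?_, ?_⟩
  · intro h
    apply hS0
    ext w
    have h1 : conj U S (U.symm w) = 0 := by rw [h]; rfl
    rw [conj_apply, U.apply_symm_apply] at h1
    simpa using h1
  · refine tendsto_root_of_bound _ (fun n => norm_nonneg _) fun n hn => ?_
    rw [← conj_pow]
    exact (norm_conj_le U _).trans (hSn n hn)
  · intro V hV hinv
    let W : Submodule ℂ F := V.map (U.toLinearEquiv : H →ₗ[ℂ] F)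
    have hWmem : ∀ w : F, w ∈ W ↔ U.symm w ∈ V := by
      intro w
      constructor
      · rintro ⟨v, hv, rfl⟩
        simpa using hv
      · intro hw
        exact ⟨U.symm w, hw, by simp⟩
    have hWcl : IsClosed (W : Set F) := by
      have : (W : Set F) = U.symm ⁻¹' (V : Set H) := by
        ext w
        exact hWmem w
      rw [this]
      exact hV.preimage U.symm.continuous
    have hWinv : ∀ A : F →L[ℂ] F, A * S = S * A → ∀ v ∈ W, A v ∈ W := by
      intro A hA w hw
      rw [hWmem] at hw ⊢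
      have h1 := hinv (conj U A) (by rw [← conj_mul, ← conj_mul, hA]) _ hw
      rw [conj_apply, U.apply_symm_apply] at h1
      exact h1
    rcases htr W hWcl hWinv with h | h
    · left
      rw [Submodule.eq_bot_iff]
      intro v hv
      have : U v ∈ W := (hWmem _).2 (by simpa using hv)
      rw [h, Submodule.mem_bot] at this
      simpa using this
    · right
      rw [Submodule.eq_top_iff']
      intro v
      have : U v ∈ W := by rw [h]; trivial
      simpa using (hWmem _).1 this

end Transport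

/-- `S0148` from (some of) the conjuncts of `S0150`. -/
theorem s0148_of_fibre (Sfib : ℤ_[2] → (seqHilbert →L[ℂ] seqHilbert))
    (S V : fibreSpace →L[ℂ] fibreSpace)
    (hSf : ∀ f : fibreSpace, ∀ᵐ x ∂haarTwoAdic,
      (S f : ℤ_[2] → seqHilbert) x = Sfib x ((f : ℤ_[2] → seqHilbert) x))
    (hS0 : S ≠ 0)
    (hSn : ∀ n : ℕ, 1 ≤ n → ‖S ^ n‖ ≤ Real.exp (-10 * (((n + 1) ^ 2 / 4 : ℕ) : ℝ)))
    (hVS : V * S = S * V)
    (htr : ∀ W : Submodule ℂ fibreSpace, IsClosed (W : Set fibreSpace) →
        (∀ f ∈ W, S f ∈ W) → (∀ f ∈ W, V f ∈ W) →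
        (∀ g : ℤ_[2] → ℂ, Measurable g → (∃ C : ℝ, ∀ x, ‖g x‖ ≤ C) →
          ∀ f ∈ W, ∀ f' : fibreSpace,
            (∀ᵐ x ∂haarTwoAdic, (f' : ℤ_[2] → seqHilbert) x = g x • (f : ℤ_[2] → seqHilbert) x) →
              f' ∈ W) →
        W = ⊥ ∨ W = ⊤)
    (H : Type*) [NormedAddCommGroup H] [InnerProductSpace ℂ H] [CompleteSpace H]
    [TopologicalSpace.SeparableSpace H] (hH : ¬ FiniteDimensional ℂ H) :
    ∃ T : H →L[ℂ] H, T ≠ 0 ∧
      Tendsto (fun n : ℕ => ‖T ^ n‖ ^ (1 / (n : ℝ))) atTop (𝓝 0) ∧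
      ∀ V : Submodule ℂ H, IsClosed (V : Set H) →
        (∀ A : H →L[ℂ] H, A * T = T * A → ∀ v ∈ V, A v ∈ V) → V = ⊥ ∨ V = ⊤ := by
  obtain ⟨U⟩ := exists_unitary hH not_finiteDimensional_fibreSpace
  refine transport U S hS0 hSn ?_
  intro W hW hinv
  refine htr W hW (fun f hf => hinv S rfl f hf) (fun f hf => hinv V hVS f hf) ?_
  rintro g hg ⟨C, hC⟩ f hf f' hf'
  obtain ⟨M, hM⟩ := exists_multiplier g hg C hC
  have hcomm : M * S = S * M := by
    ext1 u
    apply Lp.ext
    filter_upwards [hM (S u), hSf u, hSf (M u), hM u] with x h1 h2 h3 h4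
    change (M (S u) : ℤ_[2] → seqHilbert) x = (S (M u) : ℤ_[2] → seqHilbert) x
    rw [h1, h2, h3, h4, map_smul]
  have hEq : f' = M f := by
    apply Lp.ext
    filter_upwards [hf', hM f] with x h1 h2
    rw [h1, h2]
  rw [hEq]
  exact hinv M hcomm f hf

end Crest.Agent.R113
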