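import Crest.Agent.R113.Defs

/-! R113 swarm, task W2 (helper55): measurability of the costs. -/
set_option autoImplicit false
open Crest.AnalysisR.TwoAdic MeasureTheory
attribute [local instance] Crest.AnalysisR.TwoAdic.borelTwoAdic Crest.AnalysisR.TwoAdic.borelSpace_twoAdic

namespace Crest.Agent.R113

theorem w2_appr_eq_iff (a r : ℕ) (x : ℤ_[2]) :
    x.appr a = r ↔ (r < 2 ^ a ∧ ‖x - (r : ℤ_[2])‖ ≤ (2 : ℝ) ^ (-(a : ℤ))) := by
  constructor
  · rintro rfl
    refine ⟨x.appr_lt a, ?_⟩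
    have h := (PadicInt.norm_le_pow_iff_mem_span_pow (p := 2) (x - (x.appr a : ℤ_[2])) a).2
      (PadicInt.appr_spec a x)
    exact_mod_cast h
  · rintro ⟨hr, hn⟩
    have h1 : x - (r : ℤ_[2]) ∈ (Ideal.span {((2 : ℕ) : ℤ_[2]) ^ a} : Ideal ℤ_[2]) :=
      (PadicInt.norm_le_pow_iff_mem_span_pow (p := 2) (x - (r : ℤ_[2])) a).1 (by exact_mod_cast hn)
    have h2 := PadicInt.zmod_congr_of_sub_mem_span a x (x.appr a) r (PadicInt.appr_spec a x) h1
    rw [ZMod.natCast_eq_natCast_iff'] at h2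
    rwa [Nat.mod_eq_of_lt (x.appr_lt a), Nat.mod_eq_of_lt hr] at h2

theorem w2_measurable_appr (a : ℕ) : Measurable (fun x : ℤ_[2] => x.appr a) := by
  refine measurable_to_countable' fun r => ?_
  have : (fun x : ℤ_[2] => x.appr a) ⁻¹' {r}
      = {x : ℤ_[2] | r < 2 ^ a ∧ ‖x - (r : ℤ_[2])‖ ≤ (2 : ℝ) ^ (-(a : ℤ))} := by
    ext x
    simp only [Set.mem_preimage, Set.mem_singleton_iff, Set.mem_ofPred_eq]
    exact w2_appr_eq_iff a r x
  rw [this]
  by_cases hr : r < 2 ^ a
  · have hcl : IsClosed {x : ℤ_[2] | ‖x - (r : ℤ_[2])‖ ≤ (2 : ℝ) ^ (-(a : ℤ))} :=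
      isClosed_le (by fun_prop) continuous_const
    simpa [hr] using hcl.measurableSet
  · simp [hr]

theorem w2_measurable_lev (i : ℕ) : Measurable (fun x : ℤ_[2] => lev i x) := by
  unfold lev
  refine measurable_findGreatest fun k _ => ?_
  have hm : Measurable (fun x : ℤ_[2] => 1 + i + x.appr k) :=
    (w2_measurable_appr k).const_add (1 + i)
  exact measurableSet_le measurable_const hm

theorem measurable_cpos (i : ℕ) : Measurable (fun x : ℤ_[2] => cpos i x) := by
  unfold cpos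
  have h1 : Measurable (fun q : ℕ × ℤ_[2] => q.2.appr q.1) :=
    measurable_from_prod_countable_right fun a => w2_measurable_appr a
  have h2 : Measurable (fun x : ℤ_[2] => x.appr (lev i x)) :=
    h1.comp ((w2_measurable_lev i).prodMk measurable_id)
  exact h2.const_add (1 + i)

theorem measurable_cw (j : ℤ) : Measurable (fun x : ℤ_[2] => cw j x) := by
  unfold cw
  by_cases hj : 0 ≤ j
  · simpa [hj] using measurable_cpos j.toNat
  · have h : Measurable (fun x : ℤ_[2] => cpos (-j - 1).toNat (-x)) :=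
      (measurable_cpos (-j - 1).toNat).comp measurable_neg
    simp only [hj, if_false]
    exact h

end Crest.Agent.R113
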