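import Crest.Agent.R113.Defs

/-! R113 swarm, task W3 (helper1): `cpos_shift`, `cw_shift`. -/
set_option autoImplicit false
open Crest.AnalysisR.TwoAdic MeasureTheory
attribute [local instance] Crest.AnalysisR.TwoAdic.borelTwoAdic Crest.AnalysisR.TwoAdic.borelSpace_twoAdic

namespace Crest.Agent.R113

theorem W3_appr_unique (y : ℤ_[2]) (a n : ℕ) (hn : n < 2 ^ a)
    (h : y - (n : ℤ_[2]) ∈ Ideal.span {((2 : ℕ) : ℤ_[2]) ^ a}) : y.appr a = n := by
  have h1 := PadicInt.zmod_congr_of_sub_mem_span a y (y.appr a) n (PadicInt.appr_spec a y) h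
  rw [ZMod.natCast_eq_natCast_iff'] at h1
  rwa [Nat.mod_eq_of_lt (PadicInt.appr_lt y a), Nat.mod_eq_of_lt hn] at h1

theorem W3_appr_succ (x : ℤ_[2]) (a : ℕ) (h : x.appr a + 1 < 2 ^ a) :
    (x + 1).appr a = x.appr a + 1 := by
  apply W3_appr_unique _ _ _ h
  have h2 := PadicInt.appr_spec a x
  have e : x + 1 - ((x.appr a + 1 : ℕ) : ℤ_[2]) = x - (x.appr a : ℤ_[2]) := by
    push_cast; ring
  rw [e]; exact h2

theorem W3_exists_level (x : ℤ_[2]) (hx : x ≠ -1) : ∃ a0, x.appr a0 + 1 < 2 ^ a0 := by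
  by_contra hcon
  apply hx
  have h : ∀ a, x.appr a + 1 = 2 ^ a := fun a =>
    le_antisymm (PadicInt.appr_lt x a) (not_lt.mp fun hh => hcon ⟨a, hh⟩)
  have h0 : x + 1 = 0 := by
    rw [← PadicInt.ext_of_toZModPow]
    intro n
    have e1 : PadicInt.toZModPow n x = ((x.appr n : ℕ) : ZMod (2 ^ n)) := rfl
    rw [map_add, map_one, map_zero, e1]
    have e2 : ((x.appr n : ℕ) : ZMod (2 ^ n)) + 1 = ((x.appr n + 1 : ℕ) : ZMod (2 ^ n)) := by
      push_cast; ring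
    rw [e2, h n]
    exact ZMod.natCast_self _
  exact eq_neg_of_add_eq_zero_left h0

theorem W3_level_mono (x : ℤ_[2]) {a0 a : ℕ} (h0 : x.appr a0 + 1 < 2 ^ a0) (ha : a0 ≤ a) :
    x.appr a + 1 < 2 ^ a := by
  by_contra hcon
  have h1 : x.appr a + 1 = 2 ^ a := le_antisymm (PadicInt.appr_lt x a) (not_lt.mp hcon)
  have h2 : 2 ^ a0 ∣ x.appr a - x.appr a0 := PadicInt.dvd_appr_sub_appr x a0 a ha
  have h3 : x.appr a0 ≤ x.appr a := PadicInt.appr_mono x ha
  have h4 : 2 ^ a0 ∣ x.appr a + 1 := by rw [h1]; exact pow_dvd_pow 2 ha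
  have h5 : 2 ^ a0 ∣ x.appr a0 + 1 := by
    have e : x.appr a0 + 1 = (x.appr a + 1) - (x.appr a - x.appr a0) := by omega
    rw [e]; exact Nat.dvd_sub h4 h2
  have h6 := Nat.le_of_dvd (Nat.succ_pos _) h5
  omega

theorem cpos_shift (x : ℤ_[2]) (hx : x ≠ -1) :
    ∃ J : ℕ, ∀ i : ℕ, J ≤ i → cpos i (x + 1) = cpos (i + 1) x := by
  obtain ⟨a0, ha0⟩ := W3_exists_level x hx
  have hap : ∀ a, a0 ≤ a → (x + 1).appr a = x.appr a + 1 := fun a ha =>
    W3_appr_succ x a (W3_level_mono x ha0 ha)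
  refine ⟨4 ^ a0, fun i hi => ?_⟩
  have ha0i : a0 ≤ i + 1 := by
    have : a0 < 4 ^ a0 := Nat.lt_pow_self (by norm_num)
    omega
  have h1a : a0 ≤ lev i (x + 1) :=
    Nat.le_findGreatest (P := fun a => 4 ^ a ≤ 1 + i + (x + 1).appr a) ha0i (by omega)
  have h2a : a0 ≤ lev (i + 1) x :=
    Nat.le_findGreatest (P := fun a => 4 ^ a ≤ 1 + (i + 1) + x.appr a) (by omega) (by omega)
  have h1P : 4 ^ lev i (x + 1) ≤ 1 + i + (x + 1).appr (lev i (x + 1)) :=
    Nat.findGreatest_spec (P := fun a => 4 ^ a ≤ 1 + i + (x + 1).appr a) ha0i (by omega)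
  have h2P : 4 ^ lev (i + 1) x ≤ 1 + (i + 1) + x.appr (lev (i + 1) x) :=
    Nat.findGreatest_spec (P := fun a => 4 ^ a ≤ 1 + (i + 1) + x.appr a)
      (show a0 ≤ i + 1 + 1 by omega) (by omega)
  have h1le : lev i (x + 1) ≤ i + 1 := Nat.findGreatest_le _
  have h2le : lev (i + 1) x ≤ i + 1 + 1 := Nat.findGreatest_le _
  -- the level of `(i+1, x)` is at most `i+1`
  have h2le' : lev (i + 1) x ≤ i + 1 := by
    by_contra hcon
    have e : lev (i + 1) x = i + 2 := by omega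
    rw [e] at h2P
    have h3 : x.appr (i + 2) < 2 ^ (i + 2) := PadicInt.appr_lt x _
    have h4 : i + 2 < 2 ^ (i + 2) := Nat.lt_two_pow_self
    have h5 : (4 : ℕ) ^ (i + 2) = 2 ^ (i + 2) * 2 ^ (i + 2) := by
      rw [← mul_pow]; norm_num
    rw [h5] at h2P
    nlinarith
  have hle12 : lev i (x + 1) ≤ lev (i + 1) x := by
    apply Nat.le_findGreatest (P := fun a => 4 ^ a ≤ 1 + (i + 1) + x.appr a) (by omega)
    have := hap _ h1a
    show 4 ^ lev i (x + 1) ≤ 1 + (i + 1) + x.appr (lev i (x + 1))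
    omega
  have hle21 : lev (i + 1) x ≤ lev i (x + 1) := by
    apply Nat.le_findGreatest (P := fun a => 4 ^ a ≤ 1 + i + (x + 1).appr a) h2le'
    have := hap _ h2a
    show 4 ^ lev (i + 1) x ≤ 1 + i + (x + 1).appr (lev (i + 1) x)
    omega
  have heq : lev i (x + 1) = lev (i + 1) x := le_antisymm hle12 hle21
  unfold cpos
  rw [heq, hap _ h2a]
  ring

theorem cw_shift (x : ℤ_[2]) (h0 : x ≠ 0) (h1 : x ≠ -1) :
    ∃ J : ℕ, ∀ j : ℤ, (J : ℤ) ≤ |j| → cw (j - 1) (x + 1) = cw j x := by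
  obtain ⟨J1, hJ1⟩ := cpos_shift x h1
  have hx' : -(x + 1) ≠ -1 := by
    intro h
    apply h0
    have : x + 1 = 1 := neg_injective h
    simpa using this
  obtain ⟨J2, hJ2⟩ := cpos_shift (-(x + 1)) hx'
  refine ⟨max J1 J2 + 1, fun j hj => ?_⟩
  have hm1 : (J1 : ℤ) ≤ max J1 J2 := by exact_mod_cast le_max_left J1 J2
  have hm2 : (J2 : ℤ) ≤ max J1 J2 := by exact_mod_cast le_max_right J1 J2
  push_cast at hj
  rcases le_or_gt 0 j with hjp | hjn
  · rw [abs_of_nonneg hjp] at hj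
    have hj1 : 0 ≤ j - 1 := by omega
    unfold cw
    rw [if_pos hj1, if_pos hjp]
    have e : j.toNat = (j - 1).toNat + 1 := by omega
    rw [e]
    apply hJ1
    omega
  · rw [abs_of_neg hjn] at hj
    have hj1 : ¬ (0 ≤ j - 1) := by omega
    unfold cw
    rw [if_neg hj1, if_neg (not_le.mpr hjn)]
    have e : (-(j - 1) - 1).toNat = (-j - 1).toNat + 1 := by omega
    rw [e]
    have e2 : -x = -(x + 1) + 1 := by ring
    rw [e2]
    symm
    have := hJ2 (-j - 1).toNat (by omega)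
    simpa using this

end Crest.Agent.R113
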