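import Crest.Agent.R113.Defs
import Crest.Agent.R113.W2
import Crest.Agent.R113.W3

/-! R113 swarm, task C: the weights of `V` (potential, boundedness, measurability, commutation). -/
set_option autoImplicit false
open Crest.AnalysisR.TwoAdic MeasureTheory
attribute [local instance] Crest.AnalysisR.TwoAdic.borelTwoAdic Crest.AnalysisR.TwoAdic.borelSpace_twoAdic

namespace Crest.Agent.R113

theorem pot_succ (c : ℤ → ℕ) (j : ℤ) : pot c (j + 1) = pot c j + c j := by
  rcases le_or_gt 0 j with hj | hj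
  · obtain ⟨m, rfl⟩ := Int.eq_ofNat_of_zero_le hj
    have h1 : (0 : ℤ) ≤ (m : ℤ) + 1 := by omega
    have h2 : ((m : ℤ) + 1).toNat = m + 1 := by omega
    simp only [pot, hj, h1, if_true, h2, Int.toNat_natCast, Finset.sum_range_succ]
  · obtain ⟨m, rfl⟩ : ∃ m : ℕ, j = -((m : ℤ) + 1) := ⟨(-j - 1).toNat, by omega⟩
    have h1 : ¬ (0 : ℤ) ≤ -((m : ℤ) + 1) := by omega
    have h2 : (- -((m : ℤ) + 1)).toNat = m + 1 := by omega
    have h3 : pot c (-((m : ℤ) + 1) + 1) = - ∑ l ∈ Finset.range m, (c (-(l : ℤ) - 1) : ℤ) := by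
      rcases Nat.eq_zero_or_pos m with rfl | hm
      · simp [pot]
      · have h4 : ¬ (0 : ℤ) ≤ -((m : ℤ) + 1) + 1 := by omega
        have h5 : (-(-((m : ℤ) + 1) + 1)).toNat = m := by omega
        simp only [pot, h4, if_false, h5]
    rw [h3]
    simp only [pot, h1, if_false, h2, Finset.sum_range_succ]
    have h6 : -(m : ℤ) - 1 = -((m : ℤ) + 1) := by ring
    rw [h6]
    ring

theorem Dw_succ (j : ℤ) (x : ℤ_[2]) :
    Dw (j + 1) x = Dw j x + (cw (j - 1) (x + 1) : ℤ) - (cw j x : ℤ) := by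
  have h1 := pot_succ (fun l => cw l (x + 1)) (j - 1)
  have h2 := pot_succ (fun l => cw l x) j
  have h3 : j - 1 + 1 = j + 1 - 1 := by ring
  rw [h3] at h1
  simp only [Dw]
  rw [h1, h2]
  ring

theorem Dw_bdd (x : ℤ_[2]) (h0 : x ≠ 0) (h1 : x ≠ -1) :
    BddAbove (Set.range fun j : ℤ => (-(Dw j x : ℝ))) := by
  obtain ⟨J, hJ⟩ := cw_shift x h0 h1
  have hstep : ∀ j : ℤ, (J : ℤ) ≤ |j| → Dw (j + 1) x = Dw j x := by
    intro j hj
    rw [Dw_succ, hJ j hj]
    ring
  have hup : ∀ m : ℕ, Dw ((J : ℤ) + m) x = Dw J x := by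
    intro m
    induction m with
    | zero => simp
    | succ m ih =>
      have := hstep ((J : ℤ) + m) (by rw [abs_of_nonneg (by positivity)]; omega)
      rw [← ih, ← this]
      push_cast
      ring_nf
  have hdown : ∀ m : ℕ, Dw (-(J : ℤ) - m) x = Dw (-(J : ℤ)) x := by
    intro m
    induction m with
    | zero => simp
    | succ m ih =>
      have := hstep (-(J : ℤ) - (m + 1)) (by rw [abs_of_nonpos (by omega)]; omega)
      have h5 : -(J : ℤ) - ((m : ℤ) + 1) + 1 = -(J : ℤ) - m := by ring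
      rw [h5] at this
      rw [← ih, this]
      push_cast
      rfl
  have hfin : (Set.range fun j : ℤ => (-(Dw j x : ℝ))) ⊆
      (fun j : ℤ => (-(Dw j x : ℝ))) '' Set.Icc (-(J : ℤ)) J := by
    rintro _ ⟨j, rfl⟩
    rcases le_or_gt j (-(J : ℤ)) with hj | hj
    · refine ⟨-(J : ℤ), ⟨le_refl _, by omega⟩, ?_⟩
      obtain ⟨m, rfl⟩ : ∃ m : ℕ, j = -(J : ℤ) - m := ⟨(-(J : ℤ) - j).toNat, by omega⟩
      simp only [hdown m]
    · rcases le_or_gt j (J : ℤ) with hj' | hj'
      · exact ⟨j, ⟨hj.le, hj'⟩, rfl⟩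
      · refine ⟨(J : ℤ), ⟨by omega, le_refl _⟩, ?_⟩
        obtain ⟨m, rfl⟩ : ∃ m : ℕ, j = (J : ℤ) + m := ⟨(j - J).toNat, by omega⟩
        simp only [hup m]
  exact ((Set.finite_Icc _ _).image _).bddAbove.mono hfin

theorem measurable_βw (j : ℤ) : Measurable (βw j) := by
  unfold βw
  have h : Measurable (fun x : ℤ_[2] => ((cw j x : ℕ) : ℝ)) :=
    (measurable_from_nat (f := fun n : ℕ => (n : ℝ))).comp (measurable_cw j)
  exact Real.measurable_exp.comp (h.const_mul (-10))

theorem c_measurable_pot (T : ℤ_[2] → ℤ_[2]) (hT : Measurable T) (j : ℤ) :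
    Measurable (fun x : ℤ_[2] => ((pot (fun l => cw l (T x)) j : ℤ) : ℝ)) := by
  have h : ∀ l : ℤ, Measurable (fun x : ℤ_[2] => ((cw l (T x) : ℕ) : ℝ)) := fun l =>
    (measurable_from_nat (f := fun n : ℕ => (n : ℝ))).comp ((measurable_cw l).comp hT)
  by_cases hj : 0 ≤ j
  · simp only [pot, hj, if_true]
    push_cast
    exact Finset.measurable_fun_sum _ fun l _ => h _
  · simp only [pot, hj, if_false]
    push_cast
    exact (Finset.measurable_fun_sum _ fun l _ => h _).neg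

theorem c_measurable_Dw (j : ℤ) : Measurable (fun x : ℤ_[2] => ((Dw j x : ℤ) : ℝ)) := by
  simp only [Dw]
  push_cast
  exact (c_measurable_pot (fun x => x + 1) (measurable_add_const 1) (j - 1)).sub
    (c_measurable_pot id measurable_id j)

theorem c_measurable_Kw : Measurable Kw := by
  unfold Kw
  exact Measurable.iSup fun j => (c_measurable_Dw j).neg

theorem measurable_bw (j : ℤ) : Measurable (bw j) := by
  unfold bw
  refine Measurable.ite ?_ measurable_const ?_
  · have : {x : ℤ_[2] | x = 0 ∨ x = -1} = ({0, -1} : Set ℤ_[2]) := by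
      ext x; simp
    rw [this]
    exact (Set.toFinite _).measurableSet
  · exact Real.measurable_exp.comp (((c_measurable_Dw j).add c_measurable_Kw).const_mul (-10))

theorem bw_mem (j : ℤ) (x : ℤ_[2]) : 0 ≤ bw j x ∧ bw j x ≤ 1 := by
  unfold bw
  split_ifs with h
  · exact ⟨le_refl _, zero_le_one⟩
  · push Not at h
    refine ⟨(Real.exp_pos _).le, ?_⟩
    have h2 : -(Dw j x : ℝ) ≤ Kw x := le_ciSup (Dw_bdd x h.1 h.2) j
    rw [Real.exp_le_one_iff]
    linarith

theorem bw_pos (j : ℤ) (x : ℤ_[2]) (h0 : x ≠ 0) (h1 : x ≠ -1) : 0 < bw j x := by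
  unfold bw
  rw [if_neg (by push Not; exact ⟨h0, h1⟩)]
  exact Real.exp_pos _

theorem bw_comm (j : ℤ) (x : ℤ_[2]) :
    βw j x * bw (j + 1) x = bw j x * βw (j - 1) (x + 1) := by
  unfold bw βw
  split_ifs with h
  · simp
  · rw [← Real.exp_add, ← Real.exp_add, Dw_succ]
    push_cast
    ring_nf

theorem c_nhdsNE_zero_neBot : (nhdsWithin (0 : ℤ_[2]) {0}ᶜ).NeBot := by
  rw [← mem_closure_iff_nhdsWithin_neBot]
  have hlim : Filter.Tendsto (fun n : ℕ => (2 : ℤ_[2]) ^ n) Filter.atTop (nhds 0) := by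
    refine tendsto_pow_atTop_nhds_zero_of_norm_lt_one ?_
    have := PadicInt.norm_p (p := 2)
    have h2 : ‖(2 : ℤ_[2])‖ = (2 : ℝ)⁻¹ := by simpa using this
    rw [h2]
    norm_num
  refine mem_closure_of_tendsto hlim (Filter.Eventually.of_forall fun n => ?_)
  simp

theorem null_bad : haarTwoAdic ({0, -1} : Set ℤ_[2]) = 0 := by
  have h1 : Measure.IsAddHaarMeasure haarTwoAdic := by
    unfold haarTwoAdic
    infer_instance
  have h2 := c_nhdsNE_zero_neBot
  have h3 : NullSingletonClass haarTwoAdic := inferInstance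
  exact (Set.toFinite _).measure_zero _

end Crest.Agent.R113
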