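import Crest.Statements.S0150

/-! R113 swarm: common definitions (architect helper6).  DO NOT EDIT (frozen interface). -/
set_option autoImplicit false
open Crest.AnalysisR.TwoAdic MeasureTheory
attribute [local instance] Crest.AnalysisR.TwoAdic.borelTwoAdic Crest.AnalysisR.TwoAdic.borelSpace_twoAdic

namespace Crest.Agent.R113

/-- level: greatest `a` with `4^a ≤ 1 + i + (x mod 2^a)` -/
noncomputable def lev (i : ℕ) (x : ℤ_[2]) : ℕ :=
  Nat.findGreatest (fun a => 4 ^ a ≤ 1 + i + x.appr a) (i + 1)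

/-- one-sided cost -/
noncomputable def cpos (i : ℕ) (x : ℤ_[2]) : ℕ := 1 + i + x.appr (lev i x)

/-- the cost `c_j(x)`; the weight is `β_j(x) = exp (-10 c_j(x))` -/
noncomputable def cw (j : ℤ) (x : ℤ_[2]) : ℕ :=
  if 0 ≤ j then cpos j.toNat x else cpos (-j - 1).toNat (-x)

/-- V-shaped cost sequences (the only property of `cw · x` used for unicellularity and norms) -/
structure VShape (c : ℤ → ℕ) : Prop where
  up : ∀ j : ℤ, 0 ≤ j → c j + 1 ≤ c (j + 1)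
  down : ∀ j : ℤ, j ≤ -1 → c j + 1 ≤ c (j - 1)
  pos0 : 1 ≤ c 0
  posm : 1 ≤ c (-1)

/-- potential of a cost sequence: `pot c (j+1) = pot c j + c j`, `pot c 0 = 0` -/
def pot (c : ℤ → ℕ) (j : ℤ) : ℤ :=
  if 0 ≤ j then ∑ l ∈ Finset.range j.toNat, (c (l : ℤ) : ℤ)
  else - ∑ l ∈ Finset.range (-j).toNat, (c (-(l : ℤ) - 1) : ℤ)

/-- window sum `E(k,n) = c k + ... + c (k+n-1)` -/
def win (c : ℤ → ℕ) (k : ℤ) (n : ℕ) : ℕ := ∑ l ∈ Finset.range n, c (k + l)

/-- `D_j(x) = U_{j-1}(x+1) - U_j(x)` -/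
noncomputable def Dw (j : ℤ) (x : ℤ_[2]) : ℤ := pot (fun l => cw l (x + 1)) (j - 1) - pot (fun l => cw l x) j

/-- normalising constant -/
noncomputable def Kw (x : ℤ_[2]) : ℝ := ⨆ j : ℤ, (-(Dw j x : ℝ))

/-- weights of `S` -/
noncomputable def βw (j : ℤ) (x : ℤ_[2]) : ℝ := Real.exp (-10 * (cw j x : ℝ))

open Classical in
/-- weights of `V` -/
noncomputable def bw (j : ℤ) (x : ℤ_[2]) : ℝ :=
  if x = 0 ∨ x = -1 then 0 else Real.exp (-10 * ((Dw j x : ℝ) + Kw x))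

end Crest.Agent.R113
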