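import Crest.Agent.R113.FibreOp

/-!
R113, cut F3: norms of powers of weighted shifts and lower bounds for decomposable operators.
-/

set_option autoImplicit false
open Crest.AnalysisR.TwoAdic MeasureTheory Filter Topology
attribute [local instance] Crest.AnalysisR.TwoAdic.borelTwoAdic Crest.AnalysisR.TwoAdic.borelSpace_twoAdic

namespace Crest.Agent.R113

/-- Powers of ANY operator acting as a forward weighted shift on the basis. -/
theorem shift_pow_basisVec (A : seqHilbert →L[ℂ] seqHilbert) (w : ℤ → ℂ)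
    (hA : ∀ j, A (basisVec j) = w j • basisVec (j + 1)) (n : ℕ) (j : ℤ) :
    (A ^ n) (basisVec j) = (∏ k ∈ Finset.range n, w (j + k)) • basisVec (j + n) := by
  induction n with
  | zero => simp
  | succ n ih =>
    rw [pow_succ']
    change A ((A ^ n) (basisVec j)) = _
    rw [ih, map_smul, hA, smul_smul, Finset.prod_range_succ]
    congr 2
    push_cast
    ring

/-- If all `n`-fold products of consecutive weights are bounded by `K`, then `‖A ^ n‖ ≤ K`. -/
theorem shift_pow_norm_le (A : seqHilbert →L[ℂ] seqHilbert) (w : ℤ → ℂ)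
    (hA : ∀ j, A (basisVec j) = w j • basisVec (j + 1)) (n : ℕ) (K : ℝ)
    (hK : ∀ j : ℤ, ‖∏ k ∈ Finset.range n, w (j + k)‖ ≤ K) : ‖A ^ n‖ ≤ K := by
  have : A ^ n = wshift (fun j : ℤ => ∏ k ∈ Finset.range n, w (j + k)) n K hK :=
    ws_clm_ext (fun j => by rw [shift_pow_basisVec A w hA, wshift_basisVec])
  rw [this]
  exact wshift_norm_le _ _ _ _

/-- Version for real positive weights, as in S0150. -/
theorem shift_pow_norm_le_real (A : seqHilbert →L[ℂ] seqHilbert) (β : ℤ → ℝ)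
    (hβ : ∀ j, 0 ≤ β j)
    (hA : ∀ j, A (basisVec j) = (β j : ℂ) • basisVec (j + 1)) (n : ℕ) (K : ℝ)
    (hK : ∀ j : ℤ, ∏ k ∈ Finset.range n, β (j + k) ≤ K) : ‖A ^ n‖ ≤ K := by
  refine shift_pow_norm_le A (fun j => (β j : ℂ)) hA n K (fun j => ?_)
  rw [norm_prod]
  refine le_trans (le_of_eq ?_) (hK j)
  refine Finset.prod_congr rfl (fun k _ => ?_)
  rw [Complex.norm_real, Real.norm_of_nonneg (hβ _)]

/-- Norm bound for the powers of a decomposable operator whose fibres are weighted shifts. -/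
theorem norm_pow_le_of_weights (S : fibreSpace →L[ℂ] fibreSpace)
    (Sfib : ℤ_[2] → seqHilbert →L[ℂ] seqHilbert) (β : ℤ → ℤ_[2] → ℝ)
    (hβ : ∀ j x, 0 ≤ β j x)
    (hfib : ∀ x j, Sfib x (basisVec j) = (β j x : ℂ) • basisVec (j + 1))
    (hS : ∀ f : fibreSpace, ∀ᵐ x ∂haarTwoAdic,
      (S f : ℤ_[2] → seqHilbert) x = Sfib x ((f : ℤ_[2] → seqHilbert) x))
    (n : ℕ) (K : ℝ) (hK0 : 0 ≤ K)
    (hK : ∀ x (j : ℤ), ∏ k ∈ Finset.range n, β (j + k) x ≤ K) : ‖S ^ n‖ ≤ K := by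
  refine norm_le_of_fibre_formula (S ^ n) (fun x => Sfib x ^ n) K hK0
    (Eventually.of_forall fun x => ?_) (pow_fibre_formula S Sfib hS n)
  exact shift_pow_norm_le_real (Sfib x) (fun j => β j x) (fun j => hβ j x) (hfib x) n K (hK x)

/-- Lower bound for the norm of an operator with an a.e. fibre formula. -/
theorem le_norm_of_fibre_formula (T : fibreSpace →L[ℂ] fibreSpace)
    (A : ℤ_[2] → seqHilbert →L[ℂ] seqHilbert)
    (hT : ∀ f : fibreSpace, ∀ᵐ x ∂haarTwoAdic,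
      (T f : ℤ_[2] → seqHilbert) x = A x ((f : ℤ_[2] → seqHilbert) x))
    (v : seqHilbert) (hv : ‖v‖ = 1) (c : ℝ) (hc : 0 < c) (E : Set ℤ_[2]) (hE : MeasurableSet E)
    (hpos : haarTwoAdic E ≠ 0) (hcE : ∀ x ∈ E, c ≤ ‖A x v‖) : c ≤ ‖T‖ := by
  have hfin : haarTwoAdic E ≠ ⊤ := measure_ne_top _ _
  set f : fibreSpace := indicatorConstLp 2 hE hfin v with hf
  have hfn : 0 < ‖f‖ := by
    rw [hf, norm_indicatorConstLp (by norm_num) (by norm_num), hv, one_mul]
    apply Real.rpow_pos_of_pos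
    exact ENNReal.toReal_pos hpos hfin
  have h1 : ‖f‖ ≤ c⁻¹ * ‖T f‖ := by
    apply Lp.norm_le_mul_norm_of_ae_le_mul
    filter_upwards [hT f, (indicatorConstLp_coeFn (p := 2) (hs := hE) (hμs := hfin) (c := v))]
      with x hx hfx
    rw [hx]
    have hfx' : (f : ℤ_[2] → seqHilbert) x = E.indicator (fun _ => v) x := hfx
    rw [hfx']
    by_cases hxE : x ∈ E
    · rw [Set.indicator_of_mem hxE, hv]
      have := hcE x hxE
      rw [inv_mul_eq_div, le_div_iff₀ hc]
      linarith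
    · rw [Set.indicator_of_notMem hxE]
      simp
  have h2 : ‖T f‖ ≤ ‖T‖ * ‖f‖ := T.le_opNorm f
  have h3 : c * ‖f‖ ≤ ‖T‖ * ‖f‖ := by
    have : c * ‖f‖ ≤ c * (c⁻¹ * ‖T f‖) := mul_le_mul_of_nonneg_left h1 hc.le
    rw [← mul_assoc, mul_inv_cancel₀ hc.ne', one_mul] at this
    exact this.trans h2
  exact le_of_mul_le_mul_right h3 hfn

/-- Exact norm: all weights `≤ c`, and some weight `= c` on a non-null measurable set. -/
theorem norm_eq_of_weights (S : fibreSpace →L[ℂ] fibreSpace)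
    (Sfib : ℤ_[2] → seqHilbert →L[ℂ] seqHilbert) (β : ℤ → ℤ_[2] → ℝ)
    (hβ : ∀ j x, 0 ≤ β j x)
    (hfib : ∀ x j, Sfib x (basisVec j) = (β j x : ℂ) • basisVec (j + 1))
    (hS : ∀ f : fibreSpace, ∀ᵐ x ∂haarTwoAdic,
      (S f : ℤ_[2] → seqHilbert) x = Sfib x ((f : ℤ_[2] → seqHilbert) x))
    (c : ℝ) (hc : 0 < c) (hle : ∀ j x, β j x ≤ c)
    (j₀ : ℤ) (E : Set ℤ_[2]) (hE : MeasurableSet E) (hpos : haarTwoAdic E ≠ 0)
    (hEc : ∀ x ∈ E, β j₀ x = c) : ‖S‖ = c := by
  apply le_antisymm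
  · have := norm_pow_le_of_weights S Sfib β hβ hfib hS 1 c hc.le (fun x j => by simpa using hle j x)
    simpa using this
  · refine le_norm_of_fibre_formula S Sfib hS (basisVec j₀) (ws_norm_basisVec j₀) c hc E hE hpos ?_
    intro x hx
    rw [hfib, norm_smul, ws_norm_basisVec, mul_one, Complex.norm_real, hEc x hx,
      Real.norm_of_nonneg hc.le]

end Crest.Agent.R113
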