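import Crest.Prelude.Def_TwoAdicShift

/-!
R113, cut F1: weighted shifts `e_j ↦ w j • e_{j+s}` on `ℓ²(ℤ)`.
-/

set_option autoImplicit false
open Crest.AnalysisR.TwoAdic MeasureTheory

namespace Crest.Agent.R113

theorem ws_summable_sq_shift (s : ℤ) (v : seqHilbert) :
    Summable (fun i : ℤ => ‖v (i - s)‖ ^ (2 : ℝ)) := by
  have hv := lp.memℓp v
  rw [memℓp_gen_iff (by norm_num)] at hv
  simp only [ENNReal.toReal_ofNat] at hv
  exact (Equiv.subRight s).summable_iff.mpr hv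

theorem ws_tsum_sq_shift (s : ℤ) (v : seqHilbert) :
    ∑' i : ℤ, ‖v (i - s)‖ ^ (2 : ℝ) = ‖v‖ ^ (2 : ℝ) := by
  have h := lp.norm_rpow_eq_tsum (p := 2) (by norm_num) v
  simp only [ENNReal.toReal_ofNat] at h
  rw [h]
  exact (Equiv.subRight s).tsum_eq (fun i : ℤ => ‖v i‖ ^ (2 : ℝ))

theorem wshift_term_le (w : ℤ → ℂ) (s : ℤ) (M : ℝ) (hw : ∀ j, ‖w j‖ ≤ M) (v : seqHilbert) (i : ℤ) :
    ‖w (i - s) * v (i - s)‖ ^ (2 : ℝ) ≤ M ^ (2 : ℝ) * ‖v (i - s)‖ ^ (2 : ℝ) := by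
  rw [norm_mul, Real.mul_rpow (norm_nonneg _) (norm_nonneg _)]
  gcongr
  exact hw _

theorem memℓp_wshift (w : ℤ → ℂ) (s : ℤ) (M : ℝ) (hw : ∀ j, ‖w j‖ ≤ M) (v : seqHilbert) :
    Memℓp (fun i : ℤ => w (i - s) * v (i - s)) 2 := by
  rw [memℓp_gen_iff (by norm_num)]
  simp only [ENNReal.toReal_ofNat]
  exact Summable.of_nonneg_of_le (fun i => by positivity) (wshift_term_le w s M hw v)
    ((ws_summable_sq_shift s v).mul_left _)

/-- The weighted shift as a linear map. -/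
noncomputable def wshiftLin (w : ℤ → ℂ) (s : ℤ) (M : ℝ) (hw : ∀ j, ‖w j‖ ≤ M) :
    seqHilbert →ₗ[ℂ] seqHilbert where
  toFun v := ⟨fun i : ℤ => w (i - s) * v (i - s), memℓp_wshift w s M hw v⟩
  map_add' u v := by
    ext i
    change w (i - s) * (u + v : seqHilbert) (i - s) = w (i - s) * u (i - s) + w (i - s) * v (i - s)
    rw [lp.coeFn_add, Pi.add_apply, mul_add]
  map_smul' c v := by
    ext i
    change w (i - s) * (c • v : seqHilbert) (i - s) = c • (w (i - s) * v (i - s))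
    rw [lp.coeFn_smul, Pi.smul_apply, smul_eq_mul, smul_eq_mul, mul_left_comm]

theorem wshiftLin_norm_le (w : ℤ → ℂ) (s : ℤ) (M : ℝ) (hw : ∀ j, ‖w j‖ ≤ M) (v : seqHilbert) :
    ‖wshiftLin w s M hw v‖ ≤ M * ‖v‖ := by
  have hM : 0 ≤ M := (norm_nonneg _).trans (hw 0)
  have h := lp.norm_rpow_eq_tsum (p := 2) (by norm_num) (wshiftLin w s M hw v)
  simp only [ENNReal.toReal_ofNat] at h
  have h2 : ‖wshiftLin w s M hw v‖ ^ (2 : ℝ) ≤ (M * ‖v‖) ^ (2 : ℝ) := by
    rw [h, Real.mul_rpow hM (norm_nonneg _), ← ws_tsum_sq_shift s v, ← tsum_mul_left]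
    refine Summable.tsum_le_tsum (wshift_term_le w s M hw v) ?_ ((ws_summable_sq_shift s v).mul_left _)
    exact Summable.of_nonneg_of_le (fun i => by positivity) (wshift_term_le w s M hw v)
      ((ws_summable_sq_shift s v).mul_left _)
  exact (Real.rpow_le_rpow_iff (norm_nonneg _) (by positivity) (by norm_num)).mp h2

/-- The weighted shift `e_j ↦ w j • e_{j+s}` on `ℓ²(ℤ)` for weights bounded by `M`. -/
noncomputable def wshift (w : ℤ → ℂ) (s : ℤ) (M : ℝ) (hw : ∀ j, ‖w j‖ ≤ M) :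
    seqHilbert →L[ℂ] seqHilbert :=
  (wshiftLin w s M hw).mkContinuous M (wshiftLin_norm_le w s M hw)

@[simp] theorem wshift_apply (w : ℤ → ℂ) (s : ℤ) (M : ℝ) (hw : ∀ j, ‖w j‖ ≤ M) (v : seqHilbert)
    (i : ℤ) : wshift w s M hw v i = w (i - s) * v (i - s) := rfl

theorem wshift_norm_le (w : ℤ → ℂ) (s : ℤ) (M : ℝ) (hw : ∀ j, ‖w j‖ ≤ M) :
    ‖wshift w s M hw‖ ≤ M :=
  LinearMap.mkContinuous_norm_le _ ((norm_nonneg _).trans (hw 0)) _

theorem ws_basisVec_apply (j i : ℤ) : basisVec j i = if i = j then 1 else 0 := by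
  unfold basisVec
  rw [lp.single_apply]
  by_cases h : i = j
  · subst h; simp
  · simp [h]

theorem wshift_single (w : ℤ → ℂ) (s : ℤ) (M : ℝ) (hw : ∀ j, ‖w j‖ ≤ M) (j : ℤ) (c : ℂ) :
    wshift w s M hw (lp.single 2 j c) = (w j * c) • basisVec (j + s) := by
  ext i
  rw [wshift_apply, lp.coeFn_smul, Pi.smul_apply, ws_basisVec_apply, lp.single_apply]
  by_cases h : i = j + s
  · subst h; simp
  · have h' : i - s ≠ j := fun h'' => h (by omega)
    simp [h, h']

theorem wshift_basisVec (w : ℤ → ℂ) (s : ℤ) (M : ℝ) (hw : ∀ j, ‖w j‖ ≤ M) (j : ℤ) :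
    wshift w s M hw (basisVec j) = w j • basisVec (j + s) := by
  have := wshift_single w s M hw j 1
  simpa [basisVec] using this

theorem ws_norm_basisVec (j : ℤ) : ‖basisVec j‖ = 1 := by
  unfold basisVec
  rw [lp.norm_single (by norm_num)]
  simp

/-- Two bounded operators on `ℓ²(ℤ)` that agree on the basis vectors are equal. -/
theorem ws_clm_ext {F : Type*} [NormedAddCommGroup F] [NormedSpace ℂ F]
    {A B : seqHilbert →L[ℂ] F} (h : ∀ j, A (basisVec j) = B (basisVec j)) : A = B := by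
  ext v
  have hs := lp.hasSum_single (p := 2) (by norm_num) v
  have hA := A.hasSum hs
  have hB := B.hasSum hs
  have e : ∀ i : ℤ, lp.single 2 i (v i) = (v i) • basisVec i := by
    intro i
    unfold basisVec
    rw [← lp.single_smul]
    simp
  have : (fun i : ℤ => A (lp.single 2 i (v i))) = fun i : ℤ => B (lp.single 2 i (v i)) := by
    funext i
    rw [e i, map_smul, map_smul, h i]
  rw [this] at hA
  exact hA.unique hB

end Crest.Agent.R113
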