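import Crest.Agent.R113.Odometer
import Crest.Agent.R113.WShift

/-!
R113, cut F2: decomposable operators on `fibreSpace = L²(ℤ₂; ℓ²(ℤ))`.

* `fibreCLM A hA M hM` : the operator `(A f)(x) = A x (f x)` for a pointwise strongly measurable,
  uniformly bounded field of operators.
* `translCLM` : `(translCLM f)(x + 1) = f x`.
* `wfield` : the field of weighted shifts associated with measurable weights.
-/

set_option autoImplicit false
open Crest.AnalysisR.TwoAdic MeasureTheory Filter Topology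
attribute [local instance] Crest.AnalysisR.TwoAdic.borelTwoAdic Crest.AnalysisR.TwoAdic.borelSpace_twoAdic

namespace Crest.Agent.R113

section general

variable {X : Type*} [MeasurableSpace X] {E F : Type*} [NormedAddCommGroup E] [NormedSpace ℂ E]
  [NormedAddCommGroup F] [NormedSpace ℂ F]

theorem stronglyMeasurable_apply_simpleFunc (A : X → E →L[ℂ] F)
    (hA : ∀ v, StronglyMeasurable (fun x => A x v)) (g : SimpleFunc X E) :
    StronglyMeasurable (fun x => A x (g x)) := by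
  classical
  have e : (fun x => A x (g x)) =
      fun x => ∑ v ∈ g.range, (g ⁻¹' {v}).indicator (fun x => A x v) x := by
    funext x
    rw [Finset.sum_eq_single (g x)]
    · simp
    · intro v _ hv
      have : x ∉ g ⁻¹' {v} := by
        intro hx
        exact hv (by simpa using hx.symm)
      simp [Set.indicator_of_notMem this]
    · intro h
      exact absurd (SimpleFunc.mem_range_self g x) h
  rw [e]
  refine Finset.stronglyMeasurable_fun_sum _ (fun v _ => ?_)
  exact (hA v).indicator (g.measurableSet_fiber v)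

theorem stronglyMeasurable_apply_field (A : X → E →L[ℂ] F)
    (hA : ∀ v, StronglyMeasurable (fun x => A x v)) {f : X → E} (hf : StronglyMeasurable f) :
    StronglyMeasurable (fun x => A x (f x)) := by
  refine stronglyMeasurable_of_tendsto atTop
    (fun n => stronglyMeasurable_apply_simpleFunc A hA (hf.approx n)) ?_
  rw [tendsto_pi_nhds]
  intro x
  exact ((A x).continuous.tendsto _).comp (hf.tendsto_approx x)

theorem aestronglyMeasurable_apply_field {μ : Measure X} (A : X → E →L[ℂ] F)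
    (hA : ∀ v, StronglyMeasurable (fun x => A x v)) {f : X → E} (hf : AEStronglyMeasurable f μ) :
    AEStronglyMeasurable (fun x => A x (f x)) μ := by
  refine ⟨fun x => A x (hf.mk f x), stronglyMeasurable_apply_field A hA hf.stronglyMeasurable_mk, ?_⟩
  filter_upwards [hf.ae_eq_mk] with x hx
  rw [hx]

end general

/-- membership in `L²` of `x ↦ A x (f x)`. -/
theorem memLp_apply_field (A : ℤ_[2] → seqHilbert →L[ℂ] seqHilbert)
    (hA : ∀ v, StronglyMeasurable (fun x => A x v)) (M : ℝ) (hM : ∀ x, ‖A x‖ ≤ M)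
    (f : fibreSpace) : MemLp (fun x => A x ((f : ℤ_[2] → seqHilbert) x)) 2 haarTwoAdic := by
  refine MemLp.of_le_mul (c := M) (Lp.memLp f)
    (aestronglyMeasurable_apply_field A hA (Lp.aestronglyMeasurable f)) ?_
  refine Eventually.of_forall (fun x => ?_)
  exact ((A x).le_opNorm _).trans (mul_le_mul_of_nonneg_right (hM x) (norm_nonneg _))

/-- The decomposable operator as a linear map. -/
noncomputable def fibreLin (A : ℤ_[2] → seqHilbert →L[ℂ] seqHilbert)
    (hA : ∀ v, StronglyMeasurable (fun x => A x v)) (M : ℝ) (hM : ∀ x, ‖A x‖ ≤ M) :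
    fibreSpace →ₗ[ℂ] fibreSpace where
  toFun f := (memLp_apply_field A hA M hM f).toLp _
  map_add' f g := by
    rw [← MemLp.toLp_add]
    apply MemLp.toLp_congr
    filter_upwards [Lp.coeFn_add f g] with x hx
    change A x ((f + g : fibreSpace) x) = A x (f x) + A x (g x)
    rw [hx, Pi.add_apply, map_add]
  map_smul' c f := by
    rw [RingHom.id_apply, ← MemLp.toLp_const_smul]
    apply MemLp.toLp_congr
    filter_upwards [Lp.coeFn_smul c f] with x hx
    change A x ((c • f : fibreSpace) x) = c • A x (f x)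
    rw [hx, Pi.smul_apply, map_smul]

theorem fibreLin_ae (A : ℤ_[2] → seqHilbert →L[ℂ] seqHilbert)
    (hA : ∀ v, StronglyMeasurable (fun x => A x v)) (M : ℝ) (hM : ∀ x, ‖A x‖ ≤ M) (f : fibreSpace) :
    ∀ᵐ x ∂haarTwoAdic, (fibreLin A hA M hM f : ℤ_[2] → seqHilbert) x
      = A x ((f : ℤ_[2] → seqHilbert) x) :=
  (memLp_apply_field A hA M hM f).coeFn_toLp

theorem fibreLin_norm_le (A : ℤ_[2] → seqHilbert →L[ℂ] seqHilbert)
    (hA : ∀ v, StronglyMeasurable (fun x => A x v)) (M : ℝ) (hM : ∀ x, ‖A x‖ ≤ M) (f : fibreSpace) :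
    ‖fibreLin A hA M hM f‖ ≤ M * ‖f‖ := by
  apply Lp.norm_le_mul_norm_of_ae_le_mul
  filter_upwards [fibreLin_ae A hA M hM f] with x hx
  rw [hx]
  exact ((A x).le_opNorm _).trans (mul_le_mul_of_nonneg_right (hM x) (norm_nonneg _))

/-- The decomposable operator `(A f)(x) = A x (f x)` on `fibreSpace`. -/
noncomputable def fibreCLM (A : ℤ_[2] → seqHilbert →L[ℂ] seqHilbert)
    (hA : ∀ v, StronglyMeasurable (fun x => A x v)) (M : ℝ) (hM : ∀ x, ‖A x‖ ≤ M) :
    fibreSpace →L[ℂ] fibreSpace :=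
  (fibreLin A hA M hM).mkContinuous M (fibreLin_norm_le A hA M hM)

theorem fibreCLM_ae (A : ℤ_[2] → seqHilbert →L[ℂ] seqHilbert)
    (hA : ∀ v, StronglyMeasurable (fun x => A x v)) (M : ℝ) (hM : ∀ x, ‖A x‖ ≤ M) (f : fibreSpace) :
    ∀ᵐ x ∂haarTwoAdic, (fibreCLM A hA M hM f : ℤ_[2] → seqHilbert) x
      = A x ((f : ℤ_[2] → seqHilbert) x) :=
  fibreLin_ae A hA M hM f

theorem fibreCLM_norm_le (A : ℤ_[2] → seqHilbert →L[ℂ] seqHilbert)
    (hA : ∀ v, StronglyMeasurable (fun x => A x v)) (M : ℝ) (hM : ∀ x, ‖A x‖ ≤ M) :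
    ‖fibreCLM A hA M hM‖ ≤ M :=
  LinearMap.mkContinuous_norm_le _ ((norm_nonneg _).trans (hM 0)) _

/-- Any bounded operator with an a.e. fibre formula has norm at most the uniform fibre bound. -/
theorem norm_le_of_fibre_formula (T : fibreSpace →L[ℂ] fibreSpace)
    (A : ℤ_[2] → seqHilbert →L[ℂ] seqHilbert) (M : ℝ) (hM0 : 0 ≤ M)
    (hM : ∀ᵐ x ∂haarTwoAdic, ‖A x‖ ≤ M)
    (hT : ∀ f : fibreSpace, ∀ᵐ x ∂haarTwoAdic,
      (T f : ℤ_[2] → seqHilbert) x = A x ((f : ℤ_[2] → seqHilbert) x)) : ‖T‖ ≤ M := by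
  refine ContinuousLinearMap.opNorm_le_bound _ hM0 (fun f => ?_)
  apply Lp.norm_le_mul_norm_of_ae_le_mul
  filter_upwards [hT f, hM] with x hx hMx
  rw [hx]
  exact ((A x).le_opNorm _).trans (mul_le_mul_of_nonneg_right hMx (norm_nonneg _))

/-- Fibre formula for powers. -/
theorem pow_fibre_formula (T : fibreSpace →L[ℂ] fibreSpace)
    (A : ℤ_[2] → seqHilbert →L[ℂ] seqHilbert)
    (hT : ∀ f : fibreSpace, ∀ᵐ x ∂haarTwoAdic,
      (T f : ℤ_[2] → seqHilbert) x = A x ((f : ℤ_[2] → seqHilbert) x)) (n : ℕ) :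
    ∀ f : fibreSpace, ∀ᵐ x ∂haarTwoAdic,
      ((T ^ n) f : ℤ_[2] → seqHilbert) x = (A x ^ n) ((f : ℤ_[2] → seqHilbert) x) := by
  induction n with
  | zero => intro f; simp
  | succ n ih =>
    intro f
    filter_upwards [ih (T f), hT f] with x h1 h2
    rw [pow_succ, pow_succ]
    change ((T ^ n) (T f) : ℤ_[2] → seqHilbert) x = (A x ^ n) (A x ((f : ℤ_[2] → seqHilbert) x))
    rw [h1, h2]

/-- Two bounded operators on `fibreSpace` are equal if they agree a.e. on each vector. -/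
theorem fo_fibre_ext {T T' : fibreSpace →L[ℂ] fibreSpace}
    (h : ∀ f : fibreSpace, ∀ᵐ x ∂haarTwoAdic,
      (T f : ℤ_[2] → seqHilbert) x = (T' f : ℤ_[2] → seqHilbert) x) : T = T' := by
  ext1 f
  exact Lp.ext (h f)

/-! ### translation along the odometer -/

/-- `(translCLM f)(x) = f (x - 1)`, i.e. `(translCLM f)(x + 1) = f x`. -/
noncomputable def translCLM : fibreSpace →L[ℂ] fibreSpace :=
  (Lp.compMeasurePreservingₗᵢ ℂ (fun x : ℤ_[2] => x - 1)
    od_mp_sub_one).toContinuousLinearMap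

theorem translCLM_ae_sub (f : fibreSpace) :
    ∀ᵐ x ∂haarTwoAdic, (translCLM f : ℤ_[2] → seqHilbert) x = (f : ℤ_[2] → seqHilbert) (x - 1) :=
  Lp.coeFn_compMeasurePreserving f od_mp_sub_one

theorem translCLM_ae (f : fibreSpace) :
    ∀ᵐ x ∂haarTwoAdic, (translCLM f : ℤ_[2] → seqHilbert) (x + 1) = (f : ℤ_[2] → seqHilbert) x := by
  have h := od_mp_add_one.quasiMeasurePreserving.ae (translCLM_ae_sub f)
  filter_upwards [h] with x hx
  simpa using hx

theorem translCLM_norm_apply (f : fibreSpace) : ‖translCLM f‖ = ‖f‖ :=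
  Lp.norm_compMeasurePreserving f od_mp_sub_one

theorem translCLM_norm_le : ‖translCLM‖ ≤ 1 :=
  ContinuousLinearMap.opNorm_le_bound _ zero_le_one (fun f => by
    rw [translCLM_norm_apply, one_mul])

/-- transfer of an a.e. statement along `x ↦ x + 1`. -/
theorem fo_ae_add_one {p : ℤ_[2] → Prop} (h : ∀ᵐ x ∂haarTwoAdic, p x) :
    ∀ᵐ x ∂haarTwoAdic, p (x + 1) :=
  od_mp_add_one.quasiMeasurePreserving.ae h

theorem fo_ae_sub_one {p : ℤ_[2] → Prop} (h : ∀ᵐ x ∂haarTwoAdic, p x) :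
    ∀ᵐ x ∂haarTwoAdic, p (x - 1) :=
  od_mp_sub_one.quasiMeasurePreserving.ae h

/-- The operator `(V f)(x + 1) = A x (f x)`. -/
noncomputable def skewCLM (A : ℤ_[2] → seqHilbert →L[ℂ] seqHilbert)
    (hA : ∀ v, StronglyMeasurable (fun x => A x v)) (M : ℝ) (hM : ∀ x, ‖A x‖ ≤ M) :
    fibreSpace →L[ℂ] fibreSpace :=
  translCLM * fibreCLM A hA M hM

theorem skewCLM_ae (A : ℤ_[2] → seqHilbert →L[ℂ] seqHilbert)
    (hA : ∀ v, StronglyMeasurable (fun x => A x v)) (M : ℝ) (hM : ∀ x, ‖A x‖ ≤ M) (f : fibreSpace) :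
    ∀ᵐ x ∂haarTwoAdic, (skewCLM A hA M hM f : ℤ_[2] → seqHilbert) (x + 1)
      = A x ((f : ℤ_[2] → seqHilbert) x) := by
  filter_upwards [translCLM_ae (fibreCLM A hA M hM f), fibreCLM_ae A hA M hM f] with x h1 h2
  rw [← h2, ← h1]
  rfl

theorem skewCLM_norm_le (A : ℤ_[2] → seqHilbert →L[ℂ] seqHilbert)
    (hA : ∀ v, StronglyMeasurable (fun x => A x v)) (M : ℝ) (hM : ∀ x, ‖A x‖ ≤ M) :
    ‖skewCLM A hA M hM‖ ≤ M := by
  have h0 : 0 ≤ M := (norm_nonneg _).trans (hM 0)
  calc ‖skewCLM A hA M hM‖ ≤ ‖translCLM‖ * ‖fibreCLM A hA M hM‖ := norm_mul_le _ _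
    _ ≤ 1 * M := mul_le_mul translCLM_norm_le (fibreCLM_norm_le A hA M hM) (norm_nonneg _) zero_le_one
    _ = M := one_mul _

/-- Commutation criterion: if `S` is decomposable with fibres `A`, `V` is skew with fibres `B`
and `B x ∘ A x = A (x+1) ∘ B x` for a.e. `x`, then `V * S = S * V`. -/
theorem skew_commute (S V : fibreSpace →L[ℂ] fibreSpace)
    (A B : ℤ_[2] → seqHilbert →L[ℂ] seqHilbert)
    (hS : ∀ f : fibreSpace, ∀ᵐ x ∂haarTwoAdic,
      (S f : ℤ_[2] → seqHilbert) x = A x ((f : ℤ_[2] → seqHilbert) x))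
    (hV : ∀ f : fibreSpace, ∀ᵐ x ∂haarTwoAdic,
      (V f : ℤ_[2] → seqHilbert) (x + 1) = B x ((f : ℤ_[2] → seqHilbert) x))
    (hAB : ∀ᵐ x ∂haarTwoAdic, B x * A x = A (x + 1) * B x) : V * S = S * V := by
  apply fo_fibre_ext
  intro f
  have key : ∀ᵐ x ∂haarTwoAdic, ((V * S) f : ℤ_[2] → seqHilbert) (x + 1)
      = ((S * V) f : ℤ_[2] → seqHilbert) (x + 1) := by
    filter_upwards [hV (S f), hS f, fo_ae_add_one (hS (V f)), hV f, hAB] with x h1 h2 h3 h4 h5
    change (V (S f) : ℤ_[2] → seqHilbert) (x + 1) = (S (V f) : ℤ_[2] → seqHilbert) (x + 1)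
    rw [h1, h2, h3, h4]
    change (B x * A x) ((f : ℤ_[2] → seqHilbert) x) = (A (x + 1) * B x) ((f : ℤ_[2] → seqHilbert) x)
    rw [h5]
  have := fo_ae_sub_one key
  filter_upwards [this] with x hx
  simpa using hx

/-! ### fields of weighted shifts -/

/-- The field of weighted shifts with weights `w x j`. -/
noncomputable def wfield (w : ℤ_[2] → ℤ → ℂ) (s : ℤ) (M : ℝ) (hw : ∀ x j, ‖w x j‖ ≤ M) :
    ℤ_[2] → seqHilbert →L[ℂ] seqHilbert :=
  fun x => wshift (w x) s M (hw x)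

theorem wfield_stronglyMeasurable (w : ℤ_[2] → ℤ → ℂ) (s : ℤ) (M : ℝ) (hw : ∀ x j, ‖w x j‖ ≤ M)
    (hmeas : ∀ j, Measurable (fun x => w x j)) (v : seqHilbert) :
    StronglyMeasurable (fun x => wfield w s M hw x v) := by
  have hs := lp.hasSum_single (p := 2) (by norm_num) v
  refine stronglyMeasurable_of_tendsto (atTop : Filter (Finset ℤ))
    (f := fun (T : Finset ℤ) x => ∑ i ∈ T, wfield w s M hw x (lp.single 2 i (v i))) (fun T => ?_) ?_
  · refine Finset.stronglyMeasurable_fun_sum _ (fun i _ => ?_)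
    have : (fun x => wfield w s M hw x (lp.single 2 i (v i)))
        = fun x => (w x i * v i) • basisVec (i + s) := by
      funext x
      exact wshift_single _ _ _ _ _ _
    rw [this]
    exact (((hmeas i).mul_const _).stronglyMeasurable).smul_const _
  · rw [tendsto_pi_nhds]
    intro x
    exact (wfield w s M hw x).hasSum hs

theorem wfield_norm_le (w : ℤ_[2] → ℤ → ℂ) (s : ℤ) (M : ℝ) (hw : ∀ x j, ‖w x j‖ ≤ M) (x : ℤ_[2]) :
    ‖wfield w s M hw x‖ ≤ M := wshift_norm_le _ _ _ _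

theorem wfield_basisVec (w : ℤ_[2] → ℤ → ℂ) (s : ℤ) (M : ℝ) (hw : ∀ x j, ‖w x j‖ ≤ M) (x : ℤ_[2])
    (j : ℤ) : wfield w s M hw x (basisVec j) = w x j • basisVec (j + s) :=
  wshift_basisVec _ _ _ _ _

end Crest.Agent.R113
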