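import Crest.Agent.R113.Defs

/-! R113 task N1: combinatorics of windows of a V-shaped cost sequence. -/
set_option autoImplicit false

namespace Crest.Agent.R113

theorem n1_ge_right (c : ℤ → ℕ) (hc : VShape c) (i : ℕ) : i + 1 ≤ c (i : ℤ) := by
  induction i with
  | zero => simpa using hc.pos0
  | succ i ih =>
    have := hc.up (i : ℤ) (by positivity)
    push_cast
    omega

theorem n1_ge_left (c : ℤ → ℕ) (hc : VShape c) (i : ℕ) : i + 1 ≤ c (-(i : ℤ) - 1) := by
  induction i with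
  | zero => simpa using hc.posm
  | succ i ih =>
    have := hc.down (-(i : ℤ) - 1) (by omega)
    have e : -((i + 1 : ℕ) : ℤ) - 1 = -(i : ℤ) - 1 - 1 := by push_cast; ring
    rw [e]
    omega

theorem c_ge_one (c : ℤ → ℕ) (hc : VShape c) (j : ℤ) : 1 ≤ c j := by
  rcases le_or_gt 0 j with h | h
  · obtain ⟨i, rfl⟩ := Int.eq_ofNat_of_zero_le h
    have := n1_ge_right c hc i
    omega
  · obtain ⟨i, hi⟩ : ∃ i : ℕ, j = -(i : ℤ) - 1 := ⟨(-j - 1).toNat, by omega⟩
    have := n1_ge_left c hc i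
    rw [hi]
    omega

theorem n1_win_succ_right (c : ℤ → ℕ) (k : ℤ) (n : ℕ) :
    win c k (n + 1) = win c k n + c (k + n) := by
  simp [win, Finset.sum_range_succ]

theorem n1_win_succ_left (c : ℤ → ℕ) (k : ℤ) (n : ℕ) :
    win c k (n + 1) = c k + win c (k + 1) n := by
  simp only [win, Finset.sum_range_succ']
  rw [add_comm]
  congr 1
  · simp
  · refine Finset.sum_congr rfl (fun l _ => ?_)
    congr 1
    push_cast
    ring

theorem n1_step (n : ℕ) : (n + 1 + 1) ^ 2 / 4 = (n + 1) ^ 2 / 4 + (n + 2) / 2 := by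
  rcases Nat.even_or_odd' n with ⟨m, rfl | rfl⟩
  · have h1 : (2 * m + 1 + 1) ^ 2 = 4 * ((m + 1) ^ 2) := by ring
    have h2 : (2 * m + 1) ^ 2 = 4 * (m ^ 2 + m) + 1 := by ring
    have h3 : (m + 1) ^ 2 = m ^ 2 + m + (m + 1) := by ring
    rw [h1, h2]
    omega
  · have h1 : (2 * m + 1 + 1 + 1) ^ 2 = 4 * (m ^ 2 + 3 * m + 2) + 1 := by ring
    have h2 : (2 * m + 1 + 1) ^ 2 = 4 * ((m + 1) ^ 2) := by ring
    have h3 : (m + 1) ^ 2 = m ^ 2 + 2 * m + 1 := by ring
    rw [h1, h2]
    omega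

theorem win_ge (c : ℤ → ℕ) (hc : VShape c) (k : ℤ) (n : ℕ) : (n + 1) ^ 2 / 4 ≤ win c k n := by
  induction n generalizing k with
  | zero => simp [win]
  | succ n ih =>
    rw [n1_step]
    rcases le_or_gt (((n + 2) / 2 : ℕ) : ℤ) (k + n + 1) with h | h
    · -- the right end is expensive
      rw [n1_win_succ_right]
      have h0 : 0 ≤ k + n := by omega
      obtain ⟨i, hi⟩ := Int.eq_ofNat_of_zero_le h0
      have h1 := n1_ge_right c hc i
      rw [hi]
      have h2 := ih k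
      have h3 : (n + 2) / 2 ≤ i + 1 := by omega
      omega
    · -- the left end is expensive
      rw [n1_win_succ_left]
      obtain ⟨i, hi⟩ : ∃ i : ℕ, k = -(i : ℤ) - 1 := ⟨(-k - 1).toNat, by omega⟩
      have h1 := n1_ge_left c hc i
      have h2 := ih (k + 1)
      rw [← hi] at h1
      have h3 : (n + 2) / 2 ≤ i + 1 := by omega
      omega

end Crest.Agent.R113
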