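import Crest.Prelude.Def_TwoAdicShift

/-!
R113, cut O: basic facts on the 2-adic odometer `x ↦ x + 1` on `(ℤ_[2], haarTwoAdic)`.
-/

set_option autoImplicit false
open Crest.AnalysisR.TwoAdic MeasureTheory
attribute [local instance] Crest.AnalysisR.TwoAdic.borelTwoAdic Crest.AnalysisR.TwoAdic.borelSpace_twoAdic

namespace Crest.Agent.R113

instance od_isAddHaar : (haarTwoAdic).IsAddHaarMeasure := by
  unfold haarTwoAdic; infer_instance

instance od_isProb : IsProbabilityMeasure haarTwoAdic := by
  constructor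
  have := Measure.addHaarMeasure_self (K₀ := (⊤ : TopologicalSpace.PositiveCompacts ℤ_[2]))
  simpa [haarTwoAdic] using this

theorem od_mp_add_one : MeasurePreserving (fun x : ℤ_[2] => x + 1) haarTwoAdic haarTwoAdic :=
  measurePreserving_add_right haarTwoAdic 1

theorem od_mp_sub_one : MeasurePreserving (fun x : ℤ_[2] => x - 1) haarTwoAdic haarTwoAdic := by
  simpa [sub_eq_add_neg] using measurePreserving_add_right haarTwoAdic (-1 : ℤ_[2])

theorem od_denseRange : DenseRange (fun n : ℤ => n • (1 : ℤ_[2])) := by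
  have h := PadicInt.denseRange_intCast (p := 2)
  have : (fun n : ℤ => n • (1 : ℤ_[2])) = (Int.cast : ℤ → ℤ_[2]) := by
    funext n; simp
  rw [this]; exact h

theorem od_ergodic : Ergodic (fun x : ℤ_[2] => x + 1) haarTwoAdic := by
  have h := ergodic_add_left_of_denseRange_zsmul od_denseRange haarTwoAdic
  have e : (fun x : ℤ_[2] => x + 1) = (fun x : ℤ_[2] => 1 + x) := by
    funext x; ring
  rw [e]; exact h

/-- An a.e.-invariant (null-measurable) set has measure `0` or its complement has. -/
theorem od_zero_or_compl {s : Set ℤ_[2]} (hs : NullMeasurableSet s haarTwoAdic)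
    (hinv : (fun x : ℤ_[2] => x + 1) ⁻¹' s =ᵐ[haarTwoAdic] s) :
    haarTwoAdic s = 0 ∨ haarTwoAdic sᶜ = 0 := by
  have := od_ergodic.quasiErgodic.ae_empty_or_univ₀ hs hinv
  rcases this with h | h
  · left; exact (ae_eq_empty.mp h)
  · right; exact (ae_eq_univ.mp h)

end Crest.Agent.R113
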