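import Crest.Agent.R113.U90Tails

/-!
R113 (S0150), cut U2: powers of a forward weighted shift with weights `exp (-10 c_j)`.
-/

set_option autoImplicit false
open Crest.AnalysisR.TwoAdic

namespace Crest.Agent.R113.U90

/-- product of the weights `exp (-10 c_k) ⋯ exp (-10 c_{k+n-1})` -/
noncomputable def P (c : ℤ → ℝ) (k : ℤ) (n : ℕ) : ℝ :=
  Real.exp (-10 * ∑ i ∈ Finset.range n, c (k + i))

theorem P_def (c : ℤ → ℝ) (k : ℤ) (n : ℕ) :
    P c k n = Real.exp (-10 * ∑ i ∈ Finset.range n, c (k + i)) := rfl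

@[simp] theorem P_zero (c : ℤ → ℝ) (k : ℤ) : P c k 0 = 1 := by simp [P]

theorem P_pos (c : ℤ → ℝ) (k : ℤ) (n : ℕ) : 0 < P c k n := Real.exp_pos _

theorem P_succ (c : ℤ → ℝ) (k : ℤ) (n : ℕ) :
    P c k (n + 1) = Real.exp (-10 * c (k + n)) * P c k n := by
  unfold P
  rw [Finset.sum_range_succ, ← Real.exp_add]
  congr 1
  ring

theorem P_succ' (c : ℤ → ℝ) (k : ℤ) (n : ℕ) :
    P c k (n + 1) = Real.exp (-10 * c k) * P c (k + 1) n := by
  unfold P
  rw [Finset.sum_range_succ', ← Real.exp_add]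
  congr 1
  have : ∀ i : ℕ, c (k + ((i + 1 : ℕ) : ℤ)) = c (k + 1 + (i : ℤ)) := by
    intro i; congr 1; push_cast; ring
  simp only [this]
  simp
  ring

theorem P_add (c : ℤ → ℝ) (k : ℤ) (m n : ℕ) :
    P c k (m + n) = P c k m * P c (k + m) n := by
  unfold P
  rw [Finset.sum_range_add, ← Real.exp_add]
  congr 1
  have : ∀ i : ℕ, c (k + ((m + i : ℕ) : ℤ)) = c (k + (m : ℤ) + (i : ℤ)) := by
    intro i; congr 1; push_cast; ring
  simp only [this]
  ring

/-- coordinates of a weighted shift by `s` -/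
theorem shift_apply (T : seqHilbert →L[ℂ] seqHilbert) (w : ℤ → ℂ) (s : ℤ)
    (hT : ∀ j, T (basisVec j) = w j • basisVec (j + s)) (v : seqHilbert) (i : ℤ) :
    (T v) (i + s) = w i * v i := by
  have h1 := (hasSum_map T v).mapL (coordCLM (i + s))
  have h2 : HasSum (fun j : ℤ => coordCLM (i + s) ((v j) • T (basisVec j))) (w i * v i) := by
    have : (w i * v i) = coordCLM (i + s) ((v i) • T (basisVec i)) := by
      simp [hT, mul_comm]
    rw [this]
    apply hasSum_single i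
    intro j hj
    have : i + s ≠ j + s := fun h => hj (by omega)
    simp [hT, basisVec_apply_ne this]
  exact h1.unique h2

theorem pow_basis (c : ℤ → ℝ) (A : seqHilbert →L[ℂ] seqHilbert)
    (hA : ∀ j, A (basisVec j) = ((Real.exp (-10 * c j) : ℝ) : ℂ) • basisVec (j + 1))
    (n : ℕ) (k : ℤ) : (A ^ n) (basisVec k) = ((P c k n : ℝ) : ℂ) • basisVec (k + n) := by
  induction n with
  | zero => simp
  | succ n ih =>
    rw [pow_succ']
    show A ((A ^ n) (basisVec k)) = _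
    rw [ih, map_smul, hA, smul_smul, P_succ]
    have e : k + (n : ℤ) + 1 = k + ((n + 1 : ℕ) : ℤ) := by push_cast; ring
    rw [e]
    congr 1
    push_cast
    ring

theorem pow_apply (c : ℤ → ℝ) (A : seqHilbert →L[ℂ] seqHilbert)
    (hA : ∀ j, A (basisVec j) = ((Real.exp (-10 * c j) : ℝ) : ℂ) • basisVec (j + 1))
    (n : ℕ) (v : seqHilbert) (k : ℤ) : ((A ^ n) v) (k + n) = ((P c k n : ℝ) : ℂ) * v k :=
  shift_apply (A ^ n) (fun k => ((P c k n : ℝ) : ℂ)) n (fun j => pow_basis c A hA n j) v k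

theorem hasSum_inner_pow (c : ℤ → ℝ) (A : seqHilbert →L[ℂ] seqHilbert)
    (hA : ∀ j, A (basisVec j) = ((Real.exp (-10 * c j) : ℝ) : ℂ) • basisVec (j + 1))
    (n : ℕ) (f g : seqHilbert) :
    HasSum (fun k : ℤ => (starRingEnd ℂ) (g (k + n)) * (((P c k n : ℝ) : ℂ) * f k))
      (inner ℂ g ((A ^ n) f)) := by
  have h := lp.hasSum_inner (𝕜 := ℂ) g ((A ^ n) f)
  have h2 := (Equiv.addRight (n : ℤ)).hasSum_iff.2 h
  have e : ((fun i : ℤ => inner ℂ (g i) (((A ^ n) f) i)) ∘ (Equiv.addRight (n : ℤ)))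
      = fun k : ℤ => (starRingEnd ℂ) (g (k + n)) * (((P c k n : ℝ) : ℂ) * f k) := by
    funext k
    simp only [Function.comp, Equiv.coe_addRight]
    rw [pow_apply c A hA n f k, RCLike.inner_apply]
    ring
  rw [e] at h2
  exact h2

theorem inner_pow (c : ℤ → ℝ) (A : seqHilbert →L[ℂ] seqHilbert)
    (hA : ∀ j, A (basisVec j) = ((Real.exp (-10 * c j) : ℝ) : ℂ) • basisVec (j + 1))
    (n : ℕ) (f g : seqHilbert) :
    inner ℂ g ((A ^ n) f)
      = ∑' k : ℤ, (starRingEnd ℂ) (g (k + n)) * (((P c k n : ℝ) : ℂ) * f k) :=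
  (hasSum_inner_pow c A hA n f g).tsum_eq.symm

theorem summable_inner_pow (c : ℤ → ℝ) (A : seqHilbert →L[ℂ] seqHilbert)
    (hA : ∀ j, A (basisVec j) = ((Real.exp (-10 * c j) : ℝ) : ℂ) • basisVec (j + 1))
    (n : ℕ) (f g : seqHilbert) :
    Summable (fun k : ℤ => (starRingEnd ℂ) (g (k + n)) * (((P c k n : ℝ) : ℂ) * f k)) :=
  (hasSum_inner_pow c A hA n f g).summable

/-- the same in the arrangement `P * f j * conj (g (j+n))` -/
theorem hasSum_inner_pow' (c : ℤ → ℝ) (A : seqHilbert →L[ℂ] seqHilbert)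
    (hA : ∀ j, A (basisVec j) = ((Real.exp (-10 * c j) : ℝ) : ℂ) • basisVec (j + 1))
    (n : ℕ) (f g : seqHilbert) :
    HasSum (fun j : ℤ => ((Real.exp (-10 * ∑ i ∈ Finset.range n, c (j + i)) : ℝ) : ℂ) * f j *
      (starRingEnd ℂ) (g (j + n))) (inner ℂ g ((A ^ n) f)) := by
  have h := hasSum_inner_pow c A hA n f g
  have e : (fun j : ℤ => ((Real.exp (-10 * ∑ i ∈ Finset.range n, c (j + i)) : ℝ) : ℂ) * f j *
      (starRingEnd ℂ) (g (j + n)))
      = fun k : ℤ => (starRingEnd ℂ) (g (k + n)) * (((P c k n : ℝ) : ℂ) * f k) := by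
    funext k
    rw [P_def]
    ring
  rw [e]
  exact h

theorem summable_norm_sq (v : seqHilbert) : Summable fun j : ℤ => ‖v j‖ ^ 2 := by
  have h := lp.hasSum_norm (p := 2) (by norm_num) v
  have e : (fun j : ℤ => ‖v j‖ ^ (2 : ENNReal).toReal) = fun j : ℤ => ‖v j‖ ^ 2 := by
    funext j
    simp
  rw [e] at h
  exact h.summable

theorem norm_apply_le (v : seqHilbert) (j : ℤ) : ‖v j‖ ≤ ‖v‖ :=
  lp.norm_apply_le_norm (by norm_num) v j

/-- if `W` is invariant under `A`, it is invariant under the powers -/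
theorem pow_mem {A : seqHilbert →L[ℂ] seqHilbert} {W : Submodule ℂ seqHilbert}
    (hinv : ∀ v ∈ W, A v ∈ W) (n : ℕ) : ∀ v ∈ W, (A ^ n) v ∈ W := by
  induction n with
  | zero => intro v hv; simpa using hv
  | succ n ih =>
    intro v hv
    rw [pow_succ']
    exact hinv _ (ih v hv)

/-- the orthogonality relations between an invariant subspace and its orthogonal complement -/
theorem rel_of_mem (c : ℤ → ℝ) (A : seqHilbert →L[ℂ] seqHilbert)
    (hA : ∀ j, A (basisVec j) = ((Real.exp (-10 * c j) : ℝ) : ℂ) • basisVec (j + 1))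
    {W : Submodule ℂ seqHilbert} (hinv : ∀ v ∈ W, A v ∈ W) {f g : seqHilbert}
    (hf : f ∈ W) (hg : g ∈ Wᗮ) (n : ℕ) :
    ∑' j : ℤ, ((Real.exp (-10 * ∑ i ∈ Finset.range n, c (j + i)) : ℝ) : ℂ) * f j *
      (starRingEnd ℂ) (g (j + n)) = 0 := by
  rw [(hasSum_inner_pow' c A hA n f g).tsum_eq]
  exact Submodule.inner_left_of_mem_orthogonal (pow_mem hinv n f hf) hg

end Crest.Agent.R113.U90
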