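import Crest.Prelude.Def_TwoAdicShift

/-!
R113 (S0150), cut T: basic facts on `seqHilbert = ℓ²(ℤ)`, its standard basis and the tail spaces.
Nothing here depends on the weights.
-/

set_option autoImplicit false
open Crest.AnalysisR.TwoAdic

namespace Crest.Agent.R113.U90

/-- coordinate functional -/
noncomputable def coordCLM (i : ℤ) : seqHilbert →L[ℂ] ℂ := lp.evalCLM ℂ (fun _ : ℤ => ℂ) 2 i

@[simp] theorem coordCLM_apply (i : ℤ) (v : seqHilbert) : coordCLM i v = v i := rfl

theorem basisVec_apply (j i : ℤ) : (basisVec j : seqHilbert) i = if i = j then 1 else 0 := by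
  unfold basisVec
  rw [lp.single_apply]
  by_cases h : i = j
  · subst h; simp
  · simp [h]

@[simp] theorem basisVec_apply_self (j : ℤ) : (basisVec j : seqHilbert) j = 1 := by
  simp [basisVec_apply]

theorem basisVec_apply_ne {j i : ℤ} (h : i ≠ j) : (basisVec j : seqHilbert) i = 0 := by
  simp [basisVec_apply, h]

theorem norm_basisVec (j : ℤ) : ‖basisVec j‖ = 1 := by
  unfold basisVec
  rw [lp.norm_single (by norm_num)]
  simp

theorem basisVec_ne_zero (j : ℤ) : basisVec j ≠ 0 := by
  intro h
  have := norm_basisVec j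
  rw [h, norm_zero] at this
  exact zero_ne_one this

theorem hasSum_basis (v : seqHilbert) : HasSum (fun j : ℤ => (v j) • basisVec j) v := by
  have h := lp.hasSum_single (E := fun _ : ℤ => ℂ) (p := 2) (by norm_num) v
  have e : (fun j : ℤ => (v j) • basisVec j) = fun j : ℤ => lp.single 2 j (v j) := by
    funext j
    unfold basisVec
    rw [← lp.single_smul]
    simp
  rw [e]
  exact h

theorem seq_ext {v w : seqHilbert} (h : ∀ j : ℤ, v j = w j) : v = w := by
  apply lp.ext
  funext j
  exact h j

/-- Image of `v` under a continuous linear map, expanded in the basis. -/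
theorem hasSum_map (A : seqHilbert →L[ℂ] seqHilbert) (v : seqHilbert) :
    HasSum (fun j : ℤ => (v j) • A (basisVec j)) (A v) := by
  have h := (hasSum_basis v).mapL A
  simpa using h

theorem clm_ext {A B : seqHilbert →L[ℂ] seqHilbert} (h : ∀ j, A (basisVec j) = B (basisVec j)) :
    A = B := by
  ext1 v
  have h1 := hasSum_map A v
  have h2 := hasSum_map B v
  simp only [h] at h1
  exact h1.unique h2

/-- coordinates of a forward weighted shift -/
theorem fwd_apply (A : seqHilbert →L[ℂ] seqHilbert) (β : ℤ → ℂ)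
    (hA : ∀ j, A (basisVec j) = β j • basisVec (j + 1)) (v : seqHilbert) (i : ℤ) :
    (A v) (i + 1) = β i * v i := by
  have h1 := (hasSum_map A v).mapL (coordCLM (i + 1))
  have h2 : HasSum (fun j : ℤ => coordCLM (i + 1) ((v j) • A (basisVec j))) (β i * v i) := by
    have : (β i * v i) = coordCLM (i + 1) ((v i) • A (basisVec i)) := by
      simp [hA, mul_comm]
    rw [this]
    apply hasSum_single i
    intro j hj
    have : i + 1 ≠ j + 1 := fun h => hj (by omega)
    simp [hA, basisVec_apply_ne this]
  exact h1.unique h2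

theorem fwd_apply' (A : seqHilbert →L[ℂ] seqHilbert) (β : ℤ → ℂ)
    (hA : ∀ j, A (basisVec j) = β j • basisVec (j + 1)) (v : seqHilbert) (i : ℤ) :
    (A v) i = β (i - 1) * v (i - 1) := by
  have := fwd_apply A β hA v (i - 1)
  simpa using this

/-- coordinates of a backward weighted shift -/
theorem bwd_apply (B : seqHilbert →L[ℂ] seqHilbert) (b : ℤ → ℂ)
    (hB : ∀ j, B (basisVec j) = b j • basisVec (j - 1)) (v : seqHilbert) (i : ℤ) :
    (B v) (i - 1) = b i * v i := by
  have h1 := (hasSum_map B v).mapL (coordCLM (i - 1))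
  have h2 : HasSum (fun j : ℤ => coordCLM (i - 1) ((v j) • B (basisVec j))) (b i * v i) := by
    have : (b i * v i) = coordCLM (i - 1) ((v i) • B (basisVec i)) := by
      simp [hB, mul_comm]
    rw [this]
    apply hasSum_single i
    intro j hj
    have : i - 1 ≠ j - 1 := fun h => hj (by omega)
    simp [hB, basisVec_apply_ne this]
  exact h1.unique h2

theorem bwd_apply' (B : seqHilbert →L[ℂ] seqHilbert) (b : ℤ → ℂ)
    (hB : ∀ j, B (basisVec j) = b j • basisVec (j - 1)) (v : seqHilbert) (i : ℤ) :
    (B v) i = b (i + 1) * v (i + 1) := by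
  have := bwd_apply B b hB v (i + 1)
  simpa using this

/-- the closed submodule of sequences vanishing below `h` -/
noncomputable def vanishBelow (h : ℤ) : Submodule ℂ seqHilbert :=
  ⨅ j : {j : ℤ // j < h}, LinearMap.ker (coordCLM (j : ℤ)).toLinearMap

theorem mem_vanishBelow (h : ℤ) (v : seqHilbert) : v ∈ vanishBelow h ↔ ∀ j < h, v j = 0 := by
  unfold vanishBelow
  simp [Submodule.mem_iInf]

theorem isClosed_vanishBelow (h : ℤ) : IsClosed (vanishBelow h : Set seqHilbert) := by
  have : (vanishBelow h : Set seqHilbert) = ⋂ j : {j : ℤ // j < h}, {v | coordCLM (j : ℤ) v = 0} := by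
    ext v
    simp [mem_vanishBelow]
  rw [this]
  exact isClosed_iInter fun j => isClosed_eq (coordCLM (j : ℤ)).continuous continuous_const

theorem isClosed_tailSpace (h : ℤ) : IsClosed (tailSpace h : Set seqHilbert) :=
  Submodule.isClosed_topologicalClosure _

theorem basisVec_mem_tailSpace {h j : ℤ} (hj : h ≤ j) : basisVec j ∈ tailSpace h :=
  Submodule.le_topologicalClosure _ (Submodule.subset_span ⟨⟨j, hj⟩, rfl⟩)

theorem mem_tailSpace_iff (h : ℤ) (v : seqHilbert) : v ∈ tailSpace h ↔ ∀ j < h, v j = 0 := by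
  constructor
  · intro hv
    have hle : tailSpace h ≤ vanishBelow h := by
      apply Submodule.topologicalClosure_minimal _ _ (isClosed_vanishBelow h)
      rw [Submodule.span_le]
      rintro _ ⟨⟨j, hj⟩, rfl⟩
      rw [SetLike.mem_coe, mem_vanishBelow]
      intro i hi
      have hij : i ≠ j := by omega
      exact basisVec_apply_ne hij
    exact (mem_vanishBelow h v).1 (hle hv)
  · intro hv
    have hs := hasSum_basis v
    refine (isClosed_tailSpace h).mem_of_tendsto hs (Filter.Eventually.of_forall fun s => ?_)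
    apply Submodule.sum_mem
    intro j _
    by_cases hj : j < h
    · rw [hv j hj, zero_smul]; exact Submodule.zero_mem _
    · exact Submodule.smul_mem _ _ (basisVec_mem_tailSpace (by omega))

theorem tailSpace_antitone {h k : ℤ} (hk : h ≤ k) : tailSpace k ≤ tailSpace h := by
  intro v hv
  rw [mem_tailSpace_iff] at hv ⊢
  intro j hj
  exact hv j (by omega)

theorem basisVec_mem_tailSpace_iff {h j : ℤ} : basisVec j ∈ tailSpace h ↔ h ≤ j := by
  constructor
  · intro hv
    by_contra hj
    have := (mem_tailSpace_iff h _).1 hv j (by omega)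
    simp at this
  · exact basisVec_mem_tailSpace

theorem tailSpace_le_iff {h k : ℤ} : tailSpace k ≤ tailSpace h ↔ h ≤ k :=
  ⟨fun hle => basisVec_mem_tailSpace_iff.1 (hle (basisVec_mem_tailSpace le_rfl)), tailSpace_antitone⟩

theorem tailSpace_injective : Function.Injective tailSpace := by
  intro h k hk
  exact le_antisymm (tailSpace_le_iff.1 hk.ge) (tailSpace_le_iff.1 hk.le)

theorem tailSpace_ne_bot (h : ℤ) : tailSpace h ≠ ⊥ := by
  intro hb
  have : basisVec h ∈ tailSpace h := basisVec_mem_tailSpace le_rfl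
  rw [hb, Submodule.mem_bot] at this
  exact basisVec_ne_zero h this

theorem tailSpace_ne_top (h : ℤ) : tailSpace h ≠ ⊤ := by
  intro hb
  have : basisVec (h - 1) ∈ tailSpace h := by rw [hb]; trivial
  have := basisVec_mem_tailSpace_iff.1 this
  omega

theorem span_basisVec_dense :
    (Submodule.span ℂ (Set.range basisVec)).topologicalClosure = ⊤ := by
  rw [eq_top_iff]
  intro v _
  have hs := hasSum_basis v
  refine (Submodule.isClosed_topologicalClosure _).mem_of_tendsto hs
    (Filter.Eventually.of_forall fun s => ?_)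
  apply Submodule.sum_mem
  intro j _
  exact Submodule.smul_mem _ _ (Submodule.le_topologicalClosure _ (Submodule.subset_span ⟨j, rfl⟩))

/-- a closed submodule containing all `basisVec j`, `j ≥ h`, contains the tail -/
theorem tailSpace_le_of_mem {W : Submodule ℂ seqHilbert} (hW : IsClosed (W : Set seqHilbert)) {h : ℤ}
    (hmem : ∀ j, h ≤ j → basisVec j ∈ W) : tailSpace h ≤ W := by
  apply Submodule.topologicalClosure_minimal _ _ hW
  rw [Submodule.span_le]
  rintro _ ⟨⟨j, hj⟩, rfl⟩
  exact hmem j hj

theorem eq_top_of_mem {W : Submodule ℂ seqHilbert} (hW : IsClosed (W : Set seqHilbert))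
    (hmem : ∀ j, basisVec j ∈ W) : W = ⊤ := by
  rw [eq_top_iff, ← span_basisVec_dense]
  apply Submodule.topologicalClosure_minimal _ _ hW
  rw [Submodule.span_le]
  rintro _ ⟨j, rfl⟩
  exact hmem j

/-- tails are invariant under forward weighted shifts -/
theorem tail_invariant (A : seqHilbert →L[ℂ] seqHilbert) (β : ℤ → ℂ)
    (hA : ∀ j, A (basisVec j) = β j • basisVec (j + 1)) (h : ℤ) :
    ∀ v ∈ tailSpace h, A v ∈ tailSpace h := by
  intro v hv
  rw [mem_tailSpace_iff] at hv ⊢
  intro j hj
  rw [fwd_apply' A β hA, hv (j - 1) (by omega), mul_zero]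

/-- easy direction of the lattice description -/
theorem invariant_of_trivial_or_tail (A : seqHilbert →L[ℂ] seqHilbert) (β : ℤ → ℂ)
    (hA : ∀ j, A (basisVec j) = β j • basisVec (j + 1)) (W : Submodule ℂ seqHilbert)
    (hW : W = ⊥ ∨ W = ⊤ ∨ ∃ h : ℤ, W = tailSpace h) : ∀ v ∈ W, A v ∈ W := by
  rcases hW with rfl | rfl | ⟨h, rfl⟩
  · intro v hv
    rw [Submodule.mem_bot] at hv
    simp [hv]
  · intro v _; trivial
  · exact tail_invariant A β hA h

theorem bwd_maps_tail (B : seqHilbert →L[ℂ] seqHilbert) (b : ℤ → ℂ)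
    (hB : ∀ j, B (basisVec j) = b j • basisVec (j - 1)) (h : ℤ) :
    ∀ v ∈ tailSpace h, B v ∈ tailSpace (h - 1) := by
  intro v hv
  rw [mem_tailSpace_iff] at hv ⊢
  intro j hj
  rw [bwd_apply' B b hB, hv (j + 1) (by omega), mul_zero]

theorem closure_image_tail (B : seqHilbert →L[ℂ] seqHilbert) (b : ℤ → ℝ)
    (hB : ∀ j, B (basisVec j) = (b j : ℂ) • basisVec (j - 1)) (hb : ∀ j, 0 < b j) (h : ℤ) :
    closure (B '' (tailSpace h : Set seqHilbert)) = (tailSpace (h - 1) : Set seqHilbert) := by
  apply Set.Subset.antisymm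
  · apply closure_minimal _ (isClosed_tailSpace _)
    rintro _ ⟨v, hv, rfl⟩
    exact bwd_maps_tail B (fun j => (b j : ℂ)) hB h v hv
  · have hcl : ((Submodule.map B.toLinearMap (tailSpace h)).topologicalClosure : Set seqHilbert)
        = closure (B '' (tailSpace h : Set seqHilbert)) := by
      rw [Submodule.topologicalClosure_coe]
      rfl
    rw [← hcl]
    have : tailSpace (h - 1) ≤ (Submodule.map B.toLinearMap (tailSpace h)).topologicalClosure := by
      apply tailSpace_le_of_mem (Submodule.isClosed_topologicalClosure _)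
      intro j hj
      apply Submodule.le_topologicalClosure
      refine ⟨((b (j + 1) : ℂ))⁻¹ • basisVec (j + 1), ?_, ?_⟩
      · exact Submodule.smul_mem _ _ (basisVec_mem_tailSpace (by omega))
      · have hne : (b (j + 1) : ℂ) ≠ 0 := by exact_mod_cast (hb (j + 1)).ne'
        show B (((b (j + 1) : ℂ))⁻¹ • basisVec (j + 1)) = basisVec j
        rw [map_smul, hB, smul_smul, inv_mul_cancel₀ hne, one_smul, add_sub_cancel_right]
    exact this

theorem closure_range_univ (B : seqHilbert →L[ℂ] seqHilbert) (b : ℤ → ℝ)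
    (hB : ∀ j, B (basisVec j) = (b j : ℂ) • basisVec (j - 1)) (hb : ∀ j, 0 < b j) :
    closure (Set.range B) = Set.univ := by
  have hcl : ((LinearMap.range B.toLinearMap).topologicalClosure : Set seqHilbert)
      = closure (Set.range B) := by
    rw [Submodule.topologicalClosure_coe]
    rfl
  rw [← hcl]
  have : (LinearMap.range B.toLinearMap).topologicalClosure = ⊤ := by
    apply eq_top_of_mem (Submodule.isClosed_topologicalClosure _)
    intro j
    apply Submodule.le_topologicalClosure
    refine ⟨((b (j + 1) : ℂ))⁻¹ • basisVec (j + 1), ?_⟩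
    have hne : (b (j + 1) : ℂ) ≠ 0 := by exact_mod_cast (hb (j + 1)).ne'
    show B (((b (j + 1) : ℂ))⁻¹ • basisVec (j + 1)) = basisVec j
    rw [map_smul, hB, smul_smul, inv_mul_cancel₀ hne, one_smul, add_sub_cancel_right]
  rw [this]
  rfl

end Crest.Agent.R113.U90
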