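import Crest.Agent.R113.U90Pow

/-!
R113 (S0150), cut U5: unicellularity at the operator level from the sequence-level key lemma.
-/

set_option autoImplicit false
open Crest.AnalysisR.TwoAdic

namespace Crest.Agent.R113.U90

theorem inner_basisVec_right' (g : seqHilbert) (j : ℤ) :
    inner ℂ g (basisVec j) = (starRingEnd ℂ) (g j) := by
  unfold basisVec
  rw [lp.inner_single_right, RCLike.inner_apply]
  simp

/-- abstract form: supports of `W` lie strictly above the supports of `Wᗮ` -/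
theorem unicellular_of_key (W : Submodule ℂ seqHilbert) (hW : IsClosed (W : Set seqHilbert))
    (key : ∀ f ∈ W, ∀ g ∈ Wᗮ, ∀ a b : ℤ, a ≤ b → f a = 0 ∨ g b = 0) :
    W = ⊥ ∨ W = ⊤ ∨ ∃ h : ℤ, W = tailSpace h := by
  have : CompleteSpace W := hW.completeSpace_coe
  by_cases h1 : ∀ f ∈ W, ∀ a : ℤ, f a = 0
  · left
    rw [eq_bot_iff]
    intro f hf
    rw [Submodule.mem_bot]
    apply seq_ext
    intro j
    rw [h1 f hf j]
    rfl
  by_cases h2 : ∀ g ∈ Wᗮ, ∀ b : ℤ, g b = 0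
  · right; left
    rw [← Submodule.orthogonal_eq_bot_iff, eq_bot_iff]
    intro g hg
    rw [Submodule.mem_bot]
    apply seq_ext
    intro j
    rw [h2 g hg j]
    rfl
  right; right
  push Not at h1 h2
  obtain ⟨f0, hf0, a0, ha0⟩ := h1
  obtain ⟨g0, hg0, b0, hb0⟩ := h2
  -- the support of `W` is bounded below by `b0`
  have hbd : ∀ a : ℤ, (∃ f ∈ W, f a ≠ 0) → b0 ≤ a := by
    rintro a ⟨f, hf, ha⟩
    by_contra hlt
    rcases key f hf g0 hg0 a b0 (by omega) with h | h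
    · exact ha h
    · exact hb0 h
  obtain ⟨h, ⟨fh, hfh, hh⟩, hmin⟩ :=
    Int.exists_least_of_bdd (P := fun a : ℤ => ∃ f ∈ W, f a ≠ 0) ⟨b0, hbd⟩ ⟨a0, f0, hf0, ha0⟩
  refine ⟨h, le_antisymm ?_ ?_⟩
  · intro f hf
    rw [mem_tailSpace_iff]
    intro j hj
    by_contra hne
    have := hmin j ⟨f, hf, hne⟩
    omega
  · apply tailSpace_le_of_mem hW
    intro j hj
    rw [← Submodule.orthogonal_orthogonal W, Submodule.mem_orthogonal]
    intro g hg
    rw [inner_basisVec_right']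
    rcases key fh hfh g hg h j hj with h' | h'
    · exact absurd h' hh
    · rw [h']; simp

/-- operator level statement from the sequence-level key lemma (given as a hypothesis). -/
theorem unicellular_of_seq_key (c : ℤ → ℝ)
    (hkey : ∀ f g : ℤ → ℂ, (Summable fun j => ‖f j‖ ^ 2) → (Summable fun j => ‖g j‖ ^ 2) →
      (∀ n : ℕ, ∑' j : ℤ, ((Real.exp (-10 * ∑ i ∈ Finset.range n, c (j + i)) : ℝ) : ℂ) * f j *
        (starRingEnd ℂ) (g (j + n)) = 0) → ∀ a b : ℤ, a ≤ b → f a = 0 ∨ g b = 0)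
    (A : seqHilbert →L[ℂ] seqHilbert)
    (hA : ∀ j, A (basisVec j) = ((Real.exp (-10 * c j) : ℝ) : ℂ) • basisVec (j + 1))
    (W : Submodule ℂ seqHilbert) (hW : IsClosed (W : Set seqHilbert))
    (hinv : ∀ v ∈ W, A v ∈ W) :
    W = ⊥ ∨ W = ⊤ ∨ ∃ h : ℤ, W = tailSpace h := by
  apply unicellular_of_key W hW
  intro f hf g hg a b hab
  exact hkey (fun j => f j) (fun j => g j) (summable_norm_sq f) (summable_norm_sq g)
    (fun n => rel_of_mem c A hA hinv hf hg n) a b hab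

/-- the full equivalence (conjunct 5 of S0150 for one fibre) -/
theorem lattice_iff_of_seq_key (c : ℤ → ℝ)
    (hkey : ∀ f g : ℤ → ℂ, (Summable fun j => ‖f j‖ ^ 2) → (Summable fun j => ‖g j‖ ^ 2) →
      (∀ n : ℕ, ∑' j : ℤ, ((Real.exp (-10 * ∑ i ∈ Finset.range n, c (j + i)) : ℝ) : ℂ) * f j *
        (starRingEnd ℂ) (g (j + n)) = 0) → ∀ a b : ℤ, a ≤ b → f a = 0 ∨ g b = 0)
    (A : seqHilbert →L[ℂ] seqHilbert)
    (hA : ∀ j, A (basisVec j) = ((Real.exp (-10 * c j) : ℝ) : ℂ) • basisVec (j + 1))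
    (W : Submodule ℂ seqHilbert) (hW : IsClosed (W : Set seqHilbert)) :
    (∀ v ∈ W, A v ∈ W) ↔ (W = ⊥ ∨ W = ⊤ ∨ ∃ h : ℤ, W = tailSpace h) :=
  ⟨unicellular_of_seq_key c hkey A hA W hW,
    invariant_of_trivial_or_tail A (fun j => ((Real.exp (-10 * c j) : ℝ) : ℂ)) hA W⟩

end Crest.Agent.R113.U90
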