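import Crest.Statements.S0150

/-! R113, cut U, chain "UL" (lead's interface): sequence-level lemmas for V-shaped bilateral weighted shifts.
Blocks: NWin, Ub (lead), Uc (helper44), Ud1 (helper71), Ud (helper82). -/

set_option autoImplicit false
open Crest.AnalysisR.TwoAdic
open scoped ComplexConjugate

namespace Crest.Agent.R113.UL

/-- V-shaped exponents: `c j ≥ 1`, increments `≥ 1` away from the centre. -/
structure VShape (c : ℤ → ℝ) : Prop where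
  one_le : ∀ j, 1 ≤ c j
  up : ∀ j, 0 ≤ j → c j + 1 ≤ c (j + 1)
  down : ∀ j, j ≤ -1 → c j + 1 ≤ c (j - 1)

/-- product of the `n` weights `exp (-10 c)` on the window `[k, k+n)`. -/
noncomputable def win (c : ℤ → ℝ) (k : ℤ) (n : ℕ) : ℝ :=
  Real.exp (-10 * ∑ i ∈ Finset.range n, c (k + i))

/-- all lag-`n` correlations of `f` and `g` vanish. -/
def Orth (c : ℤ → ℝ) (f g : ℤ → ℂ) : Prop :=
  ∀ n : ℕ, HasSum (fun k : ℤ => f k * g (k + n) * (win c k n : ℂ)) 0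


theorem VShape.ge_pos {c : ℤ → ℝ} (hc : VShape c) (r : ℕ) : ((r : ℝ) + 1) ≤ c (r : ℤ) := by
  induction r with
  | zero => simpa using hc.one_le 0
  | succ r ih =>
    have := hc.up (r : ℤ) (by positivity)
    push_cast
    linarith

theorem VShape.ge_neg {c : ℤ → ℝ} (hc : VShape c) (r : ℕ) : ((r : ℝ) + 1) ≤ c (-(r : ℤ) - 1) := by
  induction r with
  | zero => simpa using hc.one_le (-1)
  | succ r ih =>
    have := hc.down (-(r : ℤ) - 1) (by omega)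
    have e : (-((r + 1 : ℕ) : ℤ) - 1) = (-(r : ℤ) - 1 - 1) := by push_cast; ring
    rw [e]
    push_cast
    linarith

/-- integer minorant of a V-shape -/
def vmin (j : ℤ) : ℕ := if 0 ≤ j then (j + 1).toNat else (-j).toNat

theorem VShape.vmin_le {c : ℤ → ℝ} (hc : VShape c) (j : ℤ) : (vmin j : ℝ) ≤ c j := by
  unfold vmin
  split_ifs with h
  · obtain ⟨r, rfl⟩ := Int.eq_ofNat_of_zero_le h
    have := hc.ge_pos r
    have e : (((r : ℤ) + 1).toNat : ℝ) = (r : ℝ) + 1 := by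
      have : ((r : ℤ) + 1).toNat = r + 1 := by omega
      rw [this]; push_cast; ring
    rw [e]; exact this
  · have h' : 0 ≤ -j - 1 := by omega
    obtain ⟨r, hr⟩ := Int.eq_ofNat_of_zero_le h'
    have hj : j = -(r : ℤ) - 1 := by omega
    subst hj
    have := hc.ge_neg r
    have e : ((-(-(r : ℤ) - 1)).toNat : ℝ) = (r : ℝ) + 1 := by
      have : (-(-(r : ℤ) - 1)).toNat = r + 1 := by omega
      rw [this]; push_cast; ring
    rw [e]; exact this

theorem vmin_window (n : ℕ) : ∀ k : ℤ, (n + 1) ^ 2 / 4 ≤ ∑ i ∈ Finset.range n, vmin (k + i) := by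
  induction n with
  | zero => intro k; simp
  | succ n ih =>
    intro k
    have hstep : (n + 1 + 1) ^ 2 / 4 ≤ (n + 1) ^ 2 / 4 + (n + 2) / 2 := by
      obtain ⟨m, rfl | rfl⟩ := Nat.even_or_odd' n
      · have e1 : (2 * m + 1 + 1) ^ 2 / 4 = (m + 1) ^ 2 := by
          have : (2 * m + 1 + 1) ^ 2 = 4 * (m + 1) ^ 2 := by ring
          omega
        have e2 : (2 * m + 1) ^ 2 / 4 = m ^ 2 + m := by
          have : (2 * m + 1) ^ 2 = 4 * (m ^ 2 + m) + 1 := by ring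
          omega
        have e3 : (2 * m + 2) / 2 = m + 1 := by omega
        rw [e1, e2, e3]; nlinarith
      · have e1 : (2 * m + 1 + 1 + 1) ^ 2 / 4 = m ^ 2 + 3 * m + 2 := by
          have : (2 * m + 1 + 1 + 1) ^ 2 = 4 * (m ^ 2 + 3 * m + 2) + 1 := by ring
          omega
        have e2 : (2 * m + 1 + 1) ^ 2 / 4 = (m + 1) ^ 2 := by
          have : (2 * m + 1 + 1) ^ 2 = 4 * (m + 1) ^ 2 := by ring
          omega
        have e3 : (2 * m + 1 + 2) / 2 = m + 1 := by omega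
        rw [e1, e2, e3]; nlinarith
    -- one of the two end points is large
    by_cases hbig : (n + 2) / 2 ≤ vmin (k + n)
    · rw [Finset.sum_range_succ]
      have := ih k
      omega
    · have hk : (n + 2) / 2 ≤ vmin k := by
        unfold vmin at hbig ⊢
        split_ifs at hbig ⊢ <;> omega
      rw [Finset.sum_range_succ']
      have := ih (k + 1)
      have e : ∀ i : ℕ, k + ((i + 1 : ℕ) : ℤ) = k + 1 + i := by intro i; push_cast; ring
      simp only [e]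
      simp only [Nat.cast_zero, add_zero]
      omega

theorem VShape.window_sum {c : ℤ → ℝ} (hc : VShape c) (k : ℤ) (n : ℕ) :
    ((((n + 1) ^ 2 / 4 : ℕ)) : ℝ) ≤ ∑ i ∈ Finset.range n, c (k + i) := by
  calc ((((n + 1) ^ 2 / 4 : ℕ)) : ℝ) ≤ ((∑ i ∈ Finset.range n, vmin (k + i) : ℕ) : ℝ) := by
        exact_mod_cast vmin_window n k
    _ = ∑ i ∈ Finset.range n, (vmin (k + i) : ℝ) := by push_cast; rfl
    _ ≤ _ := Finset.sum_le_sum (fun i _ => hc.vmin_le _)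

theorem VShape.win_le {c : ℤ → ℝ} (hc : VShape c) (k : ℤ) (n : ℕ) :
    win c k n ≤ Real.exp (-10 * ((((n + 1) ^ 2 / 4 : ℕ)) : ℝ)) := by
  unfold win
  apply Real.exp_le_exp.mpr
  have := hc.window_sum k n
  linarith



theorem Ub_up_add {c : ℤ → ℝ} (hc : VShape c) (j : ℤ) (hj : 0 ≤ j) (m : ℕ) :
    c j + m ≤ c (j + m) := by
  induction m with
  | zero => simp
  | succ m ih =>
    have h1 := hc.up (j + m) (by positivity)
    have e : j + ((m + 1 : ℕ) : ℤ) = j + m + 1 := by push_cast; ring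
    rw [e]; push_cast; linarith

theorem Ub_neg_le {c : ℤ → ℝ} (hc : VShape c) (j : ℤ) (hj : j ≤ -1) (m : ℕ) :
    c j ≤ c (j - m) := by
  induction m with
  | zero => simp
  | succ m ih =>
    have h1 := hc.down (j - m) (by omega)
    have e : j - ((m + 1 : ℕ) : ℤ) = j - m - 1 := by push_cast; ring
    rw [e]; linarith

theorem Ub_gap {c : ℤ → ℝ} (hc : VShape c) (h : ℤ) (N : ℝ) (hN : 0 ≤ N) :
    ∃ n1 : ℕ, ∀ n : ℕ, n1 ≤ n → ∀ i : ℕ, c (h + i) + N ≤ c (h + n + i) := by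
  obtain ⟨n1, hn1⟩ := exists_nat_ge (max N (c h + N - h))
  refine ⟨n1, fun n hn i => ?_⟩
  have hnR : (n1 : ℝ) ≤ n := by exact_mod_cast hn
  have h1 : N ≤ n := le_trans (le_trans (le_max_left _ _) hn1) hnR
  have h2 : c h + N - h ≤ n := le_trans (le_trans (le_max_right _ _) hn1) hnR
  by_cases hi : 0 ≤ h + i
  · have := Ub_up_add hc (h + i) hi n
    have e : h + i + n = h + n + i := by ring
    rw [e] at this
    linarith
  · have hi' : h + i ≤ -1 := by omega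
    have h3 : c (h + i) ≤ c h := by
      have := Ub_neg_le hc (h + i) hi' i
      have e : h + i - i = h := by ring
      rwa [e] at this
    have hch := hc.one_le h
    have hpos : (0 : ℝ) ≤ (h : ℝ) + n + i := by
      have : (0 : ℝ) ≤ i := by positivity
      linarith
    have hposZ : 0 ≤ h + n + i := by exact_mod_cast hpos
    obtain ⟨r, hr⟩ := Int.eq_ofNat_of_zero_le hposZ
    have h4 := hc.ge_pos r
    rw [hr]
    have hrR : (r : ℝ) = (h : ℝ) + n + i := by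
      have : ((r : ℤ) : ℝ) = ((h + n + i : ℤ) : ℝ) := by rw [hr]
      push_cast at this
      exact this
    have : (0 : ℝ) ≤ i := by positivity
    linarith

theorem Ub_sum_shift (c : ℤ → ℝ) (h : ℤ) (n : ℕ) (N : ℝ)
    (hgap : ∀ i : ℕ, c (h + i) + N ≤ c (h + n + i)) (d : ℕ) :
    ∑ i ∈ Finset.range n, c (h + i) + N * d ≤ ∑ i ∈ Finset.range n, c (h + d + i) := by
  induction d with
  | zero => simp
  | succ d ih =>
    have e1 : ∑ i ∈ Finset.range (n + 1), c (h + d + i)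
        = ∑ i ∈ Finset.range n, c (h + d + i) + c (h + d + n) := by
      rw [Finset.sum_range_succ]
    have e2 : ∑ i ∈ Finset.range (n + 1), c (h + d + i)
        = ∑ i ∈ Finset.range n, c (h + ((d + 1 : ℕ) : ℤ) + i) + c (h + d) := by
      rw [Finset.sum_range_succ']
      congr 1
      · apply Finset.sum_congr rfl
        intro i _
        congr 1
        push_cast; ring
      · simp
    have h3 := hgap d
    have e3 : h + n + d = h + d + n := by ring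
    rw [e3] at h3
    push_cast at *
    linarith

theorem Ub_win_shift (c : ℤ → ℝ) (h : ℤ) (n : ℕ) (N : ℝ)
    (hgap : ∀ i : ℕ, c (h + i) + N ≤ c (h + n + i)) (d : ℕ) :
    win c (h + d) n ≤ win c h n * Real.exp (-10 * N) ^ d := by
  unfold win
  rw [← Real.exp_nat_mul, ← Real.exp_add]
  apply Real.exp_le_exp.mpr
  have := Ub_sum_shift c h n N hgap d
  nlinarith

theorem Ub_nat (c : ℤ → ℝ) (f g : ℤ → ℂ) (h : ℤ) (hlow : ∀ j < h, f j = 0) (ho : Orth c f g) (n : ℕ) :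
    HasSum (fun d : ℕ => f (h + d) * g (h + d + n) * (win c (h + d) n : ℂ)) 0 := by
  have hinj : Function.Injective (fun d : ℕ => h + (d : ℤ)) := by
    intro a b hab
    simpa using hab
  have := (hinj.hasSum_iff (f := fun k : ℤ => f k * g (k + n) * (win c k n : ℂ)) (a := 0) ?_).mpr (ho n)
  · exact this
  · intro k hk
    have hk' : k < h := by
      by_contra hcon
      apply hk
      refine ⟨(k - h).toNat, ?_⟩
      show h + ((k - h).toNat : ℤ) = k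
      omega
    simp [hlow k hk']

theorem Ub_step (c : ℤ → ℝ) (f g : ℤ → ℂ) (hf : ∀ k, ‖f k‖ ≤ 1) (h : ℤ)
    (hlow : ∀ j < h, f j = 0) (ho : Orth c f g) (n : ℕ) (N : ℝ) (hN : 0 < N)
    (hgap : ∀ i : ℕ, c (h + i) + N ≤ c (h + n + i)) (B : ℝ) (hB0 : 0 ≤ B)
    (hB : ∀ m : ℕ, n < m → ‖g (h + m)‖ ≤ B) :
    ‖f h‖ * ‖g (h + n)‖ ≤ B * (Real.exp (-10 * N) * (1 - Real.exp (-10 * N))⁻¹) := by
  set ρ := Real.exp (-10 * N) with hρ
  have hρ0 : 0 ≤ ρ := (Real.exp_pos _).le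
  have hρ1 : ρ < 1 := by
    rw [hρ, Real.exp_lt_one_iff]; linarith
  have hw : 0 < win c h n := Real.exp_pos _
  have hs := Ub_nat c f g h hlow ho n
  have hs1 := (hasSum_nat_add_iff' (f := fun d : ℕ => f (h + d) * g (h + d + n) * (win c (h + d) n : ℂ)) 1).mpr hs
  have hmaj : HasSum (fun d : ℕ => (B * win c h n * ρ) * ρ ^ d) ((B * win c h n * ρ) * (1 - ρ)⁻¹) :=
    (hasSum_geometric_of_lt_one hρ0 hρ1).mul_left _
  have hle := hs1.norm_le_of_bounded hmaj (fun d => by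
    have h1 : ‖f (h + ((d + 1 : ℕ) : ℤ))‖ ≤ 1 := hf _
    have h2 : ‖g (h + ((d + 1 : ℕ) : ℤ) + n)‖ ≤ B := by
      have := hB (n + (d + 1)) (by omega)
      have e : h + ((n + (d + 1) : ℕ) : ℤ) = h + ((d + 1 : ℕ) : ℤ) + n := by push_cast; ring
      rwa [e] at this
    have h3 := Ub_win_shift c h n N hgap (d + 1)
    have h4 : 0 < win c (h + ((d + 1 : ℕ) : ℤ)) n := Real.exp_pos _
    rw [norm_mul, norm_mul, Complex.norm_real, Real.norm_of_nonneg h4.le]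
    calc ‖f (h + ((d + 1 : ℕ) : ℤ))‖ * ‖g (h + ((d + 1 : ℕ) : ℤ) + n)‖ * win c (h + ((d + 1 : ℕ) : ℤ)) n
        ≤ 1 * B * (win c h n * ρ ^ (d + 1)) := by
          apply mul_le_mul _ h3 h4.le (by positivity)
          exact mul_le_mul h1 h2 (norm_nonneg _) zero_le_one
      _ = (B * win c h n * ρ) * ρ ^ d := by ring)
  simp only [Finset.sum_range_one, Nat.cast_zero, add_zero, zero_sub, norm_neg] at hle
  rw [norm_mul, norm_mul, Complex.norm_real, Real.norm_of_nonneg hw.le] at hle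
  have : ‖f h‖ * ‖g (h + n)‖ * win c h n ≤ (B * (ρ * (1 - ρ)⁻¹)) * win c h n := by
    calc _ ≤ _ := hle
      _ = _ := by ring
  exact le_of_mul_le_mul_right this hw

theorem Ub_zero (c : ℤ → ℝ) (f g : ℤ → ℂ) (h : ℤ) (hh : f h ≠ 0)
    (hlow : ∀ j < h, f j = 0) (ho : Orth c f g) (n : ℕ)
    (hB : ∀ m : ℕ, n < m → g (h + m) = 0) : g (h + n) = 0 := by
  have hs := Ub_nat c f g h hlow ho n
  have hs0 : HasSum (fun d : ℕ => f (h + d) * g (h + d + n) * (win c (h + d) n : ℂ))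
      (f (h + (0 : ℕ)) * g (h + (0 : ℕ) + n) * (win c (h + (0 : ℕ)) n : ℂ)) := by
    apply hasSum_single 0
    intro d hd
    have := hB (n + d) (by omega)
    have e : h + ((n + d : ℕ) : ℤ) = h + d + n := by push_cast; ring
    rw [e] at this
    simp [this]
  have := hs0.unique hs
  simp only [Nat.cast_zero, add_zero] at this
  have hw : (win c h n : ℂ) ≠ 0 := by
    exact_mod_cast (Real.exp_pos _).ne'
  rcases mul_eq_zero.mp this with h1 | h1
  · rcases mul_eq_zero.mp h1 with h2 | h2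
    · exact absurd h2 hh
    · exact h2
  · exact absurd h1 hw

/-- Ub: one-sided (Donoghue) lemma on sequences. -/
theorem orth_lowest (c : ℤ → ℝ) (hc : VShape c) (f g : ℤ → ℂ)
    (hf : ∀ k, ‖f k‖ ≤ 1) (hg : ∀ k, ‖g k‖ ≤ 1) (h : ℤ) (hh : f h ≠ 0) (hlow : ∀ j < h, f j = 0)
    (ho : Orth c f g) : ∀ j, h ≤ j → g j = 0 := by
  have hfh : 0 < ‖f h‖ := norm_pos_iff.mpr hh
  -- choose N with ρ/(1-ρ) ≤ ‖f h‖/2
  obtain ⟨N, hN, hNρ⟩ : ∃ N : ℝ, 0 < N ∧
      Real.exp (-10 * N) * (1 - Real.exp (-10 * N))⁻¹ ≤ ‖f h‖ / 2 := by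
    have hlim : Filter.Tendsto (fun N : ℝ => Real.exp (-10 * N) * (1 - Real.exp (-10 * N))⁻¹)
        Filter.atTop (nhds (0 * (1 - 0)⁻¹)) := by
      have h1 : Filter.Tendsto (fun N : ℝ => Real.exp (-10 * N)) Filter.atTop (nhds 0) := by
        apply Real.tendsto_exp_atBot.comp
        apply Filter.Tendsto.const_mul_atTop_of_neg (by norm_num) Filter.tendsto_id
      exact h1.mul ((tendsto_const_nhds.sub h1).inv₀ (by norm_num))
    rw [zero_mul] at hlim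
    have hev := (hlim.eventually (ge_mem_nhds (show (0 : ℝ) < ‖f h‖ / 2 by positivity))).and
      (Filter.eventually_gt_atTop (0 : ℝ))
    obtain ⟨N, h1, h2⟩ := hev.exists
    exact ⟨N, h2, h1⟩
  obtain ⟨n1, hn1⟩ := Ub_gap hc h N hN.le
  -- geometric decay of the bound
  have hdec : ∀ i : ℕ, ∀ n : ℕ, n1 ≤ n → ‖g (h + n)‖ ≤ (1 / 2 : ℝ) ^ i := by
    intro i
    induction i with
    | zero => intro n _; simpa using hg _
    | succ i ih =>
      intro n hn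
      have hst := Ub_step c f g hf h hlow ho n N hN (hn1 n hn) ((1 / 2 : ℝ) ^ i) (by positivity)
        (fun m hm => ih m (by omega))
      have h2 : ‖f h‖ * ‖g (h + n)‖ ≤ (1 / 2 : ℝ) ^ i * (‖f h‖ / 2) :=
        le_trans hst (mul_le_mul_of_nonneg_left hNρ (by positivity))
      have h3 : ‖f h‖ * ‖g (h + n)‖ ≤ ‖f h‖ * ((1 / 2 : ℝ) ^ (i + 1)) := by
        calc _ ≤ _ := h2
          _ = _ := by rw [pow_succ]; ring
      exact le_of_mul_le_mul_left h3 hfh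
  have hbig : ∀ n : ℕ, n1 ≤ n → g (h + n) = 0 := by
    intro n hn
    have hlim : Filter.Tendsto (fun i : ℕ => (1 / 2 : ℝ) ^ i) Filter.atTop (nhds 0) :=
      tendsto_pow_atTop_nhds_zero_of_lt_one (by norm_num) (by norm_num)
    have : ‖g (h + n)‖ ≤ 0 := ge_of_tendsto' hlim (fun i => hdec i n hn)
    exact norm_le_zero_iff.mp this
  -- downward induction
  have hall : ∀ k : ℕ, ∀ n : ℕ, n1 ≤ n + k → g (h + n) = 0 := by
    intro k
    induction k with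
    | zero => intro n hn; exact hbig n (by simpa using hn)
    | succ k ih =>
      intro n hn
      apply Ub_zero c f g h hh hlow ho n
      intro m hm
      exact ih m (by omega)
  intro j hj
  obtain ⟨r, hr⟩ := Int.eq_ofNat_of_zero_le (sub_nonneg.mpr hj)
  have : j = h + r := by omega
  rw [this]
  exact hall n1 r (by omega)


/-- Uc: mirror symmetry. -/
theorem VShape.mirror {c : ℤ → ℝ} (hc : VShape c) : VShape (fun j => c (-j - 1)) := by
  refine ⟨fun j => hc.one_le _, fun j hj => ?_, fun j hj => ?_⟩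
  · have h := hc.down (-j - 1) (by omega)
    have e : -(j + 1) - 1 = -j - 1 - 1 := by ring
    simpa only [e] using h
  · have h := hc.up (-j - 1) (by omega)
    have e : -(j - 1) - 1 = -j - 1 + 1 := by ring
    simpa only [e] using h

theorem Uc_win_mirror (c : ℤ → ℝ) (k : ℤ) (n : ℕ) :
    win (fun j => c (-j - 1)) k n = win c (-(n : ℤ) - k) n := by
  unfold win
  congr 2
  rw [← Finset.sum_range_reflect]
  refine Finset.sum_congr rfl fun i hi => ?_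
  have hi' : i < n := Finset.mem_range.mp hi
  have e : -(k + ((n - 1 - i : ℕ) : ℤ)) - 1 = -(n : ℤ) - k + (i : ℤ) := by omega
  show c (-(k + ((n - 1 - i : ℕ) : ℤ)) - 1) = c (-(n : ℤ) - k + (i : ℤ))
  rw [e]

theorem Orth.mirror {c : ℤ → ℝ} {f g : ℤ → ℂ} (ho : Orth c f g) :
    Orth (fun j => c (-j - 1)) (fun k => g (-k)) (fun k => f (-k)) := by
  intro n
  have h := (Equiv.hasSum_iff (Equiv.subLeft (-(n : ℤ)))).mpr (ho n)
  convert h using 2 with k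
  simp only [Function.comp, Equiv.subLeft_apply]
  rw [Uc_win_mirror]
  have e1 : -(n : ℤ) - k + n = -k := by ring
  have e2 : -(k + (n : ℤ)) = -(n : ℤ) - k := by ring
  rw [e1, e2]
  ring

theorem orth_highest (c : ℤ → ℝ) (hc : VShape c) (f g : ℤ → ℂ)
    (hf : ∀ k, ‖f k‖ ≤ 1) (hg : ∀ k, ‖g k‖ ≤ 1) (m : ℤ) (hm : g m ≠ 0) (hhigh : ∀ j, m < j → g j = 0)
    (ho : Orth c f g) : ∀ j, j ≤ m → f j = 0 := by
  intro j hj
  have h := orth_lowest (fun j => c (-j - 1)) hc.mirror (fun k => g (-k)) (fun k => f (-k))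
    (fun k => hg _) (fun k => hf _) (-m) (by simpa using hm)
    (fun i hi => hhigh _ (by omega)) ho.mirror (-j) (by omega)
  simpa using h

theorem Ud1_argmax (a : ℕ → ℝ) (ha0 : ∀ r, 0 ≤ a r)
    (ha : ∀ r : ℕ, a r ≤ Real.exp (-5 * (r * (r + 1)))) (r0 : ℕ) (hr0 : a r0 ≠ 0) (s : ℝ) :
    ∃ p : ℕ, ∀ r : ℕ, a r * Real.exp (s * r) ≤ a p * Real.exp (s * p) := by
  have hpos : 0 < a r0 * Real.exp (s * r0) :=
    mul_pos (lt_of_le_of_ne (ha0 r0) (Ne.symm hr0)) (Real.exp_pos _)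
  obtain ⟨N, hN⟩ := exists_nat_ge (max s (-Real.log (a r0 * Real.exp (s * r0))))
  have hN1 : s ≤ N := le_trans (le_max_left _ _) hN
  have hN2 : -Real.log (a r0 * Real.exp (s * r0)) ≤ N := le_trans (le_max_right _ _) hN
  obtain ⟨p, -, hp⟩ := Finset.exists_max_image (Finset.range (N + r0 + 1))
    (fun r : ℕ => a r * Real.exp (s * r)) ⟨r0, Finset.mem_range.2 (by omega)⟩
  refine ⟨p, fun r => ?_⟩
  by_cases hr : r ∈ Finset.range (N + r0 + 1)
  · exact hp r hr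
  · have hr' : N + r0 + 1 ≤ r := by
      simpa [Finset.mem_range] using hr
    have hrN : (N : ℝ) ≤ r := by exact_mod_cast (by omega : N ≤ r)
    have hr0' : (0 : ℝ) ≤ r := Nat.cast_nonneg r
    have h1 : a r * Real.exp (s * r) ≤ Real.exp (-5 * (r * (r + 1))) * Real.exp (s * r) :=
      mul_le_mul_of_nonneg_right (ha r) (Real.exp_pos _).le
    have h2 : Real.exp (-5 * ((r : ℝ) * (r + 1))) * Real.exp (s * r)
        ≤ Real.exp (Real.log (a r0 * Real.exp (s * r0))) := by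
      rw [← Real.exp_add]
      apply Real.exp_le_exp.2
      have h3 : s * r ≤ r * r := mul_le_mul_of_nonneg_right (le_trans hN1 hrN) hr0'
      nlinarith
    rw [Real.exp_log hpos] at h2
    exact le_trans h1 (le_trans h2 (hp r0 (Finset.mem_range.2 (by omega))))

theorem Ud1_kap (a : ℕ → ℝ) (ha0 : ∀ r, 0 ≤ a r)
    (ha : ∀ r : ℕ, a r ≤ Real.exp (-5 * (r * (r + 1)))) (hai : ∀ K : ℕ, ∃ r, K < r ∧ a r ≠ 0) :
    ∃ (L : ℝ) (kap : ℕ → ℕ), 0 ≤ L ∧
      (∀ i r : ℕ, a r * Real.exp (2 * (i : ℝ) * r) ≤ a (kap i) * Real.exp (2 * (i : ℝ) * kap i)) ∧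
      Monotone kap ∧ (∀ i : ℕ, 5 * (kap i : ℝ) ≤ 2 * i + L) ∧
      (∀ R : ℕ, ∃ i0 : ℕ, ∀ i, i0 ≤ i → R ≤ kap i) ∧
      (∀ i : ℕ, Real.exp (-L) ≤ a (kap i) * Real.exp (2 * (i : ℝ) * kap i)) := by
  obtain ⟨r0, -, hr0⟩ := hai 0
  have hr0pos : 0 < a r0 := lt_of_le_of_ne (ha0 r0) (Ne.symm hr0)
  have hle1 : ∀ r, a r ≤ 1 := fun r => by
    refine le_trans (ha r) (Real.exp_le_one_iff.2 ?_)
    have : (0 : ℝ) ≤ r := Nat.cast_nonneg r
    nlinarith
  choose kap hkap using fun i : ℕ => Ud1_argmax a ha0 ha r0 hr0 (2 * (i : ℝ))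
  have hL0 : 0 ≤ -Real.log (a r0) := by
    have := Real.log_nonpos (ha0 r0) (hle1 r0)
    linarith
  have hlow : ∀ i : ℕ, Real.exp (-(-Real.log (a r0))) ≤ a (kap i) * Real.exp (2 * (i : ℝ) * kap i) := by
    intro i
    rw [neg_neg, Real.exp_log hr0pos]
    refine le_trans ?_ (hkap i r0)
    have : 1 ≤ Real.exp (2 * (i : ℝ) * r0) := Real.one_le_exp (by positivity)
    nlinarith
  have hkpos : ∀ i, 0 < a (kap i) := by
    intro i
    have h1 := lt_of_lt_of_le (Real.exp_pos _) (hlow i)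
    by_contra hcon
    have h2 : a (kap i) = 0 := le_antisymm (not_lt.1 hcon) (ha0 _)
    rw [h2, zero_mul] at h1
    exact lt_irrefl _ h1
  refine ⟨-Real.log (a r0), kap, hL0, hkap, ?_, ?_, ?_, hlow⟩
  · -- monotone
    intro i j hij
    by_contra hcon
    have hlt : kap j < kap i := not_le.1 hcon
    have hne : i ≠ j := by
      rintro rfl
      exact lt_irrefl _ hlt
    have hij' : i < j := lt_of_le_of_ne hij hne
    have h1 := hkap i (kap j)
    have h2 := hkap j (kap i)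
    have h3 := mul_le_mul h1 h2 (mul_nonneg (ha0 _) (Real.exp_pos _).le)
      (mul_nonneg (ha0 _) (Real.exp_pos _).le)
    have h4 : (a (kap i) * a (kap j)) * Real.exp (2 * (i : ℝ) * kap j + 2 * (j : ℝ) * kap i)
        ≤ (a (kap i) * a (kap j)) * Real.exp (2 * (i : ℝ) * kap i + 2 * (j : ℝ) * kap j) := by
      rw [Real.exp_add, Real.exp_add]
      calc _ = a (kap j) * Real.exp (2 * (i : ℝ) * kap j) * (a (kap i) * Real.exp (2 * (j : ℝ) * kap i)) := by ring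
        _ ≤ _ := h3
        _ = _ := by ring
    have h5 := le_of_mul_le_mul_left h4 (mul_pos (hkpos i) (hkpos j))
    have h6 := Real.exp_le_exp.1 h5
    have h7 : (i : ℝ) + 1 ≤ j := by exact_mod_cast hij'
    have h8 : (kap j : ℝ) + 1 ≤ kap i := by exact_mod_cast hlt
    nlinarith
  · -- linear bound
    intro i
    have h1 := hlow i
    have h2 : a (kap i) * Real.exp (2 * (i : ℝ) * kap i)
        ≤ Real.exp (-5 * ((kap i : ℝ) * (kap i + 1))) * Real.exp (2 * (i : ℝ) * kap i) :=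
      mul_le_mul_of_nonneg_right (ha _) (Real.exp_pos _).le
    rw [← Real.exp_add] at h2
    have h3 := Real.exp_le_exp.1 (le_trans h1 h2)
    rcases Nat.eq_zero_or_pos (kap i) with h0 | h0
    · rw [h0]
      have : (0 : ℝ) ≤ i := Nat.cast_nonneg i
      simp only [Nat.cast_zero, mul_zero]
      linarith
    · have hk1 : (1 : ℝ) ≤ kap i := by exact_mod_cast h0
      set k : ℝ := (kap i : ℝ) with hk
      set L : ℝ := -Real.log (a r0) with hLdef
      -- 5 k (k+1) ≤ 2 i k + L ≤ 2 i k + L k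
      have h4 : L ≤ L * k := by nlinarith
      have h5 : k * (5 * k) ≤ k * (2 * i + L) := by nlinarith
      exact le_of_mul_le_mul_left h5 (by linarith)
  · -- tends to infinity
    intro R
    obtain ⟨r1, hr1R, hr1⟩ := hai R
    have hr1pos : 0 < a r1 := lt_of_le_of_ne (ha0 r1) (Ne.symm hr1)
    obtain ⟨i0, hi0⟩ := exists_nat_gt (-Real.log (a r1))
    refine ⟨i0, fun i hi => ?_⟩
    by_contra hcon
    have hlt : kap i < R := not_le.1 hcon
    have h1 := hkap i r1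
    have h2 : a (kap i) * Real.exp (2 * (i : ℝ) * kap i) ≤ 1 * Real.exp (2 * (i : ℝ) * kap i) :=
      mul_le_mul_of_nonneg_right (hle1 _) (Real.exp_pos _).le
    rw [one_mul] at h2
    have h3 : Real.exp (Real.log (a r1) + 2 * (i : ℝ) * r1) ≤ Real.exp (2 * (i : ℝ) * kap i) := by
      rw [Real.exp_add, Real.exp_log hr1pos]
      exact le_trans h1 h2
    have h4 := Real.exp_le_exp.1 h3
    have h5 : (kap i : ℝ) + 1 ≤ r1 := by exact_mod_cast (by omega : kap i + 1 ≤ r1)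
    have h6 : (i0 : ℝ) ≤ i := by exact_mod_cast hi
    have h7 : (0 : ℝ) ≤ i := Nat.cast_nonneg i
    nlinarith

theorem Ud1_low (a : ℕ → ℝ) (L L' : ℝ) (hL' : 0 ≤ L') (p i : ℕ)
    (h : Real.exp (-L) ≤ a p * Real.exp (2 * (i : ℝ) * p)) :
    Real.exp (-(L + L') - (2 * (i : ℝ) + 1 - 1) * p) ≤ a p := by
  have h1 : Real.exp (-(L + L') - (2 * (i : ℝ) + 1 - 1) * p)
      = Real.exp (-L) * Real.exp (-L') * Real.exp (-(2 * (i : ℝ) * p)) := by
    rw [← Real.exp_add, ← Real.exp_add]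
    congr 1
    ring
  have h2 : Real.exp (-L') ≤ 1 := Real.exp_le_one_iff.2 (by linarith)
  have h3 : a p = a p * Real.exp (2 * (i : ℝ) * p) * Real.exp (-(2 * (i : ℝ) * p)) := by
    rw [mul_assoc, ← Real.exp_add, add_neg_cancel, Real.exp_zero, mul_one]
  rw [h1, h3]
  apply mul_le_mul_of_nonneg_right _ (Real.exp_pos _).le
  calc Real.exp (-L) * Real.exp (-L') ≤ Real.exp (-L) * 1 :=
        mul_le_mul_of_nonneg_left h2 (Real.exp_pos _).le
    _ = Real.exp (-L) := mul_one _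
    _ ≤ _ := h

theorem Ud1_margin (a : ℕ → ℝ) (p i : ℕ)
    (h0 : ∀ r : ℕ, a r * Real.exp (2 * (i : ℝ) * r) ≤ a p * Real.exp (2 * (i : ℝ) * p))
    (h1 : ∀ r : ℕ, a r * Real.exp (2 * ((i + 1 : ℕ) : ℝ) * r) ≤ a p * Real.exp (2 * ((i + 1 : ℕ) : ℝ) * p))
    (r : ℕ) :
    a r ≤ a p * Real.exp ((2 * (i : ℝ) + 1) * ((p : ℝ) - r) - |(p : ℝ) - r|) := by
  have key : ∀ s : ℝ, a r * Real.exp (s * r) ≤ a p * Real.exp (s * p) →
      a r ≤ a p * Real.exp (s * ((p : ℝ) - r)) := by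
    intro s hs
    have e1 : a r = a r * Real.exp (s * r) * Real.exp (-(s * r)) := by
      rw [mul_assoc, ← Real.exp_add, add_neg_cancel, Real.exp_zero, mul_one]
    have e2 : a p * Real.exp (s * ((p : ℝ) - r)) = a p * Real.exp (s * p) * Real.exp (-(s * r)) := by
      rw [mul_assoc, ← Real.exp_add]
      congr 2
      ring
    rw [e1, e2]
    exact mul_le_mul_of_nonneg_right hs (Real.exp_pos _).le
  rcases le_total (0 : ℝ) ((p : ℝ) - r) with hpr | hpr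
  · rw [abs_of_nonneg hpr]
    have := key _ (h0 r)
    convert this using 3
    ring
  · rw [abs_of_nonpos hpr]
    have := key _ (h1 r)
    convert this using 3
    push_cast
    ring

theorem exists_slope (a b : ℕ → ℝ) (ha0 : ∀ r, 0 ≤ a r) (hb0 : ∀ r, 0 ≤ b r)
    (ha : ∀ r : ℕ, a r ≤ Real.exp (-5 * (r * (r + 1)))) (hb : ∀ r : ℕ, b r ≤ Real.exp (-5 * (r * (r + 1))))
    (hai : ∀ K : ℕ, ∃ r, K < r ∧ a r ≠ 0) (hbi : ∀ K : ℕ, ∃ r, K < r ∧ b r ≠ 0) :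
    ∃ L : ℝ, ∀ R : ℕ, ∃ (σ : ℝ) (p q : ℕ), 1 ≤ σ ∧ R ≤ p ∧ R ≤ q ∧
      Real.exp (-L - (σ - 1) * p) ≤ a p ∧ Real.exp (-L - (σ - 1) * q) ≤ b q ∧
      (∀ r : ℕ, a r ≤ a p * Real.exp (σ * ((p : ℝ) - r) - |(p : ℝ) - r|)) ∧
      (∀ r : ℕ, b r ≤ b q * Real.exp (σ * ((q : ℝ) - r) - |(q : ℝ) - r|)) := by
  obtain ⟨La, kap, hLa, hkap, hkm, hkl, hki, hklow⟩ := Ud1_kap a ha0 ha hai
  obtain ⟨Lb, mu, hLb, hmu, hmm, hml, hmi, hmlow⟩ := Ud1_kap b hb0 hb hbi
  refine ⟨La + Lb, fun R => ?_⟩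
  obtain ⟨ia, hia⟩ := hki R
  obtain ⟨ib, hib⟩ := hmi R
  -- a stationary index
  have hstat : ∃ i, ia + ib ≤ i ∧ kap (i + 1) + mu (i + 1) = kap i + mu i := by
    by_contra hcon
    push Not at hcon
    have hgrow : ∀ m : ℕ, m ≤ kap (ia + ib + m) + mu (ia + ib + m) := by
      intro m
      induction m with
      | zero => exact Nat.zero_le _
      | succ m ih =>
        have h1 := hcon (ia + ib + m) (Nat.le_add_right _ _)
        have h2 := hkm (Nat.le_succ (ia + ib + m))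
        have h3 := hmm (Nat.le_succ (ia + ib + m))
        have h4 : ia + ib + (m + 1) = ia + ib + m + 1 := rfl
        rw [h4]
        simp only [Nat.succ_eq_add_one] at h2 h3
        omega
    obtain ⟨m, hm⟩ := exists_nat_gt (4 * ((ia + ib : ℕ) : ℝ) + La + Lb)
    have h1 := hgrow m
    have h2 := hkl (ia + ib + m)
    have h3 := hml (ia + ib + m)
    have h4 : (m : ℝ) ≤ (kap (ia + ib + m) : ℝ) + mu (ia + ib + m) := by exact_mod_cast h1
    push_cast at h2 h3 hm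
    linarith
  obtain ⟨i, hi, hst⟩ := hstat
  have hk1 : kap (i + 1) = kap i := by
    have h2 := hkm (Nat.le_succ i)
    have h3 := hmm (Nat.le_succ i)
    simp only [Nat.succ_eq_add_one] at h2 h3
    omega
  have hm1 : mu (i + 1) = mu i := by
    have h2 := hkm (Nat.le_succ i)
    have h3 := hmm (Nat.le_succ i)
    simp only [Nat.succ_eq_add_one] at h2 h3
    omega
  refine ⟨2 * (i : ℝ) + 1, kap i, mu i, ?_, hia i (by omega), hib i (by omega), ?_, ?_, ?_, ?_⟩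
  · have : (0 : ℝ) ≤ i := Nat.cast_nonneg i
    linarith
  · exact Ud1_low a La Lb hLb (kap i) i (hklow i)
  · have := Ud1_low b Lb La hLa (mu i) i (hmlow i)
    rwa [add_comm Lb La] at this
  · exact Ud1_margin a (kap i) i (hkap i) (by have := hkap (i + 1); rwa [hk1] at this)
  · exact Ud1_margin b (mu i) i (hmu i) (by have := hmu (i + 1); rwa [hm1] at this)

noncomputable def Ud_A (c : ℤ → ℝ) (f : ℤ → ℂ) (r : ℕ) : ℝ := ‖f (-(r : ℤ))‖ * win c (-(r : ℤ)) r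

noncomputable def Ud_B (c : ℤ → ℝ) (g : ℤ → ℂ) (r : ℕ) : ℝ := ‖g (r : ℤ)‖ * win c 0 r

noncomputable def Ud_T (c : ℤ → ℝ) (f g : ℤ → ℂ) (n : ℕ) (k : ℤ) : ℝ :=
  ‖f k‖ * ‖g (k + n)‖ * win c k n

theorem Ud_win_pos (c : ℤ → ℝ) (k : ℤ) (n : ℕ) : 0 < win c k n := Real.exp_pos _

theorem Ud_win_add (c : ℤ → ℝ) (k : ℤ) (n m : ℕ) :
    win c k (n + m) = win c k n * win c (k + n) m := by
  unfold win
  rw [← Real.exp_add, Finset.sum_range_add]
  congr 1
  have h : ∀ x : ℕ, c (k + ((n + x : ℕ) : ℤ)) = c (k + n + x) := by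
    intro x
    congr 1
    push_cast
    ring
  simp only [h]
  ring

theorem Ud_win_mirror (c : ℤ → ℝ) (k : ℤ) (n : ℕ) :
    win (fun j => c (-j - 1)) k n = win c (-k - n) n := by
  unfold win
  congr 2
  have h := Finset.sum_range_reflect (fun i : ℕ => c (-k - n + i)) n
  rw [← h]
  apply Finset.sum_congr rfl
  intro i hi
  have hi' : i < n := Finset.mem_range.mp hi
  have e : ((n - 1 - i : ℕ) : ℤ) = (n : ℤ) - 1 - i := by omega
  show c (-(k + (i : ℤ)) - 1) = c (-k - n + ((n - 1 - i : ℕ) : ℤ))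
  rw [e]
  congr 1
  ring

theorem Ud_c_add (c : ℤ → ℝ) (hc : VShape c) (i j : ℕ) : c i + j ≤ c ((i + j : ℕ) : ℤ) := by
  induction j with
  | zero => simp
  | succ j ih =>
    have h := hc.up ((i + j : ℕ) : ℤ) (by positivity)
    have e : (((i + j : ℕ) : ℤ) + 1) = ((i + (j + 1) : ℕ) : ℤ) := by
      push_cast
      ring
    rw [e] at h
    push_cast at ih h ⊢
    linarith

theorem Ud_c_ge (c : ℤ → ℝ) (hc : VShape c) (i : ℕ) : (i : ℝ) + 1 ≤ c i := by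
  have h := Ud_c_add c hc 0 i
  have h0 := hc.one_le 0
  simp only [Nat.cast_zero, zero_add] at h
  linarith

theorem Ud_sum_ge (c : ℤ → ℝ) (hc : VShape c) (r : ℕ) :
    (r : ℝ) * (r + 1) / 2 ≤ ∑ i ∈ Finset.range r, c (0 + (i : ℤ)) := by
  induction r with
  | zero => simp
  | succ r ih =>
    rw [Finset.sum_range_succ]
    have h := Ud_c_ge c hc r
    rw [zero_add]
    push_cast
    nlinarith

theorem Ud_B_nonneg (c : ℤ → ℝ) (g : ℤ → ℂ) (r : ℕ) : 0 ≤ Ud_B c g r :=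
  mul_nonneg (norm_nonneg _) (Ud_win_pos _ _ _).le

theorem Ud_A_nonneg (c : ℤ → ℝ) (f : ℤ → ℂ) (r : ℕ) : 0 ≤ Ud_A c f r :=
  mul_nonneg (norm_nonneg _) (Ud_win_pos _ _ _).le

theorem Ud_B_le (c : ℤ → ℝ) (hc : VShape c) (g : ℤ → ℂ) (hg : ∀ k, ‖g k‖ ≤ 1) (r : ℕ) :
    Ud_B c g r ≤ Real.exp (-5 * (r * (r + 1))) := by
  unfold Ud_B
  have h1 : win c 0 r ≤ Real.exp (-5 * (r * (r + 1))) := by
    unfold win
    apply Real.exp_le_exp.mpr
    have := Ud_sum_ge c hc r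
    linarith
  calc ‖g (r : ℤ)‖ * win c 0 r ≤ 1 * win c 0 r :=
        mul_le_mul_of_nonneg_right (hg _) (Ud_win_pos _ _ _).le
    _ = win c 0 r := one_mul _
    _ ≤ _ := h1

theorem Ud_A_mirror (c : ℤ → ℝ) (g : ℤ → ℂ) (r : ℕ) :
    Ud_A (fun j => c (-j - 1)) (fun k => g (-k)) r = Ud_B c g r := by
  unfold Ud_A Ud_B
  rw [Ud_win_mirror]
  have e : (-(-(r : ℤ)) - (r : ℤ)) = 0 := by ring
  rw [e]
  beta_reduce
  rw [neg_neg]

theorem Ud_B_mirror (c : ℤ → ℝ) (f : ℤ → ℂ) (r : ℕ) :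
    Ud_B (fun j => c (-j - 1)) (fun k => f (-k)) r = Ud_A c f r := by
  unfold Ud_A Ud_B
  rw [Ud_win_mirror]
  have e : (-(0 : ℤ) - (r : ℤ)) = -(r : ℤ) := by ring
  rw [e]

theorem Ud_T_mirror (c : ℤ → ℝ) (f g : ℤ → ℂ) (n : ℕ) (k : ℤ) :
    Ud_T (fun j => c (-j - 1)) (fun k => g (-k)) (fun k => f (-k)) n k = Ud_T c f g n (-k - n) := by
  unfold Ud_T
  rw [Ud_win_mirror]
  have e1 : -(k + (n : ℤ)) = -k - n := by ring
  have e2 : -k - (n : ℤ) + n = -k := by ring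
  beta_reduce
  rw [e1, e2]
  ring

theorem Ud_A_le (c : ℤ → ℝ) (hc : VShape c) (f : ℤ → ℂ) (hf : ∀ k, ‖f k‖ ≤ 1) (r : ℕ) :
    Ud_A c f r ≤ Real.exp (-5 * (r * (r + 1))) := by
  rw [← Ud_B_mirror]
  exact Ud_B_le _ hc.mirror _ (fun k => hf _) r

theorem Ud_near (c : ℤ → ℝ) (f g : ℤ → ℂ) (σ : ℝ) (p q t : ℕ) (ht : t ≤ p)
    (ha : ∀ r : ℕ, Ud_A c f r ≤ Ud_A c f p * Real.exp (σ * ((p : ℝ) - r) - |(p : ℝ) - r|))
    (hb : ∀ r : ℕ, Ud_B c g r ≤ Ud_B c g q * Real.exp (σ * ((q : ℝ) - r) - |(q : ℝ) - r|)) :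
    Ud_T c f g (p + q) (-(p : ℤ) + t) ≤ Ud_A c f p * Ud_B c g q * Real.exp (-2 * t) := by
  obtain ⟨r, rfl⟩ := Nat.exists_eq_add_of_le ht
  have hk : (-((t + r : ℕ) : ℤ) + t) = -(r : ℤ) := by
    push_cast
    ring
  have hT : Ud_T c f g (t + r + q) (-((t + r : ℕ) : ℤ) + t) = Ud_A c f r * Ud_B c g (q + t) := by
    unfold Ud_T Ud_A Ud_B
    rw [hk]
    have e1 : (-(r : ℤ) + ((t + r + q : ℕ) : ℤ)) = ((q + t : ℕ) : ℤ) := by
      push_cast
      ring
    have e2 : t + r + q = r + (q + t) := by ring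
    rw [e1, e2, Ud_win_add]
    have e3 : (-(r : ℤ) + (r : ℤ)) = 0 := by ring
    rw [e3]
    ring
  rw [hT]
  have h1 := ha r
  have h2 := hb (q + t)
  have e4 : (((t + r : ℕ) : ℝ) - r) = t := by
    push_cast
    ring
  have e5 : ((q : ℝ) - ((q + t : ℕ) : ℝ)) = -(t : ℝ) := by
    push_cast
    ring
  rw [e4, abs_of_nonneg (Nat.cast_nonneg t)] at h1
  rw [e5, abs_neg, abs_of_nonneg (Nat.cast_nonneg t)] at h2
  calc Ud_A c f r * Ud_B c g (q + t)
      ≤ (Ud_A c f (t + r) * Real.exp (σ * t - t)) * (Ud_B c g q * Real.exp (σ * (-(t : ℝ)) - t)) :=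
        mul_le_mul h1 h2 (Ud_B_nonneg _ _ _)
          (mul_nonneg (Ud_A_nonneg _ _ _) (Real.exp_pos _).le)
    _ = Ud_A c f (t + r) * Ud_B c g q * Real.exp (-2 * t) := by
        rw [mul_mul_mul_comm, ← Real.exp_add]
        congr 2
        ring

theorem Ud_one_le (x y : ℝ) (h : Real.exp (-x) ≤ y) : 1 ≤ y * Real.exp x := by
  have h1 : Real.exp (-x) * Real.exp x ≤ y * Real.exp x :=
    mul_le_mul_of_nonneg_right h (Real.exp_pos _).le
  rwa [← Real.exp_add, neg_add_cancel, Real.exp_zero] at h1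

theorem Ud_far1 (c : ℤ → ℝ) (hc : VShape c) (f g : ℤ → ℂ) (hf : ∀ k, ‖f k‖ ≤ 1)
    (L σ : ℝ) (p q : ℕ)
    (hap : Real.exp (-L - (σ - 1) * p) ≤ Ud_A c f p)
    (hb : ∀ r : ℕ, Ud_B c g r ≤ Ud_B c g q * Real.exp (σ * ((q : ℝ) - r) - |(q : ℝ) - r|))
    (κ : ℕ) (hκ : 10 * c κ ≤ σ) :
    Ud_T c f g (p + q) ((κ + 1 : ℕ) : ℤ) ≤
      Ud_A c f p * Ud_B c g q * Real.exp (L - 2 * p - (κ + 1)) := by
  have hB : Ud_B c g (κ + 1 + (p + q)) =
      ‖g (((κ + 1 : ℕ) : ℤ) + ((p + q : ℕ) : ℤ))‖ * win c ((κ + 1 : ℕ) : ℤ) (p + q)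
        * win c 0 (κ + 1) := by
    unfold Ud_B
    rw [Ud_win_add, zero_add]
    have e : ((κ + 1 + (p + q) : ℕ) : ℤ) = ((κ + 1 : ℕ) : ℤ) + ((p + q : ℕ) : ℤ) := by
      push_cast
      ring
    rw [e]
    ring
  have hsum : ∑ i ∈ Finset.range (κ + 1), c (0 + (i : ℤ)) ≤ (κ + 1) * c κ := by
    have h1 : ∀ i ∈ Finset.range (κ + 1), c (0 + (i : ℤ)) ≤ c κ := by
      intro i hi
      have hi' : i ≤ κ := Nat.lt_succ_iff.mp (Finset.mem_range.mp hi)
      obtain ⟨d, rfl⟩ := Nat.exists_eq_add_of_le hi'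
      have h2 := Ud_c_add c hc i d
      have h3 : (0 : ℝ) ≤ d := Nat.cast_nonneg d
      rw [zero_add]
      linarith
    have h4 := Finset.sum_le_card_nsmul _ _ _ h1
    simpa using h4
  have hw : 1 ≤ win c 0 (κ + 1) * Real.exp ((κ + 1) * σ) := by
    apply Ud_one_le
    unfold win
    apply Real.exp_le_exp.mpr
    have h5 : (0 : ℝ) ≤ (κ : ℝ) + 1 := by positivity
    nlinarith
  have hA1 : 1 ≤ Ud_A c f p * Real.exp (L + (σ - 1) * p) := by
    apply Ud_one_le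
    have e : -(L + (σ - 1) * p) = -L - (σ - 1) * p := by ring
    rw [e]
    exact hap
  have hb1 := hb (κ + 1 + (p + q))
  have e6 : ((q : ℝ) - ((κ + 1 + (p + q) : ℕ) : ℝ)) = -((κ : ℝ) + 1 + p) := by
    push_cast
    ring
  have h7 : (0 : ℝ) ≤ (κ : ℝ) + 1 + p := by positivity
  rw [e6, abs_neg, abs_of_nonneg h7] at hb1
  set X := ‖g (((κ + 1 : ℕ) : ℤ) + ((p + q : ℕ) : ℤ))‖ * win c ((κ + 1 : ℕ) : ℤ) (p + q) with hX
  have hX0 : 0 ≤ X := mul_nonneg (norm_nonneg _) (Ud_win_pos _ _ _).le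
  have hT : Ud_T c f g (p + q) ((κ + 1 : ℕ) : ℤ) ≤ X := by
    unfold Ud_T
    rw [mul_assoc]
    calc ‖f ((κ + 1 : ℕ) : ℤ)‖ * X ≤ 1 * X := mul_le_mul_of_nonneg_right (hf _) hX0
      _ = X := one_mul _
  have hX1 : X ≤ Ud_B c g (κ + 1 + (p + q)) * Real.exp ((κ + 1) * σ) := by
    rw [hB, mul_assoc]
    calc X = X * 1 := (mul_one _).symm
      _ ≤ X * (win c 0 (κ + 1) * Real.exp ((κ + 1) * σ)) := mul_le_mul_of_nonneg_left hw hX0
  have hBq0 := Ud_B_nonneg c g q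
  calc Ud_T c f g (p + q) ((κ + 1 : ℕ) : ℤ) ≤ X := hT
    _ ≤ Ud_B c g (κ + 1 + (p + q)) * Real.exp ((κ + 1) * σ) := hX1
    _ ≤ (Ud_B c g q * Real.exp (σ * (-((κ : ℝ) + 1 + p)) - ((κ : ℝ) + 1 + p)))
          * Real.exp ((κ + 1) * σ) := mul_le_mul_of_nonneg_right hb1 (Real.exp_pos _).le
    _ = Ud_B c g q * Real.exp (-(κ + 1) - (σ + 1) * p) := by
        rw [mul_assoc, ← Real.exp_add]
        congr 2
        ring
    _ = 1 * (Ud_B c g q * Real.exp (-(κ + 1) - (σ + 1) * p)) := (one_mul _).symm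
    _ ≤ (Ud_A c f p * Real.exp (L + (σ - 1) * p))
          * (Ud_B c g q * Real.exp (-(κ + 1) - (σ + 1) * p)) :=
        mul_le_mul_of_nonneg_right hA1 (mul_nonneg hBq0 (Real.exp_pos _).le)
    _ = Ud_A c f p * Ud_B c g q * Real.exp (L - 2 * p - (κ + 1)) := by
        rw [mul_mul_mul_comm, ← Real.exp_add]
        congr 2
        ring

theorem Ud_far2 (c : ℤ → ℝ) (hc : VShape c) (f g : ℤ → ℂ) (hf : ∀ k, ‖f k‖ ≤ 1)
    (hg : ∀ k, ‖g k‖ ≤ 1) (L σ : ℝ) (p q : ℕ)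
    (hap : Real.exp (-L - (σ - 1) * p) ≤ Ud_A c f p)
    (hbq : Real.exp (-L - (σ - 1) * q) ≤ Ud_B c g q)
    (N d : ℕ) (hN : σ < 10 * c N) :
    Ud_T c f g (p + q) ((N + d + 1 : ℕ) : ℤ) ≤
      Ud_A c f p * Ud_B c g q *
        (Real.exp (2 * L - 11 * ((p : ℝ) + q)) * Real.exp (-10 * ((p : ℝ) + q)) ^ d) := by
  have hA1 : 1 ≤ Ud_A c f p * Real.exp (L + (σ - 1) * p) := by
    apply Ud_one_le
    have e : -(L + (σ - 1) * p) = -L - (σ - 1) * p := by ring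
    rw [e]
    exact hap
  have hB1 : 1 ≤ Ud_B c g q * Real.exp (L + (σ - 1) * q) := by
    apply Ud_one_le
    have e : -(L + (σ - 1) * q) = -L - (σ - 1) * q := by ring
    rw [e]
    exact hbq
  have hAB : 1 ≤ Ud_A c f p * Ud_B c g q * Real.exp (2 * L + (σ - 1) * ((p : ℝ) + q)) := by
    have h := one_le_mul_of_one_le_of_one_le hA1 hB1
    rw [mul_mul_mul_comm, ← Real.exp_add] at h
    have e : L + (σ - 1) * p + (L + (σ - 1) * q) = 2 * L + (σ - 1) * ((p : ℝ) + q) := by ring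
    rwa [e] at h
  have hsum : ((p : ℝ) + q) * (σ + 10 * d + 10) ≤
      10 * ∑ i ∈ Finset.range (p + q), c (((N + d + 1 : ℕ) : ℤ) + (i : ℤ)) := by
    have h1 : ∀ i ∈ Finset.range (p + q),
        (σ + 10 * d + 10) / 10 ≤ c (((N + d + 1 : ℕ) : ℤ) + (i : ℤ)) := by
      intro i _
      have h2 := Ud_c_add c hc N (d + 1 + i)
      have e : ((N + (d + 1 + i) : ℕ) : ℤ) = ((N + d + 1 : ℕ) : ℤ) + (i : ℤ) := by
        push_cast
        ring
      rw [e] at h2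
      have h3 : (0 : ℝ) ≤ i := Nat.cast_nonneg i
      push_cast at h2 ⊢
      linarith
    have h4 := Finset.card_nsmul_le_sum _ _ _ h1
    simp only [Finset.card_range, nsmul_eq_mul] at h4
    push_cast at h4 ⊢
    linarith
  have hw : win c ((N + d + 1 : ℕ) : ℤ) (p + q) ≤
      Real.exp (-(((p : ℝ) + q) * (σ + 10 * d + 10))) := by
    unfold win
    apply Real.exp_le_exp.mpr
    linarith
  have hT : Ud_T c f g (p + q) ((N + d + 1 : ℕ) : ℤ) ≤ win c ((N + d + 1 : ℕ) : ℤ) (p + q) := by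
    unfold Ud_T
    have h5 : ‖f ((N + d + 1 : ℕ) : ℤ)‖ * ‖g (((N + d + 1 : ℕ) : ℤ) + ((p + q : ℕ) : ℤ))‖ ≤ 1 :=
      mul_le_one₀ (hf _) (norm_nonneg _) (hg _)
    calc _ ≤ 1 * win c ((N + d + 1 : ℕ) : ℤ) (p + q) :=
          mul_le_mul_of_nonneg_right h5 (Ud_win_pos _ _ _).le
      _ = _ := one_mul _
  calc Ud_T c f g (p + q) ((N + d + 1 : ℕ) : ℤ)
      ≤ Real.exp (-(((p : ℝ) + q) * (σ + 10 * d + 10))) := hT.trans hw
    _ = 1 * Real.exp (-(((p : ℝ) + q) * (σ + 10 * d + 10))) := (one_mul _).symm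
    _ ≤ (Ud_A c f p * Ud_B c g q * Real.exp (2 * L + (σ - 1) * ((p : ℝ) + q))) *
          Real.exp (-(((p : ℝ) + q) * (σ + 10 * d + 10))) :=
        mul_le_mul_of_nonneg_right hAB (Real.exp_pos _).le
    _ = _ := by
        rw [mul_assoc, ← Real.exp_add, ← Real.exp_nat_mul, ← Real.exp_add]
        congr 2
        ring

theorem Ud_exp_neg_one : Real.exp (-1) ≤ 1 / 2 := by
  have h := Real.add_one_le_exp (1 : ℝ)
  rw [Real.exp_neg]
  rw [inv_eq_one_div]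
  apply one_div_le_one_div_of_le (by norm_num)
  linarith

theorem Ud_exp_neg_nat (t : ℕ) : Real.exp (-(t : ℝ)) ≤ (1 / 2) ^ t := by
  have e : -(t : ℝ) = (t : ℝ) * (-1) := by ring
  rw [e, Real.exp_nat_mul]
  exact pow_le_pow_left₀ (Real.exp_pos _).le Ud_exp_neg_one t

theorem Ud_exp_neg_two_nat (t : ℕ) : Real.exp (-2 * (t : ℝ)) ≤ (1 / 4) ^ t := by
  have e : -2 * (t : ℝ) = -(t : ℝ) + -(t : ℝ) := by ring
  rw [e, Real.exp_add]
  have h := Ud_exp_neg_nat t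
  have h0 := (Real.exp_pos (-(t : ℝ))).le
  calc Real.exp (-(t : ℝ)) * Real.exp (-(t : ℝ)) ≤ (1 / 2) ^ t * (1 / 2) ^ t :=
        mul_le_mul h h h0 (by positivity)
    _ = (1 / 4) ^ t := by
        rw [← mul_pow]
        norm_num

theorem Ud_hasSum_shift (K : ℕ) (E ρ : ℝ) (h0 : 0 ≤ ρ) (h1 : ρ < 1) :
    HasSum (fun s : ℕ => if K ≤ s then E * ρ ^ (s - K) else 0) (E * (1 - ρ)⁻¹) := by
  have hg := (hasSum_geometric_of_lt_one h0 h1).mul_left E
  rw [← hasSum_nat_add_iff' K]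
  have hz : ∑ i ∈ Finset.range K, (if K ≤ i then E * ρ ^ (i - K) else 0) = 0 := by
    apply Finset.sum_eq_zero
    intro i hi
    have : ¬ K ≤ i := not_le.mpr (Finset.mem_range.mp hi)
    simp [this]
  rw [hz, sub_zero]
  simpa using hg

theorem Ud_right (c : ℤ → ℝ) (hc : VShape c) (f g : ℤ → ℂ)
    (hf : ∀ k, ‖f k‖ ≤ 1) (hg : ∀ k, ‖g k‖ ≤ 1) (L σ : ℝ) (p q : ℕ) (hq : 1 ≤ q)
    (hap : Real.exp (-L - (σ - 1) * p) ≤ Ud_A c f p)
    (hbq : Real.exp (-L - (σ - 1) * q) ≤ Ud_B c g q)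
    (ha : ∀ r : ℕ, Ud_A c f r ≤ Ud_A c f p * Real.exp (σ * ((p : ℝ) - r) - |(p : ℝ) - r|))
    (hb : ∀ r : ℕ, Ud_B c g r ≤ Ud_B c g q * Real.exp (σ * ((q : ℝ) - r) - |(q : ℝ) - r|)) :
    ∃ (m : ℕ → ℝ) (M : ℝ), HasSum m M ∧
      M ≤ 1 / 3 + Real.exp (L - p) + 2 * Real.exp (2 * L - 11 * ((p : ℝ) + q)) ∧
      ∀ s : ℕ, Ud_T c f g (p + q) (-(p : ℤ) + ((s : ℤ) + 1)) ≤ Ud_A c f p * Ud_B c g q * m s := by
  classical
  have hex : ∃ N : ℕ, σ < 10 * c N := by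
    obtain ⟨N, hN⟩ := exists_nat_gt σ
    refine ⟨N, ?_⟩
    have := Ud_c_ge c hc N
    have h0 : (0 : ℝ) ≤ N := Nat.cast_nonneg N
    linarith
  set N := Nat.find hex with hNdef
  have hN : σ < 10 * c N := Nat.find_spec hex
  have hmin : ∀ κ : ℕ, κ < N → 10 * c κ ≤ σ := fun κ hκ => not_lt.mp (Nat.find_min hex hκ)
  set E := Real.exp (2 * L - 11 * ((p : ℝ) + q)) with hE
  set ρ := Real.exp (-10 * ((p : ℝ) + q)) with hρ
  have hρ0 : 0 ≤ ρ := (Real.exp_pos _).le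
  have hρ2 : ρ ≤ 1 / 2 := by
    refine le_trans ?_ Ud_exp_neg_one
    apply Real.exp_le_exp.mpr
    have h1 : (1 : ℝ) ≤ q := by exact_mod_cast hq
    have h2 : (0 : ℝ) ≤ p := Nat.cast_nonneg p
    linarith
  have hρ1 : ρ < 1 := by linarith
  have hE0 : 0 ≤ E := (Real.exp_pos _).le
  have hAB0 : 0 ≤ Ud_A c f p * Ud_B c g q := mul_nonneg (Ud_A_nonneg _ _ _) (Ud_B_nonneg _ _ _)
  have s1 : HasSum (fun s : ℕ => ((1 : ℝ) / 4) ^ (s + 1)) (1 / 3) := by
    have h := (hasSum_geometric_of_lt_one (by norm_num : (0 : ℝ) ≤ 1 / 4)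
      (by norm_num : (1 : ℝ) / 4 < 1)).mul_left (1 / 4)
    have e : (1 : ℝ) / 4 * (1 - 1 / 4)⁻¹ = 1 / 3 := by norm_num
    rw [e] at h
    have e2 : (fun s : ℕ => ((1 : ℝ) / 4) ^ (s + 1)) = fun s : ℕ => (1 : ℝ) / 4 * (1 / 4) ^ s := by
      funext s
      rw [pow_succ]
      ring
    rw [e2]
    exact h
  have s2 : HasSum (fun s : ℕ => Real.exp (L - p) * ((1 : ℝ) / 2) ^ (s + 1)) (Real.exp (L - p)) := by
    have h := (hasSum_geometric_of_lt_one (by norm_num : (0 : ℝ) ≤ 1 / 2)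
      (by norm_num : (1 : ℝ) / 2 < 1)).mul_left (Real.exp (L - p) * (1 / 2))
    have e : Real.exp (L - p) * (1 / 2) * (1 - 1 / 2)⁻¹ = Real.exp (L - p) := by
      have : ((1 : ℝ) - 1 / 2)⁻¹ = 2 := by norm_num
      rw [this]
      ring
    rw [e] at h
    have e2 : (fun s : ℕ => Real.exp (L - p) * ((1 : ℝ) / 2) ^ (s + 1)) =
        fun s : ℕ => Real.exp (L - p) * (1 / 2) * (1 / 2) ^ s := by
      funext s
      rw [pow_succ]
      ring
    rw [e2]
    exact h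
  have s3 := Ud_hasSum_shift (p + N) E ρ hρ0 hρ1
  refine ⟨_, _, (s1.add s2).add s3, ?_, ?_⟩
  · have h1 : (1 - ρ)⁻¹ ≤ 2 := by
      rw [inv_le_comm₀ (by linarith) (by norm_num)]
      linarith
    have h2 : E * (1 - ρ)⁻¹ ≤ E * 2 := mul_le_mul_of_nonneg_left h1 hE0
    linarith
  · intro s
    have p1 : (0 : ℝ) ≤ ((1 : ℝ) / 4) ^ (s + 1) := by positivity
    have p2 : (0 : ℝ) ≤ Real.exp (L - p) * ((1 : ℝ) / 2) ^ (s + 1) := by positivity
    have p3 : (0 : ℝ) ≤ (if p + N ≤ s then E * ρ ^ (s - (p + N)) else 0) := by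
      split_ifs
      · positivity
      · exact le_rfl
    by_cases hs : s + 1 ≤ p
    · have h := Ud_near c f g σ p q (s + 1) hs ha hb
      have e : (-(p : ℤ) + ((s + 1 : ℕ) : ℤ)) = -(p : ℤ) + ((s : ℤ) + 1) := by push_cast; ring
      rw [e] at h
      refine h.trans (mul_le_mul_of_nonneg_left ?_ hAB0)
      have h2 := Ud_exp_neg_two_nat (s + 1)
      linarith
    · have hs' : p ≤ s := by omega
      obtain ⟨κ, rfl⟩ := Nat.exists_eq_add_of_le hs'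
      have e : (-(p : ℤ) + (((p + κ : ℕ) : ℤ) + 1)) = ((κ + 1 : ℕ) : ℤ) := by push_cast; ring
      rw [e]
      by_cases hκ : κ < N
      · have h := Ud_far1 c hc f g hf L σ p q hap hb κ (hmin κ hκ)
        refine h.trans (mul_le_mul_of_nonneg_left ?_ hAB0)
        have e2 : L - 2 * (p : ℝ) - ((κ : ℝ) + 1) = (L - p) + -(((p + κ + 1 : ℕ)) : ℝ) := by
          push_cast
          ring
        rw [e2, Real.exp_add]
        have h2 := Ud_exp_neg_nat (p + κ + 1)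
        have h3 : Real.exp (L - p) * Real.exp (-(((p + κ + 1 : ℕ)) : ℝ)) ≤
            Real.exp (L - p) * ((1 : ℝ) / 2) ^ (p + κ + 1) :=
          mul_le_mul_of_nonneg_left h2 (Real.exp_pos _).le
        linarith
      · have hκ' : N ≤ κ := not_lt.mp hκ
        obtain ⟨d, rfl⟩ := Nat.exists_eq_add_of_le hκ'
        have h := Ud_far2 c hc f g hf hg L σ p q hap hbq N d hN
        refine h.trans (mul_le_mul_of_nonneg_left ?_ hAB0)
        have hif : p + N ≤ p + (N + d) := by omega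
        have e3 : p + (N + d) - (p + N) = d := by omega
        rw [if_pos hif, e3] at p3 ⊢
        linarith

theorem Ud_T_main (c : ℤ → ℝ) (f g : ℤ → ℂ) (p q : ℕ) :
    Ud_T c f g (p + q) (-(p : ℤ)) = Ud_A c f p * Ud_B c g q := by
  unfold Ud_T Ud_A Ud_B
  have e1 : (-(p : ℤ) + ((p + q : ℕ) : ℤ)) = (q : ℤ) := by
    push_cast
    ring
  rw [e1, Ud_win_add]
  have e3 : (-(p : ℤ) + (p : ℤ)) = 0 := by ring
  rw [e3]
  ring

theorem Ud_norm_term (c : ℤ → ℝ) (f g : ℤ → ℂ) (n : ℕ) (k : ℤ) :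
    ‖f k * g (k + n) * (win c k n : ℂ)‖ = Ud_T c f g n k := by
  unfold Ud_T
  rw [norm_mul, norm_mul, Complex.norm_real, Real.norm_of_nonneg (Ud_win_pos _ _ _).le]

/-- Ud: Newton-polygon lemma: two-sided supports are impossible. -/
theorem not_orth_of_unbounded (c : ℤ → ℝ) (hc : VShape c) (f g : ℤ → ℂ)
    (hf : ∀ k, ‖f k‖ ≤ 1) (hg : ∀ k, ‖g k‖ ≤ 1)
    (hfl : ∀ K : ℤ, ∃ k, k < K ∧ f k ≠ 0) (hgu : ∀ K : ℤ, ∃ k, K < k ∧ g k ≠ 0) :
    ¬ Orth c f g := by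
  intro ho
  have hai : ∀ K : ℕ, ∃ r, K < r ∧ Ud_A c f r ≠ 0 := by
    intro K
    obtain ⟨k, hk, hfk⟩ := hfl (-(K : ℤ))
    refine ⟨(-k).toNat, by omega, ?_⟩
    have e : (-(((-k).toNat : ℕ) : ℤ)) = k := by omega
    unfold Ud_A
    rw [e]
    exact mul_ne_zero (norm_ne_zero_iff.mpr hfk) (Ud_win_pos _ _ _).ne'
  have hbi : ∀ K : ℕ, ∃ r, K < r ∧ Ud_B c g r ≠ 0 := by
    intro K
    obtain ⟨k, hk, hgk⟩ := hgu (K : ℤ)
    refine ⟨k.toNat, by omega, ?_⟩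
    have e : ((k.toNat : ℕ) : ℤ) = k := by omega
    unfold Ud_B
    rw [e]
    exact mul_ne_zero (norm_ne_zero_iff.mpr hgk) (Ud_win_pos _ _ _).ne'
  obtain ⟨L, hL⟩ := exists_slope (Ud_A c f) (Ud_B c g) (Ud_A_nonneg c f) (Ud_B_nonneg c g)
    (Ud_A_le c hc f hf) (Ud_B_le c hc g hg) hai hbi
  obtain ⟨R, hR⟩ := exists_nat_ge (L + 5)
  obtain ⟨σ, p, q, hσ, hp, hq, hap, hbq, ha, hb⟩ := hL (R + 1)
  obtain ⟨m1, M1, hm1, hM1, hb1⟩ := Ud_right c hc f g hf hg L σ p q (by omega) hap hbq ha hb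
  obtain ⟨m2, M2, hm2, hM2, hb2⟩ := Ud_right (fun j => c (-j - 1)) hc.mirror (fun k => g (-k))
    (fun k => f (-k)) (fun k => hg _) (fun k => hf _) L σ q p (by omega)
    (by rw [Ud_A_mirror]; exact hbq) (by rw [Ud_B_mirror]; exact hap)
    (by intro r; rw [Ud_A_mirror, Ud_A_mirror]; exact hb r)
    (by intro r; rw [Ud_B_mirror, Ud_B_mirror]; exact ha r)
  rw [Ud_A_mirror, Ud_B_mirror] at hb2
  set MAIN := Ud_A c f p * Ud_B c g q with hMAIN
  have hMpos : 0 < MAIN :=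
    mul_pos (lt_of_lt_of_le (Real.exp_pos _) hap) (lt_of_lt_of_le (Real.exp_pos _) hbq)
  -- numerics
  have hpR : L + 5 ≤ p := by
    have : ((R + 1 : ℕ) : ℝ) ≤ p := by exact_mod_cast hp
    push_cast at this
    linarith
  have hqR : L + 5 ≤ q := by
    have : ((R + 1 : ℕ) : ℝ) ≤ q := by exact_mod_cast hq
    push_cast at this
    linarith
  have h5 : Real.exp (-5) ≤ 1 / 32 := by
    have h := Ud_exp_neg_nat 5
    norm_num at h ⊢
    linarith
  have hp0 : (0 : ℝ) ≤ p := Nat.cast_nonneg p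
  have hq0 : (0 : ℝ) ≤ q := Nat.cast_nonneg q
  have e1 : Real.exp (L - p) ≤ 1 / 32 :=
    le_trans (Real.exp_le_exp.mpr (by linarith)) h5
  have e2 : Real.exp (L - q) ≤ 1 / 32 :=
    le_trans (Real.exp_le_exp.mpr (by linarith)) h5
  have e3 : Real.exp (2 * L - 11 * ((p : ℝ) + q)) ≤ 1 / 32 :=
    le_trans (Real.exp_le_exp.mpr (by linarith)) h5
  have e4 : Real.exp (2 * L - 11 * ((q : ℝ) + p)) ≤ 1 / 32 :=
    le_trans (Real.exp_le_exp.mpr (by linarith)) h5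
  have hM : M1 + M2 < 1 := by linarith
  -- the series
  obtain ⟨F, hFdef⟩ : ∃ F : ℤ → ℂ, F = fun t : ℤ => f (-(p : ℤ) + t) *
      g (-(p : ℤ) + t + ((p + q : ℕ) : ℤ)) * (win c (-(p : ℤ) + t) (p + q) : ℂ) := ⟨_, rfl⟩
  have hF : HasSum F 0 := by
    have h := (Equiv.addLeft (-(p : ℤ))).hasSum_iff.mpr (ho (p + q))
    rw [hFdef]
    exact h
  have hnF : ∀ t, ‖F t‖ = Ud_T c f g (p + q) (-(p : ℤ) + t) := by
    intro t
    rw [hFdef]
    exact Ud_norm_term _ _ _ _ _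
  have b1 : ∀ s : ℕ, ‖F ((s + 1 : ℕ) : ℤ)‖ ≤ MAIN * m1 s := by
    intro s
    rw [hnF]
    have e : (-(p : ℤ) + ((s + 1 : ℕ) : ℤ)) = -(p : ℤ) + ((s : ℤ) + 1) := by push_cast; ring
    rw [e]
    exact hb1 s
  have b2 : ∀ s : ℕ, ‖F (-((s : ℤ) + 1))‖ ≤ MAIN * m2 s := by
    intro s
    rw [hnF]
    have h := hb2 s
    rw [Ud_T_mirror] at h
    have e : (-(-(q : ℤ) + ((s : ℤ) + 1)) - ((q + p : ℕ) : ℤ)) = -(p : ℤ) + -((s : ℤ) + 1) := by
      push_cast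
      ring
    rw [e, Nat.add_comm q p, mul_comm (Ud_B c g q)] at h
    exact h
  have sm1 : Summable (fun s : ℕ => F ((s + 1 : ℕ) : ℤ)) :=
    Summable.of_norm_bounded (hm1.summable.mul_left MAIN) b1
  have sm2 : Summable (fun s : ℕ => F (-((s : ℤ) + 1))) :=
    Summable.of_norm_bounded (hm2.summable.mul_left MAIN) b2
  have n1 : ‖∑' s : ℕ, F ((s + 1 : ℕ) : ℤ)‖ ≤ MAIN * M1 :=
    tsum_of_norm_bounded (hm1.mul_left MAIN) b1
  have n2 : ‖∑' s : ℕ, F (-((s : ℤ) + 1))‖ ≤ MAIN * M2 :=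
    tsum_of_norm_bounded (hm2.mul_left MAIN) b2
  have hs1 : HasSum (fun n : ℕ => F (n : ℤ))
      ((∑' s : ℕ, F ((s + 1 : ℕ) : ℤ)) + ∑ i ∈ Finset.range 1, F (i : ℤ)) :=
    (hasSum_nat_add_iff (f := fun n : ℕ => F (n : ℤ)) 1).mp sm1.hasSum
  have hs := HasSum.of_nat_of_neg_add_one hs1 sm2.hasSum
  have hu := hF.unique hs
  simp only [Finset.range_one, Finset.sum_singleton, Nat.cast_zero] at hu
  have hF0 : ‖F 0‖ = MAIN := by
    rw [hnF, add_zero, Ud_T_main]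
  have h0 : F 0 = -((∑' s : ℕ, F ((s + 1 : ℕ) : ℤ)) + ∑' s : ℕ, F (-((s : ℤ) + 1))) := by
    linear_combination -hu
  have h1 : ‖F 0‖ ≤ MAIN * M1 + MAIN * M2 := by
    rw [h0, norm_neg]
    exact (norm_add_le _ _).trans (add_le_add n1 n2)
  rw [hF0] at h1
  nlinarith


end Crest.Agent.R113.UL
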