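import Crest.Agent.R113.ULChain
import Crest.Agent.R113.U90UniAssembly

/-! R113, cut U: the key lemma and unicellularity from the sequence-level chain `UL`
(orth_lowest, orth_highest, not_orth_of_unbounded) and helper90's operator-level assembly. -/

set_option autoImplicit false
open Crest.AnalysisR.TwoAdic
open scoped ComplexConjugate

namespace Crest.Agent.R113.UL

theorem key_unit (c : ℤ → ℝ) (hc : VShape c) (f g : ℤ → ℂ)
    (hf : ∀ k, ‖f k‖ ≤ 1) (hg : ∀ k, ‖g k‖ ≤ 1) (ho : Orth c f g) (a b : ℤ) (hab : a ≤ b) :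
    f a = 0 ∨ g b = 0 := by
  by_contra hcon
  push Not at hcon
  obtain ⟨hfa, hgb⟩ := hcon
  by_cases h1 : ∃ K : ℤ, ∀ k, f k ≠ 0 → K ≤ k
  · obtain ⟨h, hh, hmin⟩ := Int.exists_least_of_bdd (P := fun z => f z ≠ 0) h1 ⟨a, hfa⟩
    have hlow : ∀ j < h, f j = 0 := by
      intro j hj
      by_contra hne
      have := hmin j hne
      omega
    exact hgb (orth_lowest c hc f g hf hg h hh hlow ho b (le_trans (hmin a hfa) hab))
  by_cases h2 : ∃ K : ℤ, ∀ k, g k ≠ 0 → k ≤ K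
  · obtain ⟨m, hm, hmax⟩ := Int.exists_greatest_of_bdd (P := fun z => g z ≠ 0) h2 ⟨b, hgb⟩
    have hhigh : ∀ j, m < j → g j = 0 := by
      intro j hj
      by_contra hne
      have := hmax j hne
      omega
    exact hfa (orth_highest c hc f g hf hg m hm hhigh ho a (le_trans hab (hmax b hgb)))
  push Not at h1 h2
  exact not_orth_of_unbounded c hc f g hf hg
    (fun K => by obtain ⟨k, hk, hlt⟩ := h1 K; exact ⟨k, hlt, hk⟩)
    (fun K => by obtain ⟨k, hk, hlt⟩ := h2 K; exact ⟨k, hlt, hk⟩) ho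

theorem key_bdd (c : ℤ → ℝ) (hc : VShape c) (f g : ℤ → ℂ) (F G : ℝ)
    (hf : ∀ k, ‖f k‖ ≤ F) (hg : ∀ k, ‖g k‖ ≤ G) (ho : Orth c f g) (a b : ℤ) (hab : a ≤ b) :
    f a = 0 ∨ g b = 0 := by
  set F' : ℝ := max F 1 with hF'
  set G' : ℝ := max G 1 with hG'
  have hF0 : 0 < F' := lt_of_lt_of_le one_pos (le_max_right _ _)
  have hG0 : 0 < G' := lt_of_lt_of_le one_pos (le_max_right _ _)
  have hf' : ∀ k, ‖((F'⁻¹ : ℝ) : ℂ) * f k‖ ≤ 1 := by
    intro k
    rw [norm_mul, Complex.norm_real, Real.norm_of_nonneg (inv_pos.mpr hF0).le]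
    have : ‖f k‖ ≤ F' := le_trans (hf k) (le_max_left _ _)
    rw [inv_mul_le_iff₀ hF0]
    simpa using this
  have hg' : ∀ k, ‖((G'⁻¹ : ℝ) : ℂ) * g k‖ ≤ 1 := by
    intro k
    rw [norm_mul, Complex.norm_real, Real.norm_of_nonneg (inv_pos.mpr hG0).le]
    have : ‖g k‖ ≤ G' := le_trans (hg k) (le_max_left _ _)
    rw [inv_mul_le_iff₀ hG0]
    simpa using this
  have ho' : Orth c (fun k => ((F'⁻¹ : ℝ) : ℂ) * f k) (fun k => ((G'⁻¹ : ℝ) : ℂ) * g k) := by
    intro n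
    have h := (ho n).mul_left (((F'⁻¹ : ℝ) : ℂ) * ((G'⁻¹ : ℝ) : ℂ))
    rw [mul_zero] at h
    have e : (fun k : ℤ => ((F'⁻¹ : ℝ) : ℂ) * f k * (((G'⁻¹ : ℝ) : ℂ) * g (k + n)) * (win c k n : ℂ))
        = fun i : ℤ => ((F'⁻¹ : ℝ) : ℂ) * ((G'⁻¹ : ℝ) : ℂ) * (f i * g (i + n) * (win c i n : ℂ)) := by
      funext k
      ring
    show HasSum (fun k : ℤ => ((F'⁻¹ : ℝ) : ℂ) * f k * (((G'⁻¹ : ℝ) : ℂ) * g (k + n)) * (win c k n : ℂ)) 0
    rw [e]
    exact h
  have hFne : ((F'⁻¹ : ℝ) : ℂ) ≠ 0 := by exact_mod_cast (inv_pos.mpr hF0).ne'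
  have hGne : ((G'⁻¹ : ℝ) : ℂ) ≠ 0 := by exact_mod_cast (inv_pos.mpr hG0).ne'
  rcases key_unit c hc _ _ hf' hg' ho' a b hab with h | h
  · left
    exact (mul_eq_zero.mp h).resolve_left hFne
  · right
    exact (mul_eq_zero.mp h).resolve_left hGne

/-- unicellularity (hard direction) for V-shaped real exponents -/
theorem unicellular (c : ℤ → ℝ) (hc : VShape c) (A : seqHilbert →L[ℂ] seqHilbert)
    (hA : ∀ j, A (basisVec j) = ((Real.exp (-10 * c j) : ℝ) : ℂ) • basisVec (j + 1))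
    (W : Submodule ℂ seqHilbert) (hW : IsClosed (W : Set seqHilbert))
    (hinv : ∀ v ∈ W, A v ∈ W) : W = ⊥ ∨ W = ⊤ ∨ ∃ h : ℤ, W = tailSpace h := by
  apply U90.unicellular_of_key W hW
  intro f hf g hg a b hab
  have ho : Orth c (fun k => f k) (fun k => conj (g k)) := by
    intro n
    have h := U90.hasSum_inner_pow' c A hA n f g
    rw [Submodule.inner_left_of_mem_orthogonal (U90.pow_mem hinv n f hf) hg] at h
    have e : (fun k : ℤ => f k * conj (g (k + n)) * (win c k n : ℂ))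
        = fun j : ℤ => ((Real.exp (-10 * ∑ i ∈ Finset.range n, c (j + i)) : ℝ) : ℂ) * f j *
      (starRingEnd ℂ) (g (j + n)) := by
      funext k
      unfold win
      ring
    show HasSum (fun k : ℤ => f k * conj (g (k + n)) * (win c k n : ℂ)) 0
    rw [e]
    exact h
  rcases key_bdd c hc _ _ ‖f‖ ‖g‖ (fun k => U90.norm_apply_le f k)
    (fun k => by rw [RCLike.norm_conj]; exact U90.norm_apply_le g k) ho a b hab with h | h
  · left; exact h
  · right
    exact (map_eq_zero _).mp h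

end Crest.Agent.R113.UL
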