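import Crest.Agent.R113.Defs

/-! R113 swarm, task W1 (helper62): `cpos_succ`, `cpos_zero`, `vshape_cw`, `cw_zero`. -/
set_option autoImplicit false
open Crest.AnalysisR.TwoAdic MeasureTheory

namespace Crest.Agent.R113

theorem w1_lev_spec (i : ℕ) (x : ℤ_[2]) : 4 ^ lev i x ≤ 1 + i + x.appr (lev i x) := by
  unfold lev
  exact Nat.findGreatest_spec (P := fun a => 4 ^ a ≤ 1 + i + x.appr a) (m := 0) (Nat.zero_le _)
    (by simp; omega)

theorem w1_lev_le (i : ℕ) (x : ℤ_[2]) : lev i x ≤ i + 1 := by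
  unfold lev
  exact Nat.findGreatest_le _

theorem w1_lev_mono (i : ℕ) (x : ℤ_[2]) : lev i x ≤ lev (i + 1) x := by
  have h1 := w1_lev_spec i x
  have h2 := w1_lev_le i x
  have : lev i x ≤ Nat.findGreatest (fun a => 4 ^ a ≤ 1 + (i + 1) + x.appr a) (i + 1 + 1) :=
    Nat.le_findGreatest (by omega) (by omega)
  exact this

theorem cpos_succ (i : ℕ) (x : ℤ_[2]) : cpos i x + 1 ≤ cpos (i + 1) x := by
  have h := PadicInt.appr_mono x (w1_lev_mono i x)
  unfold cpos
  omega

theorem w1_lev_zero (x : ℤ_[2]) : lev 0 x = 0 := by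
  have h1 := w1_lev_spec 0 x
  have h2 := w1_lev_le 0 x
  by_contra hne
  have h3 : lev 0 x = 1 := by omega
  rw [h3] at h1
  have h4 := PadicInt.appr_lt x 1
  norm_num at h1 h4
  omega

theorem cpos_zero (x : ℤ_[2]) : cpos 0 x = 1 := by
  have h4 := PadicInt.appr_lt x 0
  unfold cpos
  rw [w1_lev_zero]
  norm_num at h4
  omega

theorem cw_zero (x : ℤ_[2]) : cw 0 x = 1 := by
  unfold cw
  simp [cpos_zero]

theorem vshape_cw (x : ℤ_[2]) : VShape (fun j => cw j x) where
  up := by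
    intro j hj
    have h1 : (0 : ℤ) ≤ j + 1 := by omega
    have h2 : (j + 1).toNat = j.toNat + 1 := by omega
    simp only [cw, hj, h1, if_true, h2]
    exact cpos_succ _ _
  down := by
    intro j hj
    have h0 : ¬ (0 : ℤ) ≤ j := by omega
    have h1 : ¬ (0 : ℤ) ≤ j - 1 := by omega
    have h2 : (-(j - 1) - 1).toNat = (-j - 1).toNat + 1 := by omega
    simp only [cw, h0, h1, if_false, h2]
    exact cpos_succ _ _
  pos0 := by
    show 1 ≤ cw 0 x
    rw [cw_zero]
  posm := by
    show 1 ≤ cw (-1) x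
    have : cw (-1) x = cpos 0 (-x) := by
      unfold cw
      simp
    rw [this, cpos_zero]

end Crest.Agent.R113
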